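import Crest.Agent.H25.Defs

set_option autoImplicit false

namespace Crest.Agent.H25

open Finset

section av

variable {Ω : Type*} [Fintype Ω] {r s : Ω → Ω → Prop}

open Classical in
theorem class_card_pos (hr : Equivalence r) (x : Ω) :
    0 < ((univ.filter (fun y => r x y)).card : ℝ) := by
  have : x ∈ univ.filter (fun y => r x y) := by simp [hr.refl x]
  exact_mod_cast Finset.card_pos.mpr ⟨x, this⟩

open Classical in
theorem class_eq (hr : Equivalence r) {x y : Ω} (h : r x y) :
    (univ.filter (fun z => r x z)) = univ.filter (fun z => r y z) := by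
  ext z
  simp only [mem_filter, mem_univ, true_and]
  exact ⟨fun hz => hr.trans (hr.symm h) hz, fun hz => hr.trans h hz⟩

theorem av_congr_class (hr : Equivalence r) (f : Ω → ℝ) {x y : Ω} (h : r x y) :
    av r f x = av r f y := by
  classical
  unfold av
  rw [class_eq hr h]

theorem av_of_inv (hr : Equivalence r) (f : Ω → ℝ) (x : Ω) (h : ∀ y, r x y → f y = f x) :
    av r f x = f x := by
  classical
  unfold av
  rw [Finset.sum_congr rfl (g := fun _ => f x)]
  · rw [Finset.sum_const, nsmul_eq_mul]
    have := class_card_pos hr x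
    field_simp
  · intro y hy
    exact h y (by simpa using hy)

theorem av_add (f g : Ω → ℝ) (x : Ω) : av r (fun y => f y + g y) x = av r f x + av r g x := by
  classical
  unfold av
  rw [Finset.sum_add_distrib, add_div]

theorem av_sub (f g : Ω → ℝ) (x : Ω) : av r (fun y => f y - g y) x = av r f x - av r g x := by
  classical
  unfold av
  rw [Finset.sum_sub_distrib, sub_div]

theorem av_smul (c : ℝ) (f : Ω → ℝ) (x : Ω) : av r (fun y => c * f y) x = c * av r f x := by
  classical
  unfold av
  rw [← Finset.mul_sum, mul_div_assoc]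

/-- `av r` is self-adjoint. -/
theorem sum_av_mul (hr : Equivalence r) (f g : Ω → ℝ) :
    ∑ x, av r f x * g x = ∑ x, f x * av r g x := by
  classical
  have h1 : ∀ x, av r f x * g x = ∑ y, if r x y then
      f y * g x / ((univ.filter (fun y => r x y)).card : ℝ) else 0 := by
    intro x
    unfold av
    rw [Finset.sum_filter, Finset.sum_div, Finset.sum_mul]
    refine Finset.sum_congr rfl fun y _ => ?_
    split_ifs
    · ring
    · simp
  have h2 : ∀ x, f x * av r g x = ∑ y, if r x y then
      f x * g y / ((univ.filter (fun y => r x y)).card : ℝ) else 0 := by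
    intro x
    unfold av
    rw [Finset.sum_filter, Finset.sum_div, Finset.mul_sum]
    refine Finset.sum_congr rfl fun y _ => ?_
    split_ifs
    · ring
    · simp
  simp_rw [h1, h2]
  rw [Finset.sum_comm]
  refine Finset.sum_congr rfl fun x _ => Finset.sum_congr rfl fun y _ => ?_
  by_cases h : r x y
  · have h' : r y x := hr.symm h
    rw [if_pos h, if_pos h', class_eq hr h]
  · have h' : ¬ r y x := fun h' => h (hr.symm h')
    rw [if_neg h, if_neg h']

theorem av_av (hr : Equivalence r) (f : Ω → ℝ) : av r (av r f) = av r f := by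
  funext x
  exact av_of_inv hr _ x fun y hy => (av_congr_class hr f hy).symm

/-- if `s ⊆ r` (as relations) then averaging over `s` does nothing on `r`-averages. -/
theorem av_av_of_le (hr : Equivalence r) (hs : Equivalence s) (hsr : ∀ x y, s x y → r x y)
    (f : Ω → ℝ) : av s (av r f) = av r f := by
  funext x
  exact av_of_inv hs _ x fun y hy => (av_congr_class hr f (hsr _ _ hy)).symm

theorem eq_of_forall_sum (u v : Ω → ℝ) (h : ∀ g : Ω → ℝ, ∑ x, u x * g x = ∑ x, v x * g x) :
    u = v := by
  have h0 : ∑ x, (u x - v x) ^ 2 = 0 := by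
    have := h (fun x => u x - v x)
    have h2 : ∑ x, (u x - v x) ^ 2 = ∑ x, u x * (u x - v x) - ∑ x, v x * (u x - v x) := by
      rw [← Finset.sum_sub_distrib]
      exact Finset.sum_congr rfl fun x _ => by ring
    rw [h2, this, sub_self]
  funext x
  have := (Finset.sum_eq_zero_iff_of_nonneg (fun x _ => sq_nonneg (u x - v x))).mp h0 x (mem_univ x)
  have : u x - v x = 0 := by simpa using this
  linarith

theorem av_av_of_le' (hr : Equivalence r) (hs : Equivalence s) (hsr : ∀ x y, s x y → r x y)
    (f : Ω → ℝ) : av r (av s f) = av r f := by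
  apply eq_of_forall_sum
  intro g
  rw [sum_av_mul hr, sum_av_mul hs, av_av_of_le hr hs hsr, ← sum_av_mul hr]

/-- Commutation criterion. -/
theorem av_comm (hr : Equivalence r) (hs : Equivalence s)
    (h : ∀ x y, r x y → ∃ φ : Ω → Ω, Set.BijOn φ {z | s x z} {w | s y w} ∧
      ∀ z, s x z → r z (φ z)) (f : Ω → ℝ) :
    av r (av s f) = av s (av r f) := by
  classical
  -- E_s E_r f is r-invariant
  have key : ∀ f : Ω → ℝ, ∀ x y, r x y → av s (av r f) x = av s (av r f) y := by
    intro f x y hxy
    obtain ⟨φ, hφ, hφr⟩ := h x y hxy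
    have hmem : ∀ z, z ∈ univ.filter (fun z => s x z) ↔ s x z := by intro z; simp
    have hcard : (univ.filter (fun z => s x z)).card = (univ.filter (fun w => s y w)).card := by
      refine Finset.card_bij (fun z _ => φ z) ?_ ?_ ?_
      · intro z hz
        have := hφ.mapsTo (show z ∈ {z | s x z} by simpa using hz)
        simpa using this
      · intro a ha b hb hab
        exact hφ.injOn (by simpa using ha) (by simpa using hb) hab
      · intro w hw
        obtain ⟨z, hz, rfl⟩ := hφ.surjOn (show w ∈ {w | s y w} by simpa using hw)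
        exact ⟨z, by simpa using hz, rfl⟩
    have hsum : ∑ z ∈ univ.filter (fun z => s x z), av r f z =
        ∑ w ∈ univ.filter (fun w => s y w), av r f w := by
      refine Finset.sum_bij (fun z _ => φ z) ?_ ?_ ?_ ?_
      · intro z hz
        have := hφ.mapsTo (show z ∈ {z | s x z} by simpa using hz)
        simpa using this
      · intro a ha b hb hab
        exact hφ.injOn (by simpa using ha) (by simpa using hb) hab
      · intro w hw
        obtain ⟨z, hz, rfl⟩ := hφ.surjOn (show w ∈ {w | s y w} by simpa using hw)
        exact ⟨z, by simpa using hz, rfl⟩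
      · intro z hz
        exact av_congr_class hr f (hφr z (by simpa using hz))
    unfold av at hsum ⊢
    rw [hsum, hcard]
  have h1 : ∀ f : Ω → ℝ, av r (av s (av r f)) = av s (av r f) := by
    intro f
    funext x
    exact av_of_inv hr _ x fun y hy => (key f x y hy).symm
  have h2 : av r (av s (av r f)) = av r (av s f) := by
    apply eq_of_forall_sum
    intro g
    rw [sum_av_mul hr, sum_av_mul hs, sum_av_mul hr, sum_av_mul hr, sum_av_mul hs, h1]
  rw [← h2, h1]

end av

end Crest.Agent.H25
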