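import Crest.Agent.H25.Disjoint

set_option autoImplicit false
set_option linter.unusedSectionVars false
set_option linter.unusedVariables false

namespace Crest.Agent.H25

open Finset

variable {V : Type*} [Fintype V] [DecidableEq V] {d : V → ℕ}

theorem flip_off {x y : V} {Z : Finset V} {G : V → V → Bool} {u v : V}
    (hux : u ≠ x) (huy : u ≠ y) (hvx : v ≠ x) (hvy : v ≠ y) : flip x y Z G u v = G u v := by
  simp only [flip, Equiv.swap_apply_of_ne_of_ne hux huy, Equiv.swap_apply_of_ne_of_ne hvx hvy,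
    ite_self]

theorem flip_row_x {x y : V} {Z : Finset V} (hx : x ∉ Z) {G : V → V → Bool} (z : V) :
    flip x y Z G x z = if z ∈ Z then G y z else G x z := by
  simp only [flip, hx, if_false, Equiv.swap_apply_left]
  split_ifs <;> rfl

theorem flip_row_y {x y : V} {Z : Finset V} (hy : y ∉ Z) {G : V → V → Bool} (z : V) :
    flip x y Z G y z = if z ∈ Z then G x z else G y z := by
  simp only [flip, hy, if_false, Equiv.swap_apply_right]
  split_ifs <;> rfl

theorem flip_congr {x y : V} {Z Z' : Finset V} (hx : x ∉ Z) (hy : y ∉ Z) (hx' : x ∉ Z')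
    (hy' : y ∉ Z') {G : V → V → Bool} (hs : ∀ u v, G u v = G v u)
    (h : ∀ z, G x z ≠ G y z → (z ∈ Z ↔ z ∈ Z')) : flip x y Z G = flip x y Z' G := by
  have hrow : ∀ u, (u = x ∨ u = y) → ∀ z, flip x y Z G u z = flip x y Z' G u z := by
    rintro u (rfl | rfl) z
    · rw [flip_row_x hx, flip_row_x hx']
      by_cases hz : G u z = G y z
      · simp [hz]
      · simp [h z hz]
    · rw [flip_row_y hy, flip_row_y hy']
      by_cases hz : G x z = G u z
      · simp [hz]
      · simp [h z hz]
  funext u v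
  by_cases hu : u = x ∨ u = y
  · exact hrow u hu v
  · by_cases hv : v = x ∨ v = y
    · rw [flip_symm hs, flip_symm hs u v]; exact hrow v hv u
    · push Not at hu hv
      rw [flip_off hu.1 hu.2 hv.1 hv.2, flip_off hu.1 hu.2 hv.1 hv.2]

/-- split columns -/
def Rset (x y : V) (G : V → V → Bool) : Finset V :=
  univ.filter (fun z => z ≠ x ∧ z ≠ y ∧ G x z ≠ G y z)

/-- split columns held by `x` -/
def Sset (x y : V) (G : V → V → Bool) : Finset V :=
  univ.filter (fun z => (z ≠ x ∧ z ≠ y ∧ G x z ≠ G y z) ∧ G x z = true)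

theorem mem_Rset {x y z : V} {G : V → V → Bool} :
    z ∈ Rset x y G ↔ z ≠ x ∧ z ≠ y ∧ G x z ≠ G y z := by simp [Rset]

theorem mem_Sset {x y z : V} {G : V → V → Bool} :
    z ∈ Sset x y G ↔ (z ≠ x ∧ z ≠ y ∧ G x z ≠ G y z) ∧ G x z = true := by simp [Sset]

theorem Sset_subset (x y : V) (G : V → V → Bool) : Sset x y G ⊆ Rset x y G := by
  intro z hz
  rw [mem_Sset] at hz
  rw [mem_Rset]; exact hz.1

theorem not_mem_sd {x y : V} {G : V → V → Bool} {S : Finset V} (hS : S ⊆ Rset x y G) :
    x ∉ symmDiff S (Sset x y G) ∧ y ∉ symmDiff S (Sset x y G) := by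
  have h1 : ∀ z, z ∈ symmDiff S (Sset x y G) → z ∈ Rset x y G := by
    intro z hz
    rw [Finset.mem_symmDiff] at hz
    rcases hz with h | h
    · exact hS h.1
    · exact Sset_subset x y G h.1
  refine ⟨fun h => ?_, fun h => ?_⟩
  · have := mem_Rset.mp (h1 _ h); tauto
  · have := mem_Rset.mp (h1 _ h); tauto

theorem flip_sd_row {x y : V} {G : V → V → Bool} {S : Finset V} (hS : S ⊆ Rset x y G) {z : V}
    (hz : z ∈ Rset x y G) :
    flip x y (symmDiff S (Sset x y G)) G x z = decide (z ∈ S) ∧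
    flip x y (symmDiff S (Sset x y G)) G y z = !decide (z ∈ S) := by
  obtain ⟨hx, hy⟩ := not_mem_sd hS
  rw [flip_row_x hx, flip_row_y hy]
  simp only [Finset.mem_symmDiff, mem_Sset]
  obtain ⟨h1, h2, h3⟩ := mem_Rset.mp hz
  by_cases hzS : z ∈ S
  · simp only [hzS, h1, h2, h3, ne_eq, not_false_eq_true, true_and, not_true_eq_false, and_false,
      or_false, decide_true]
    revert h3
    cases G x z <;> cases G y z <;> simp
  · simp only [hzS, h1, h2, h3, ne_eq, not_false_eq_true, true_and, not_true_eq_false, and_true,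
      false_or, decide_false, false_and]
    revert h3
    cases G x z <;> cases G y z <;> simp

theorem flip_sd_row_off {x y : V} {G : V → V → Bool} {S : Finset V} (hS : S ⊆ Rset x y G) {z : V}
    (hz : z ∉ Rset x y G) :
    flip x y (symmDiff S (Sset x y G)) G x z = G x z ∧
    flip x y (symmDiff S (Sset x y G)) G y z = G y z := by
  obtain ⟨hx, hy⟩ := not_mem_sd hS
  have hz' : z ∉ symmDiff S (Sset x y G) := by
    intro h
    rw [Finset.mem_symmDiff] at h
    rcases h with h | h
    · exact hz (hS h.1)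
    · exact hz (Sset_subset x y G h.1)
  rw [flip_row_x hx, flip_row_y hy]
  simp [hz']

/-- degree of `x` -/
theorem deg_x_eq {x y : V} (G : V → V → Bool) :
    (univ.filter fun w => G x w = true).card =
      (Sset x y G).card + ((univ.filter fun w => G x w = true).filter (fun w => w ∉ Rset x y G)).card := by
  have h1 : (Sset x y G) = (univ.filter fun w => G x w = true).filter (fun w => w ∈ Rset x y G) := by
    ext z
    rw [mem_Sset, Finset.mem_filter, Finset.mem_filter, mem_Rset]
    simp only [Finset.mem_univ, true_and]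
    tauto
  rw [h1, Finset.card_filter_add_card_filter_not]

theorem deg_y_eq {x y : V} (G : V → V → Bool) :
    (univ.filter fun w => G y w = true).card =
      (Rset x y G \ Sset x y G).card +
        ((univ.filter fun w => G y w = true).filter (fun w => w ∉ Rset x y G)).card := by
  have h1 : (Rset x y G \ Sset x y G) =
      (univ.filter fun w => G y w = true).filter (fun w => w ∈ Rset x y G) := by
    ext z
    rw [Finset.mem_sdiff, mem_Sset, Finset.mem_filter, Finset.mem_filter, mem_Rset]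
    simp only [Finset.mem_univ, true_and]
    constructor
    · rintro ⟨h, h'⟩
      refine ⟨?_, h⟩
      have h3 := h.2.2
      have h4 : ¬ G x z = true := fun h5 => h' ⟨h, h5⟩
      revert h3 h4
      cases G x z <;> cases G y z <;> simp
    · rintro ⟨h, h'⟩
      refine ⟨h', fun h5 => ?_⟩
      exact h'.2.2 (h5.2.trans h.symm)
  rw [h1, Finset.card_filter_add_card_filter_not]

theorem Rset_flip_sd {x y : V} {G : V → V → Bool} {S : Finset V} (hS : S ⊆ Rset x y G) :
    Rset x y (flip x y (symmDiff S (Sset x y G)) G) = Rset x y G := by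
  ext z
  by_cases hz : z ∈ Rset x y G
  · have h := flip_sd_row hS hz
    have hz' := mem_Rset.mp hz
    rw [mem_Rset, h.1, h.2]
    simp only [hz, iff_true]
    refine ⟨hz'.1, hz'.2.1, ?_⟩
    cases decide (z ∈ S) <;> simp
  · have h := flip_sd_row_off hS hz
    rw [mem_Rset, h.1, h.2, ← mem_Rset]

theorem Sset_flip_sd {x y : V} {G : V → V → Bool} {S : Finset V} (hS : S ⊆ Rset x y G) :
    Sset x y (flip x y (symmDiff S (Sset x y G)) G) = S := by
  ext z
  rw [mem_Sset, ← mem_Rset, Rset_flip_sd hS]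
  by_cases hz : z ∈ Rset x y G
  · rw [(flip_sd_row hS hz).1]; simp [hz]
  · simp only [hz, false_and, false_iff]
    exact fun h => hz (hS h)

theorem isReal_flip_sd {x y : V} (hxy : x ≠ y) (G : Rz d) {S : Finset V}
    (hS : S ∈ (Rset x y G.1).powersetCard (Sset x y G.1).card) :
    IsReal d (flip x y (symmDiff S (Sset x y G.1)) G.1) := by
  obtain ⟨hS1, hS2⟩ := Finset.mem_powersetCard.mp hS
  refine ⟨fun u v => flip_symm G.2.1 u v, fun u => flip_irrefl G.2.2.1 u, fun v => ?_⟩
  set H := flip x y (symmDiff S (Sset x y G.1)) G.1 with hH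
  have hcom : ∀ w, w ∉ Rset x y G.1 → H x w = G.1 x w ∧ H y w = G.1 y w := by
    intro w hw; rw [hH]; exact flip_sd_row_off hS1 hw
  by_cases hvx : v = x
  · subst hvx
    rw [← G.2.2.2 v, deg_x_eq (y := y) H, deg_x_eq (y := y) G.1, hH, Sset_flip_sd hS1,
      Rset_flip_sd hS1, ← hH, hS2]
    congr 2
    ext w
    simp only [Finset.mem_filter, Finset.mem_univ, true_and]
    constructor
    · rintro ⟨h1, h2⟩; rw [(hcom w h2).1] at h1; exact ⟨h1, h2⟩
    · rintro ⟨h1, h2⟩; rw [← (hcom w h2).1] at h1; exact ⟨h1, h2⟩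
  · by_cases hvy : v = y
    · subst hvy
      rw [← G.2.2.2 v, deg_y_eq (x := x) H, deg_y_eq (x := x) G.1, hH, Sset_flip_sd hS1,
        Rset_flip_sd hS1, ← hH, Finset.card_sdiff_of_subset hS1,
        Finset.card_sdiff_of_subset (Sset_subset x v G.1), hS2]
      congr 2
      ext w
      simp only [Finset.mem_filter, Finset.mem_univ, true_and]
      constructor
      · rintro ⟨h1, h2⟩; rw [(hcom w h2).2] at h1; exact ⟨h1, h2⟩
      · rintro ⟨h1, h2⟩; rw [← (hcom w h2).2] at h1; exact ⟨h1, h2⟩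
    · rw [hH, deg_flip G.1 hvx hvy]; exact G.2.2.2 v

open Classical in
/-- the element of the class of `G` with row set `S`. -/
noncomputable def mkR (x y : V) (G : Rz d) (S : Finset V) : Rz d :=
  if h : IsReal d (flip x y (symmDiff S (Sset x y G.1)) G.1) then ⟨_, h⟩ else G

/-- the index set of the class of `G` -/
def Jset (x y : V) (G : V → V → Bool) : Finset (Finset V) :=
  (Rset x y G).powersetCard (Sset x y G).card

theorem mkR_val {x y : V} (hxy : x ≠ y) (G : Rz d) {S : Finset V} (hS : S ∈ Jset x y G.1) :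
    (mkR x y G S).1 = flip x y (symmDiff S (Sset x y G.1)) G.1 := by
  unfold mkR
  rw [dif_pos (isReal_flip_sd hxy G hS)]

theorem Jset_sub {x y : V} {G : V → V → Bool} {S : Finset V} (hS : S ∈ Jset x y G) :
    S ⊆ Rset x y G := (Finset.mem_powersetCard.mp hS).1

theorem Sset_mkR {x y : V} (hxy : x ≠ y) (G : Rz d) {S : Finset V} (hS : S ∈ Jset x y G.1) :
    Sset x y (mkR x y G S).1 = S := by
  rw [mkR_val hxy G hS, Sset_flip_sd (Jset_sub hS)]

theorem Rset_mkR {x y : V} (hxy : x ≠ y) (G : Rz d) {S : Finset V} (hS : S ∈ Jset x y G.1) :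
    Rset x y (mkR x y G S).1 = Rset x y G.1 := by
  rw [mkR_val hxy G hS, Rset_flip_sd (Jset_sub hS)]

theorem rel_mkR {x y : V} (hxy : x ≠ y) (G : Rz d) {S : Finset V} (hS : S ∈ Jset x y G.1) :
    Rel x y G (mkR x y G S) :=
  ⟨_, (not_mem_sd (Jset_sub hS)).1, (not_mem_sd (Jset_sub hS)).2, mkR_val hxy G hS⟩

theorem Rset_of_rel {x y : V} {G G' : Rz d} (h : Rel x y G G') :
    Rset x y G'.1 = Rset x y G.1 := by
  obtain ⟨Z, hx, hy, hZ⟩ := h
  ext z
  rw [mem_Rset, mem_Rset, hZ, flip_row_x hx, flip_row_y hy]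
  by_cases hz : z ∈ Z
  · simp only [hz, if_true]
    constructor
    · rintro ⟨h1, h2, h3⟩; exact ⟨h1, h2, h3.symm⟩
    · rintro ⟨h1, h2, h3⟩; exact ⟨h1, h2, h3.symm⟩
  · simp only [hz, if_false]

theorem common_of_rel {x y : V} {G G' : Rz d} (h : Rel x y G G') {w : V}
    (hwx : w ≠ x) (hwy : w ≠ y) (hw : w ∉ Rset x y G.1) : G'.1 x w = G.1 x w := by
  obtain ⟨Z, hx, hy, hZ⟩ := h
  rw [hZ, flip_row_x hx]
  have : G.1 x w = G.1 y w := by
    by_contra hne
    exact hw (mem_Rset.mpr ⟨hwx, hwy, hne⟩)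
  rw [this, ite_self]

theorem Sset_mem_Jset_of_rel {x y : V} (hxy : x ≠ y) {G G' : Rz d} (h : Rel x y G G') :
    Sset x y G'.1 ∈ Jset x y G.1 := by
  refine Finset.mem_powersetCard.mpr ⟨?_, ?_⟩
  · rw [← Rset_of_rel h]; exact Sset_subset x y G'.1
  · have h1 := deg_x_eq (x := x) (y := y) G.1
    have h2 := deg_x_eq (x := x) (y := y) G'.1
    rw [G.2.2.2 x] at h1
    rw [G'.2.2.2 x] at h2
    have h3 : ((univ.filter fun w => G'.1 x w = true).filter (fun w => w ∉ Rset x y G'.1)) =
        ((univ.filter fun w => G.1 x w = true).filter (fun w => w ∉ Rset x y G.1)) := by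
      rw [Rset_of_rel h]
      obtain ⟨Z, hx, hy, hZ⟩ := h
      ext w
      simp only [Finset.mem_filter, Finset.mem_univ, true_and]
      have key : w ∉ Rset x y G.1 → G'.1 x w = G.1 x w := by
        intro hw
        rw [hZ, flip_row_x hx]
        by_cases hwx : w = x
        · subst hwx; simp [hx]
        · by_cases hwy : w = y
          · subst hwy; simp [hy]
          · have : G.1 x w = G.1 y w := by
              by_contra hne
              exact hw (mem_Rset.mpr ⟨hwx, hwy, hne⟩)
            rw [this, ite_self]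
      constructor
      · rintro ⟨h1, h2⟩; rw [key h2] at h1; exact ⟨h1, h2⟩
      · rintro ⟨h1, h2⟩; rw [← key h2] at h1; exact ⟨h1, h2⟩
    rw [h3] at h2
    omega

theorem mkR_Sset_of_rel {x y : V} (hxy : x ≠ y) {G G' : Rz d} (h : Rel x y G G') :
    mkR x y G (Sset x y G'.1) = G' := by
  have hJ := Sset_mem_Jset_of_rel hxy h
  apply Subtype.ext
  rw [mkR_val hxy G hJ]
  obtain ⟨hx', hy'⟩ := not_mem_sd (Jset_sub hJ)
  obtain ⟨Z, hx, hy, hZ⟩ := h
  rw [hZ]
  apply flip_congr (hZ ▸ hx') (hZ ▸ hy') hx hy G.2.1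
  intro z hz
  by_cases hzx : z = x
  · subst hzx
    rw [hZ] at hx'
    simp only [hx', hx]
  · by_cases hzy : z = y
    · subst hzy
      rw [hZ] at hy'
      simp only [hy', hy]
    · rw [mem_symmDiff_iff', mem_Sset, mem_Sset, flip_row_x hx, flip_row_y hy]
      by_cases hzZ : z ∈ Z
      · simp only [hzZ, if_true, hzx, hzy, ne_eq, not_false_eq_true, true_and, hz, iff_true]
        revert hz
        cases G.1 x z <;> cases G.1 y z <;> simp
      · simp only [hzZ, if_false, hzx, hzy, ne_eq, not_false_eq_true, true_and, hz, iff_false]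
        simp

open Classical in
theorem sum_class {x y : V} (hxy : x ≠ y) (G : Rz d) (h : Rz d → ℝ) :
    ∑ G' ∈ univ.filter (fun G' => Rel x y G G'), h G' = ∑ S ∈ Jset x y G.1, h (mkR x y G S) := by
  refine Finset.sum_bij' (fun G' _ => Sset x y G'.1) (fun S _ => mkR x y G S) ?_ ?_ ?_ ?_ ?_
  · intro G' hG'
    exact Sset_mem_Jset_of_rel hxy (by simpa using hG')
  · intro S hS
    simpa using rel_mkR hxy G hS
  · intro G' hG'
    exact mkR_Sset_of_rel hxy (by simpa using hG')
  · intro S hS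
    exact Sset_mkR hxy G hS
  · intro G' hG'
    rw [mkR_Sset_of_rel hxy (by simpa using hG')]

open Classical in
theorem card_class {x y : V} (hxy : x ≠ y) (G : Rz d) :
    (univ.filter (fun G' => Rel x y G G')).card = (Jset x y G.1).card := by
  have h := sum_class hxy G (fun _ => 1)
  simp only [Finset.sum_const, nsmul_eq_mul, mul_one] at h
  exact_mod_cast h

theorem av_rel_eq {x y : V} (hxy : x ≠ y) (G : Rz d) (f : Rz d → ℝ) :
    av (Rel x y) f G = (∑ S ∈ Jset x y G.1, f (mkR x y G S)) / ((Jset x y G.1).card : ℝ) := by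
  unfold av
  rw [sum_class hxy, card_class hxy]

/-- `Dp` in terms of the parametrization. -/
theorem Dp_iff {x y k l : V} (hxk : x ≠ k) (hxl : x ≠ l) (hyk : y ≠ k) (hyl : y ≠ l)
    (G : V → V → Bool) :
    Dp x y k l G ↔ k ∈ Rset x y G ∧ l ∈ Rset x y G ∧ ¬ (k ∈ Sset x y G ↔ l ∈ Sset x y G) := by
  rw [mem_Rset, mem_Rset, mem_Sset, mem_Sset]
  unfold Dp
  simp only [hxk.symm, hyk.symm, hxl.symm, hyl.symm, ne_eq, not_false_eq_true, true_and]
  constructor
  · rintro ⟨h1, h2, h3⟩
    refine ⟨h1, h2, ?_⟩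
    simp only [h1, h2, not_false_eq_true, true_and]
    revert h3
    cases G x k <;> cases G x l <;> simp
  · rintro ⟨h1, h2, h3⟩
    refine ⟨h1, h2, ?_⟩
    simp only [h1, h2, not_false_eq_true, true_and] at h3
    revert h3
    cases G x k <;> cases G x l <;> simp

end Crest.Agent.H25
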