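import Mathlib

/-!
# H25: common definitions for S0453 (switch chain)

* `av r f x` : the average of `f` over the `r`-class `{y | r x y}` of `x` (finite type).
* `Rz d` : realizations of the degree vector `d` as symmetric irreflexive Boolean matrices.
* `flip x y Z G` : exchange the entries `(x,z)` and `(y,z)` for all `z ∈ Z`.
* `Rel x y` : the "row pair" equivalence relation `G ~_{xy} G'`.
* `Mat3 r c` : `3 × N` Boolean matrices with prescribed margins.
-/

set_option autoImplicit false

namespace Crest.Agent.H25

open Finset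

open Classical in
/-- average of `f` over the `r`-class of `x`. -/
noncomputable def av {Ω : Type*} [Fintype Ω] (r : Ω → Ω → Prop) (f : Ω → ℝ) (x : Ω) : ℝ :=
  (∑ y ∈ univ.filter (fun y => r x y), f y) / ((univ.filter (fun y => r x y)).card : ℝ)

/-- `3 × N` Boolean matrices with row sums `r` and column sums `c`. -/
abbrev Mat3 {N : Type*} [Fintype N] [DecidableEq N] (r : Fin 3 → ℕ) (c : N → ℕ) : Type _ :=
  {m : Fin 3 → N → Bool // (∀ i, (univ.filter fun z => m i z = true).card = r i) ∧
    ∀ z, (univ.filter fun i => m i z = true).card = c z}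

variable {V : Type*} [Fintype V] [DecidableEq V]

/-- `G` is (the adjacency matrix of) a simple graph with degree vector `d`. -/
def IsReal (d : V → ℕ) (G : V → V → Bool) : Prop :=
  (∀ x y, G x y = G y x) ∧ (∀ x, G x x = false) ∧
    ∀ x, (univ.filter fun y => G x y = true).card = d x

/-- The realizations of `d`. -/
abbrev Rz (d : V → ℕ) : Type _ := {G : V → V → Bool // IsReal d G}

noncomputable instance (d : V → ℕ) : Fintype (Rz d) := by
  classical
  exact Fintype.ofFinite _

/-- exchange the entries `(x,z)` and `(y,z)` (and symmetrically) for all `z ∈ Z`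
(meant for `x, y ∉ Z`). -/
def flip (x y : V) (Z : Finset V) (G : V → V → Bool) : V → V → Bool := fun u v =>
  G (if v ∈ Z then Equiv.swap x y u else u) (if u ∈ Z then Equiv.swap x y v else v)

/-- The row pair relation: `G'` arises from `G` by exchanging entries `(x,z) ↔ (y,z)` for the
`z` in some set `Z` not containing `x`, `y`. -/
def Rel (x y : V) {d : V → ℕ} (G G' : Rz d) : Prop :=
  ∃ Z : Finset V, x ∉ Z ∧ y ∉ Z ∧ G'.1 = flip x y Z G.1

/-- `P x y f = f - E[f | class of Rel x y]`. -/
noncomputable def P (x y : V) {d : V → ℕ} (f : Rz d → ℝ) (G : Rz d) : ℝ := f G - av (Rel x y) f G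

/-- `(x,k,y,l)` is an alternating 4-cycle of `G` with `xk, yl` present and `xl, yk` absent. -/
def Alt (G : V → V → Bool) (x y k l : V) : Prop :=
  x ≠ y ∧ k ≠ l ∧ x ≠ k ∧ x ≠ l ∧ y ≠ k ∧ y ≠ l ∧
    G x k = true ∧ G y l = true ∧ G x l = false ∧ G y k = false

/-- `G'` arises from `G` by the switch `xk, yl → xl, yk`. -/
def Sw (G G' : V → V → Bool) (x y k l : V) : Prop :=
  Alt G x y k l ∧ G' = flip x y {k, l} G

end Crest.Agent.H25
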