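import Crest.Agent.H25.RelQ

set_option autoImplicit false
set_option linter.unusedSectionVars false
set_option linter.unusedVariables false

namespace Crest.Agent.H25

open Finset

section abstract

variable {Ω : Type*} [Fintype Ω] {A As B Bs : Ω → Ω → Prop}

theorem sum_mul_sub_av (hr : Equivalence A) (g : Ω → ℝ) :
    ∑ x, g x * (g x - av A g x) = ∑ x, (g x - av A g x) ^ 2 := by
  have h : ∑ x, av A g x * (g x - av A g x) = 0 := by
    have h1 : ∑ x, av A g x * g x = ∑ x, av A g x * av A g x := by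
      have := sum_av_mul hr (av A g) g
      rw [av_av hr] at this
      exact this
    have h2 : ∑ x, av A g x * (g x - av A g x) =
        ∑ x, av A g x * g x - ∑ x, av A g x * av A g x := by
      rw [← Finset.sum_sub_distrib]
      exact Finset.sum_congr rfl fun x _ => by ring
    rw [h2, h1, sub_self]
  have h3 : ∑ x, (g x - av A g x) ^ 2 =
      ∑ x, g x * (g x - av A g x) - ∑ x, av A g x * (g x - av A g x) := by
    rw [← Finset.sum_sub_distrib]
    exact Finset.sum_congr rfl fun x _ => by ring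
  rw [h3, h, sub_zero]

/-- first term -/
theorem first_term (hAs : Equivalence As) (hB : Equivalence B) (f : Ω → ℝ)
    (hc : av As (av B f) = av B (av As f)) :
    ∑ x, (f x - av As f x) * (f x - av B f x) =
      ∑ x, ((f x - av As f x) - av B (fun z => f z - av As f z) x) ^ 2 := by
  set g : Ω → ℝ := fun z => f z - av As f z with hg
  have h0 : ∀ u : Ω → ℝ, ∑ x, g x * av As u x = 0 := by
    intro u
    have : ∑ x, g x * av As u x = ∑ x, av As g x * u x := (sum_av_mul hAs g u).symm
    rw [this]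
    have hz : ∀ x, av As g x = 0 := by
      intro x
      rw [hg, av_sub]
      have := congrFun (av_av hAs f) x
      rw [this, sub_self]
    simp [hz]
  have h1 : ∀ x, f x - av B f x = (g x - av B g x) + av As (fun z => f z - av B f z) x := by
    intro x
    rw [av_sub, hg]
    simp only
    rw [av_sub, congrFun hc x]
    ring
  have h2 : ∑ x, (f x - av As f x) * (f x - av B f x) = ∑ x, g x * (g x - av B g x) := by
    have : ∀ x, (f x - av As f x) * (f x - av B f x) =
        g x * (g x - av B g x) + g x * av As (fun z => f z - av B f z) x := by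
      intro x
      rw [h1 x, hg]; ring
    simp_rw [this, Finset.sum_add_distrib, h0, add_zero]
  rw [h2, sum_mul_sub_av hB]

/-- second term -/
theorem second_term (hA : Equivalence A) (hAs : Equivalence As) (hBs : Equivalence Bs)
    (hle : ∀ x y, As x y → A x y) (f : Ω → ℝ)
    (hc : av A (av Bs f) = av Bs (av A f)) (hcs : av As (av Bs f) = av Bs (av As f)) :
    0 ≤ ∑ x, (av As f x - av A f x) * (f x - av Bs f x) := by
  set g : Ω → ℝ := fun z => av As f z - av A f z with hg
  -- Q u = av As u - av A u is symmetric, idempotent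
  have hQsym : ∀ u v : Ω → ℝ, ∑ x, (av As u x - av A u x) * v x =
      ∑ x, u x * (av As v x - av A v x) := by
    intro u v
    have e1 : ∑ x, (av As u x - av A u x) * v x =
        ∑ x, av As u x * v x - ∑ x, av A u x * v x := by
      rw [← Finset.sum_sub_distrib]; exact Finset.sum_congr rfl fun x _ => by ring
    have e2 : ∑ x, u x * (av As v x - av A v x) =
        ∑ x, u x * av As v x - ∑ x, u x * av A v x := by
      rw [← Finset.sum_sub_distrib]; exact Finset.sum_congr rfl fun x _ => by ring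
    rw [e1, e2, sum_av_mul hAs, sum_av_mul hA]
  have hQg : ∀ x, av As g x - av A g x = g x := by
    intro x
    rw [hg, av_sub, av_sub]
    simp only
    rw [congrFun (av_av hAs f) x, congrFun (av_av_of_le hA hAs hle f) x,
      congrFun (av_av_of_le' hA hAs hle f) x, congrFun (av_av hA f) x]
    ring
  -- ∑ g * u = ∑ g * Q u
  have h1 : ∀ u : Ω → ℝ, ∑ x, g x * u x = ∑ x, g x * (av As u x - av A u x) := by
    intro u
    rw [← hQsym g u]
    simp_rw [hQg]
  have h2 : ∀ x, av As (fun z => f z - av Bs f z) x - av A (fun z => f z - av Bs f z) x =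
      g x - av Bs g x := by
    intro x
    rw [av_sub, av_sub, hg, av_sub]
    simp only
    rw [congrFun hc x, congrFun hcs x]
    ring
  have h3 : ∑ x, g x * (f x - av Bs f x) = ∑ x, g x * (g x - av Bs g x) := by
    rw [h1 (fun z => f z - av Bs f z)]
    simp_rw [h2]
  have h4 : ∑ x, (av As f x - av A f x) * (f x - av Bs f x) = ∑ x, (g x - av Bs g x) ^ 2 := by
    rw [← sum_mul_sub_av hBs]; exact h3
  rw [h4]
  exact Finset.sum_nonneg fun x _ => sq_nonneg _

/-- The abstract disjoint inequality. -/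
theorem abstract_disjoint (hA : Equivalence A) (hAs : Equivalence As) (hB : Equivalence B)
    (hBs : Equivalence Bs)
    (hleA : ∀ x y, As x y → A x y) (hleB : ∀ x y, Bs x y → B x y) (f : Ω → ℝ)
    (hc1 : av As (av B f) = av B (av As f))
    (hc2 : av A (av Bs f) = av Bs (av A f))
    (hc3 : av As (av Bs f) = av Bs (av As f))
    (τ : Ω → Ω) (hτ : Function.Involutive τ) (hτA : ∀ x, As x (τ x)) (hτB : ∀ x, B x (τ x))
    (D : Ω → Prop) [DecidablePred D]
    (hD : ∀ x, ¬ D x → av As f x = av A f x ∨ av Bs f x = av B f x) :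
    ∑ x, ((f x - f (τ x)) / 2) ^ 2
      - (1 / 2) * ∑ x, (if D x then (av As f x - av A f x) ^ 2 else 0)
      - (1 / 2) * ∑ x, (if D x then (av Bs f x - av B f x) ^ 2 else 0)
    ≤ ∑ x, (f x - av A f x) * (f x - av B f x) := by
  have hsplit : ∑ x, (f x - av A f x) * (f x - av B f x) =
      ∑ x, (f x - av As f x) * (f x - av B f x) +
      ∑ x, (av As f x - av A f x) * (f x - av Bs f x) +
      ∑ x, (av As f x - av A f x) * (av Bs f x - av B f x) := by
    rw [← Finset.sum_add_distrib, ← Finset.sum_add_distrib]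
    exact Finset.sum_congr rfl fun x _ => by ring
  have h1 : ∑ x, ((f x - f (τ x)) / 2) ^ 2 ≤ ∑ x, (f x - av As f x) * (f x - av B f x) := by
    rw [first_term hAs hB f hc1]
    set v : Ω → ℝ := fun x => (f x - av As f x) - av B (fun z => f z - av As f z) x with hv
    have hvτ : ∀ x, v x - v (τ x) = f x - f (τ x) := by
      intro x
      rw [hv]
      simp only
      rw [av_congr_class hAs f (hτA x), av_congr_class hB _ (hτB x)]
      ring
    have hsumτ : ∑ x, v (τ x) ^ 2 = ∑ x, v x ^ 2 :=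
      (Equiv.sum_comp (hτ.toPerm) (fun x => v x ^ 2))
    have : ∑ x, ((f x - f (τ x)) / 2) ^ 2 ≤ ∑ x, ((1 / 2) * v x ^ 2 + (1 / 2) * v (τ x) ^ 2) := by
      refine Finset.sum_le_sum fun x _ => ?_
      rw [← hvτ]
      nlinarith [sq_nonneg (v x + v (τ x))]
    calc _ ≤ _ := this
      _ = (1 / 2) * ∑ x, v x ^ 2 + (1 / 2) * ∑ x, v (τ x) ^ 2 := by
        rw [Finset.sum_add_distrib, ← Finset.mul_sum, ← Finset.mul_sum]
      _ = ∑ x, v x ^ 2 := by rw [hsumτ]; ring
  have h2 := second_term hA hAs hBs hleA f hc2 hc3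
  have h3 : - (1 / 2) * ∑ x, (if D x then (av As f x - av A f x) ^ 2 else 0)
      - (1 / 2) * ∑ x, (if D x then (av Bs f x - av B f x) ^ 2 else 0) ≤
      ∑ x, (av As f x - av A f x) * (av Bs f x - av B f x) := by
    rw [Finset.mul_sum, Finset.mul_sum, ← Finset.sum_sub_distrib]
    refine Finset.sum_le_sum fun x _ => ?_
    by_cases hx : D x
    · simp only [hx, if_true]
      nlinarith [sq_nonneg ((av As f x - av A f x) + (av Bs f x - av B f x))]
    · simp only [hx, if_false]
      rcases hD x hx with h | h <;> rw [h] <;> simp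
  rw [hsplit]
  linarith

end abstract

section graph

variable {V : Type*} [Fintype V] [DecidableEq V] {d : V → ℕ}

/-- D-type block -/
def Dp (x y k l : V) (G : V → V → Bool) : Prop :=
  G x k ≠ G y k ∧ G x l ≠ G y l ∧ G x k ≠ G x l

instance (x y k l : V) (G : V → V → Bool) : Decidable (Dp x y k l G) := by
  unfold Dp; infer_instance

theorem flip_eq_of_Dp {x y k l : V} (hxy : x ≠ y) (hkl : k ≠ l) (hxk : x ≠ k) (hxl : x ≠ l)
    (hyk : y ≠ k) (hyl : y ≠ l) {G : V → V → Bool} (hs : ∀ u v, G u v = G v u)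
    (hD : Dp x y k l G) : flip x y {k, l} G = flip k l {x, y} G := by
  obtain ⟨h1, h2, h3⟩ := hD
  have e1 : G x k = G y l := by
    revert h1 h2 h3
    cases G x k <;> cases G y k <;> cases G x l <;> cases G y l <;> simp
  have e2 : G x l = G y k := by
    revert h1 h2 h3
    cases G x k <;> cases G y k <;> cases G x l <;> cases G y l <;> simp
  have sx : Equiv.swap k l x = x := Equiv.swap_apply_of_ne_of_ne hxk hxl
  have sy : Equiv.swap k l y = y := Equiv.swap_apply_of_ne_of_ne hyk hyl
  have sk : Equiv.swap x y k = k := Equiv.swap_apply_of_ne_of_ne hxk.symm hyk.symm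
  have sl : Equiv.swap x y l = l := Equiv.swap_apply_of_ne_of_ne hxl.symm hyl.symm
  have key : ∀ u v, (u ∈ ({x, y} : Finset V)) → flip x y {k, l} G u v = flip k l {x, y} G u v := by
    intro u v hu
    by_cases hv : v = k ∨ v = l
    · simp only [Finset.mem_insert, Finset.mem_singleton] at hu
      rcases hu with rfl | rfl <;> rcases hv with rfl | rfl <;>
        simp [flip, hxy, hkl, hxk, hxl, hyk, hyl, hxy.symm, hkl.symm, hxk.symm, hxl.symm, hyk.symm,
          hyl.symm, e1, e2]
    · push Not at hv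
      have hu' : u ≠ k ∧ u ≠ l := by
        simp only [Finset.mem_insert, Finset.mem_singleton] at hu
        rcases hu with rfl | rfl <;> tauto
      have su : Equiv.swap k l u = u := Equiv.swap_apply_of_ne_of_ne hu'.1 hu'.2
      have sv : Equiv.swap k l v = v := Equiv.swap_apply_of_ne_of_ne hv.1 hv.2
      have hvm : v ∉ ({k, l} : Finset V) := by simp [hv.1, hv.2]
      have hum : u ∉ ({k, l} : Finset V) := by simp [hu'.1, hu'.2]
      simp only [flip, hvm, hum, if_false, su, sv, ite_self]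
  funext u v
  by_cases hu : u ∈ ({x, y} : Finset V)
  · exact key u v hu
  · by_cases hv : v ∈ ({x, y} : Finset V)
    · rw [flip_symm hs, flip_symm hs u v]; exact key v u hv
    · have hu' : u ≠ x ∧ u ≠ y := by simpa using hu
      have hv' : v ≠ x ∧ v ≠ y := by simpa using hv
      have su : Equiv.swap x y u = u := Equiv.swap_apply_of_ne_of_ne hu'.1 hu'.2
      have sv : Equiv.swap x y v = v := Equiv.swap_apply_of_ne_of_ne hv'.1 hv'.2
      simp only [flip, hv, hu, if_false, su, sv, ite_self]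

/-- flipping one unsplit column does nothing -/
theorem flip_insert_of_eq {x y : V} {Z : Finset V} {k : V} (hx : x ∉ Z) (hy : y ∉ Z)
    (hxk : x ≠ k) (hyk : y ≠ k) {G : V → V → Bool} (hs : ∀ u v, G u v = G v u)
    (hk : G x k = G y k) : flip x y (symmDiff Z {k}) G = flip x y Z G := by
  rw [← flip_flip (Z' := {k}) hx hy (by simpa using hxk) (by simpa using hyk)]
  congr 1
  have hsk : Equiv.swap x y k = k := Equiv.swap_apply_of_ne_of_ne hxk.symm hyk.symm
  have key : ∀ u, G (Equiv.swap x y u) k = G u k := by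
    intro u
    by_cases hux : u = x
    · subst hux; rw [Equiv.swap_apply_left]; exact hk.symm
    · by_cases huy : u = y
      · subst huy; rw [Equiv.swap_apply_right]; exact hk
      · rw [Equiv.swap_apply_of_ne_of_ne hux huy]
  funext u v
  simp only [flip, Finset.mem_singleton]
  by_cases hv : v = k
  · by_cases hu : u = k
    · simp [hu, hv, hsk]
    · rw [if_pos hv, if_neg hu, hv]; exact key u
  · by_cases hu : u = k
    · rw [if_neg hv, if_pos hu, hu, hs k, hs k]; exact key v
    · rw [if_neg hv, if_neg hu]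

theorem relS_iff_of_unsplit {x y k l : V} (hxk : x ≠ k) (hxl : x ≠ l)
    (hyk : y ≠ k) (hyl : y ≠ l) (hkl : k ≠ l) {G : Rz d} (h : G.1 x k = G.1 y k ∨ G.1 x l = G.1 y l)
    (G' : Rz d) : RelS x y k l G G' ↔ Rel x y G G' := by
  refine ⟨relS_le x y k l G G', ?_⟩
  rintro ⟨Z, hx, hy, hG'⟩
  by_cases hkZ : (k ∈ Z ↔ l ∈ Z)
  · exact ⟨Z, hx, hy, hkZ, hG'⟩
  · rcases h with h | h
    · refine ⟨symmDiff Z {k}, ?_, ?_, ?_, ?_⟩
      · rw [mem_symmDiff_iff']; simp [hx, hxk]
      · rw [mem_symmDiff_iff']; simp [hy, hyk]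
      · show (k ∈ symmDiff Z {k} ↔ l ∈ symmDiff Z {k})
        rw [mem_symmDiff_iff', mem_symmDiff_iff']
        simp only [Finset.mem_singleton, hkl.symm, iff_false, iff_true]
        tauto
      · rw [flip_insert_of_eq hx hy hxk hyk G.2.1 h, hG']
    · refine ⟨symmDiff Z {l}, ?_, ?_, ?_, ?_⟩
      · rw [mem_symmDiff_iff']; simp [hx, hxl]
      · rw [mem_symmDiff_iff']; simp [hy, hyl]
      · show (k ∈ symmDiff Z {l} ↔ l ∈ symmDiff Z {l})
        rw [mem_symmDiff_iff', mem_symmDiff_iff']
        simp only [Finset.mem_singleton, hkl, iff_false, iff_true]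
        tauto
      · rw [flip_insert_of_eq hx hy hxl hyl G.2.1 h, hG']

theorem av_relS_eq_of_unsplit {x y k l : V} (hxk : x ≠ k) (hxl : x ≠ l)
    (hyk : y ≠ k) (hyl : y ≠ l) (hkl : k ≠ l) {G : Rz d} (h : G.1 x k = G.1 y k ∨ G.1 x l = G.1 y l)
    (f : Rz d → ℝ) : av (RelS x y k l) f G = av (Rel x y) f G := by
  classical
  unfold av
  have : (univ.filter fun G' => RelS x y k l G G') = univ.filter fun G' => Rel x y G G' := by
    ext G'
    simp only [Finset.mem_filter, Finset.mem_univ, true_and]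
    exact relS_iff_of_unsplit hxk hxl hyk hyl hkl h G'
  rw [this]

open Classical in
/-- the switch involution on D-type states. -/
noncomputable def tau (x y k l : V) (G : Rz d) : Rz d :=
  if h : Dp x y k l G.1 ∧ IsReal d (flip x y {k, l} G.1) then ⟨flip x y {k, l} G.1, h.2⟩ else G

theorem isReal_flip_of_Dp {x y k l : V} (hxy : x ≠ y) (hkl : k ≠ l) (hxk : x ≠ k) (hxl : x ≠ l)
    (hyk : y ≠ k) (hyl : y ≠ l) {G : Rz d} (hD : Dp x y k l G.1) :
    IsReal d (flip x y {k, l} G.1) :=
  isReal_of_flips (Z := {k, l}) (Z' := {x, y}) (G := G) (G' := G) hxk hxl hyk hyl rfl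
    (flip_eq_of_Dp hxy hkl hxk hxl hyk hyl G.2.1 hD)

theorem tau_val {x y k l : V} (hxy : x ≠ y) (hkl : k ≠ l) (hxk : x ≠ k) (hxl : x ≠ l)
    (hyk : y ≠ k) (hyl : y ≠ l) {G : Rz d} (hD : Dp x y k l G.1) :
    (tau x y k l G).1 = flip x y {k, l} G.1 := by
  unfold tau
  rw [dif_pos ⟨hD, isReal_flip_of_Dp hxy hkl hxk hxl hyk hyl hD⟩]

theorem tau_of_not {x y k l : V} {G : Rz d} (hD : ¬ Dp x y k l G.1) : tau x y k l G = G := by
  unfold tau
  rw [dif_neg (fun h => hD h.1)]

theorem Dp_flip {x y k l : V} (hxy : x ≠ y) (hkl : k ≠ l) (hxk : x ≠ k) (hxl : x ≠ l)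
    (hyk : y ≠ k) (hyl : y ≠ l) {G : V → V → Bool} (hD : Dp x y k l G) :
    Dp x y k l (flip x y {k, l} G) := by
  obtain ⟨h1, h2, h3⟩ := hD
  have e : ∀ j, j = k ∨ j = l → flip x y {k, l} G x j = G y j ∧ flip x y {k, l} G y j = G x j := by
    intro j hj
    have hj' : j ∈ ({k, l} : Finset V) := by simpa using hj
    have hx' : x ∉ ({k, l} : Finset V) := by simp [hxk, hxl]
    have hy' : y ∉ ({k, l} : Finset V) := by simp [hyk, hyl]
    simp only [flip, hj', hx', hy', if_true, if_false, Equiv.swap_apply_left,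
      Equiv.swap_apply_right, and_self]
  unfold Dp
  rw [(e k (Or.inl rfl)).1, (e k (Or.inl rfl)).2, (e l (Or.inr rfl)).1, (e l (Or.inr rfl)).2]
  revert h1 h2 h3
  cases G x k <;> cases G y k <;> cases G x l <;> cases G y l <;> simp

theorem tau_invol {x y k l : V} (hxy : x ≠ y) (hkl : k ≠ l) (hxk : x ≠ k) (hxl : x ≠ l)
    (hyk : y ≠ k) (hyl : y ≠ l) : Function.Involutive (tau (d := d) x y k l) := by
  intro G
  by_cases hD : Dp x y k l G.1
  · have h1 := tau_val hxy hkl hxk hxl hyk hyl hD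
    have hD' : Dp x y k l (tau x y k l G).1 := by
      rw [h1]; exact Dp_flip hxy hkl hxk hxl hyk hyl hD
    apply Subtype.ext
    rw [tau_val hxy hkl hxk hxl hyk hyl hD', h1]
    exact flip_invol (by simp [hxk, hxl]) (by simp [hyk, hyl]) _
  · rw [tau_of_not hD, tau_of_not hD]

theorem tau_relS {x y k l : V} (hxy : x ≠ y) (hkl : k ≠ l) (hxk : x ≠ k) (hxl : x ≠ l)
    (hyk : y ≠ k) (hyl : y ≠ l) (G : Rz d) : RelS x y k l G (tau x y k l G) := by
  by_cases hD : Dp x y k l G.1
  · exact ⟨{k, l}, by simp [hxk, hxl], by simp [hyk, hyl], by simp,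
      tau_val hxy hkl hxk hxl hyk hyl hD⟩
  · rw [tau_of_not hD]; exact (relS_equiv x y k l).refl G

theorem Dp_symm {x y k l : V} {G : V → V → Bool} (hs : ∀ u v, G u v = G v u) :
    Dp x y k l G ↔ Dp k l x y G := by
  unfold Dp
  rw [hs k x, hs l x, hs k y, hs l y]
  cases G x k <;> cases G y k <;> cases G x l <;> cases G y l <;> simp

theorem tau_symm {x y k l : V} (hxy : x ≠ y) (hkl : k ≠ l) (hxk : x ≠ k) (hxl : x ≠ l)
    (hyk : y ≠ k) (hyl : y ≠ l) (G : Rz d) : tau x y k l G = tau k l x y G := by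
  by_cases hD : Dp x y k l G.1
  · have hD' : Dp k l x y G.1 := (Dp_symm G.2.1).mp hD
    apply Subtype.ext
    rw [tau_val hxy hkl hxk hxl hyk hyl hD, tau_val hkl hxy hxk.symm hyk.symm hxl.symm hyl.symm hD']
    exact flip_eq_of_Dp hxy hkl hxk hxl hyk hyl G.2.1 hD
  · have hD' : ¬ Dp k l x y G.1 := fun h => hD ((Dp_symm G.2.1).mpr h)
    rw [tau_of_not hD, tau_of_not hD']

/-- **T3** the disjoint pair inequality. -/
theorem disjoint_ineq {x y k l : V} (hxy : x ≠ y) (hkl : k ≠ l) (hxk : x ≠ k) (hxl : x ≠ l)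
    (hyk : y ≠ k) (hyl : y ≠ l) (f : Rz d → ℝ) :
    ∑ G, ((f G - f (tau x y k l G)) / 2) ^ 2
      - (1 / 2) * ∑ G : Rz d, (if Dp x y k l G.1 then
          (av (RelS x y k l) f G - av (Rel x y) f G) ^ 2 else 0)
      - (1 / 2) * ∑ G : Rz d, (if Dp x y k l G.1 then
          (av (RelS k l x y) f G - av (Rel k l) f G) ^ 2 else 0)
    ≤ ∑ G, P x y f G * P k l f G := by
  have := abstract_disjoint (A := Rel (d := d) x y) (As := RelS x y k l) (B := Rel k l)
    (Bs := RelS k l x y) (rel_equiv x y) (relS_equiv x y k l) (rel_equiv k l)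
    (relS_equiv k l x y) (relS_le x y k l) (relS_le k l x y) f
    (relS_comm_full hxy hkl hxk hxl hyk hyl f)
    (relS_comm_full hkl hxy hxk.symm hyk.symm hxl.symm hyl.symm f).symm
    (relS_comm_sharp hxy hkl hxk hxl hyk hyl f)
    (tau x y k l) (tau_invol hxy hkl hxk hxl hyk hyl) (tau_relS hxy hkl hxk hxl hyk hyl)
    (fun G => by
      rw [tau_symm hxy hkl hxk hxl hyk hyl]
      exact relS_le _ _ _ _ _ _ (tau_relS hkl hxy hxk.symm hyk.symm hxl.symm hyl.symm G))
    (fun G => Dp x y k l G.1)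
    (by
      intro G hG
      by_cases h1 : G.1 x k = G.1 y k ∨ G.1 x l = G.1 y l
      · left; exact av_relS_eq_of_unsplit hxk hxl hyk hyl hkl h1 f
      · right
        apply av_relS_eq_of_unsplit hxk.symm hyk.symm hxl.symm hyl.symm hxy
        rw [G.2.1 k x, G.2.1 l x, G.2.1 k y, G.2.1 l y]
        unfold Dp at hG
        revert h1 hG
        cases G.1 x k <;> cases G.1 y k <;> cases G.1 x l <;> cases G.1 y l <;> simp)
  exact this

end graph

end Crest.Agent.H25
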