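import Crest.Agent.H25.T6b

/-!
T6, part c: translation between `Rz d` and `realizations d`.
-/

set_option autoImplicit false

namespace Crest.Agent.H25.T6

open Finset Crest.Agent.H25 Crest.SwitchChain

variable {n : ℕ}

open Classical in
/-- edge set of a Boolean matrix. -/
noncomputable def toE (G : Fin n → Fin n → Bool) : Finset (Edge n) :=
  univ.filter fun e => ∃ x y, ∃ h : x ≠ y, e = ed x y h ∧ G x y = true

lemma mem_toE {G : Fin n → Fin n → Bool} (hs : ∀ x y, G x y = G y x) {x y : Fin n} (h : x ≠ y) :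
    ed x y h ∈ toE G ↔ G x y = true := by
  unfold toE
  rw [mem_filter]
  constructor
  · rintro ⟨_, a, b, hab, he, hG⟩
    have : (ed x y h).1 = (ed a b hab).1 := by rw [he]
    simp only [ed, Sym2.eq_iff] at this
    rcases this with ⟨rfl, rfl⟩ | ⟨rfl, rfl⟩
    · exact hG
    · rw [hs]; exact hG
  · intro hG
    exact ⟨mem_univ _, x, y, h, rfl, hG⟩

lemma deg_toE {G : Fin n → Fin n → Bool} (hs : ∀ x y, G x y = G y x)
    (hd : ∀ x, G x x = false) (v : Fin n) :
    deg (toE G) v = (univ.filter fun y => G v y = true).card := by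
  unfold deg
  symm
  refine card_bij (fun y hy => ed v y ?_) ?_ ?_ ?_
  · rintro rfl
    rw [mem_filter, hd] at hy
    exact absurd hy.2 (by simp)
  · intro y hy
    rw [mem_filter] at hy ⊢
    refine ⟨(mem_toE hs _).2 hy.2, ?_⟩
    rw [mem_ed]; simp
  · intro y hy z hz h
    have hvy : v ≠ y := by
      rintro rfl
      rw [mem_filter, hd] at hy
      exact absurd hy.2 (by simp)
    have : y ∈ (ed v z (by
      rintro rfl
      rw [mem_filter, hd] at hz
      exact absurd hz.2 (by simp))).1 := by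
      rw [← h, mem_ed]; simp
    rw [mem_ed] at this
    rcases this with h' | h'
    · exact absurd h'.symm hvy
    · exact h'
  · intro e he
    rw [mem_filter] at he
    obtain ⟨he1, hv⟩ := he
    obtain ⟨x, y, hxy, rfl⟩ := exists_ed e
    rw [mem_ed] at hv
    rcases hv with rfl | rfl
    · exact ⟨y, by rw [mem_filter]; exact ⟨mem_univ _, (mem_toE hs hxy).1 he1⟩, rfl⟩
    · refine ⟨x, ?_, ?_⟩
      · rw [mem_filter]
        refine ⟨mem_univ _, ?_⟩
        rw [hs]
        exact (mem_toE hs hxy).1 he1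
      · exact ed_comm _ _ _

lemma toE_mem {d : Fin n → ℕ} (G : Rz d) : toE G.1 ∈ realizations d := by
  rw [mem_realizations]
  intro v
  rw [deg_toE G.2.1 G.2.2.1, G.2.2.2 v]

lemma toE_injective {d : Fin n → ℕ} : Function.Injective (fun G : Rz d => toE G.1) := by
  intro G G' h
  apply Subtype.ext
  funext x y
  by_cases hxy : x = y
  · subst hxy; rw [G.2.2.1, G'.2.2.1]
  · have h1 := mem_toE G.2.1 hxy
    have h2 := mem_toE G'.2.1 hxy
    have h3 : toE G.1 = toE G'.1 := h
    rw [h3] at h1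
    have h4 : G.1 x y = true ↔ G'.1 x y = true := h1.symm.trans h2
    exact Bool.eq_iff_iff.2 h4

open Classical in
lemma toE_surjective {d : Fin n → ℕ} {E : Finset (Edge n)} (hE : E ∈ realizations d) :
    ∃ G : Rz d, toE G.1 = E := by
  let G : Fin n → Fin n → Bool := fun x y => decide (∃ h : x ≠ y, ed x y h ∈ E)
  have hs : ∀ x y, G x y = G y x := by
    intro x y
    simp only [G, decide_eq_decide]
    constructor
    · rintro ⟨h, h'⟩; exact ⟨h.symm, by rw [← ed_comm]; exact h'⟩
    · rintro ⟨h, h'⟩; exact ⟨h.symm, by rw [← ed_comm]; exact h'⟩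
  have hdiag : ∀ x, G x x = false := by
    intro x
    simp [G]
  have hGE : toE G = E := by
    ext e
    obtain ⟨x, y, hxy, rfl⟩ := exists_ed e
    rw [mem_toE hs hxy]
    simp only [G, decide_eq_true_eq]
    constructor
    · rintro ⟨_, h⟩; exact h
    · intro h; exact ⟨hxy, h⟩
  refine ⟨⟨G, hs, hdiag, ?_⟩, hGE⟩
  intro x
  rw [← deg_toE hs hdiag, hGE]
  exact mem_realizations.1 hE x

lemma sum_Rz {d : Fin n → ℕ} {β : Type*} [AddCommMonoid β] (φ : Finset (Edge n) → β) :
    ∑ G : Rz d, φ (toE G.1) = ∑ E ∈ realizations d, φ E := by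
  refine sum_bij (fun G _ => toE G.1) (fun G _ => toE_mem G) (fun G _ G' _ h => toE_injective h)
    (fun E hE => ?_) (fun _ _ => rfl)
  obtain ⟨G, hG⟩ := toE_surjective hE
  exact ⟨G, mem_univ _, hG⟩

lemma card_Rz (d : Fin n → ℕ) : Fintype.card (Rz d) = (realizations d).card := by
  have := sum_Rz (d := d) (fun _ => (1 : ℕ))
  simpa using this

/-! ### counting the switches between two realizations -/

def D1 (x y k l : Fin n) : Finset (Fin n × Fin n) := {(x, k), (k, x), (y, l), (l, y)}

lemma flip_eq {G : Fin n → Fin n → Bool} (hs : ∀ x y, G x y = G y x)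
    {x y k l : Fin n} (hA : Alt G x y k l) (a b : Fin n) :
    flip x y {k, l} G a b = if (a, b) ∈ D1 x y k l then false
      else if (a, b) ∈ D1 x y l k then true else G a b := by
  obtain ⟨hxy, hkl, hxk, hxl, hyk, hyl, e1, e2, e3, e4⟩ := hA
  have e1' : G k x = true := by rw [hs]; exact e1
  have e2' : G l y = true := by rw [hs]; exact e2
  have e3' : G l x = false := by rw [hs]; exact e3
  have e4' : G k y = false := by rw [hs]; exact e4
  have hswap : ∀ c : Fin n, c ≠ x → c ≠ y → Equiv.swap x y c = c := fun c h1 h2 =>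
    Equiv.swap_apply_of_ne_of_ne h1 h2
  unfold flip D1
  have hkx := hxk.symm
  have hky := hyk.symm
  have hlx := hxl.symm
  have hly := hyl.symm
  by_cases ak : a = k
  · subst ak
    have h1 := hswap a hxk.symm hyk.symm
    by_cases bx : b = x
    · subst bx; simp [*]
    · by_cases bY : b = y
      · subst bY; simp [*]
      · have h2 := hswap b bx bY
        simp [*]
  · by_cases al : a = l
    · subst al
      have h1 := hswap a hxl.symm hyl.symm
      by_cases bx : b = x
      · subst bx; simp [*]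
      · by_cases bY : b = y
        · subst bY; simp [*]
        · have h2 := hswap b bx bY
          simp [*]
    · by_cases bk : b = k
      · subst bk
        by_cases ax : a = x
        · subst ax; simp [*]
        · by_cases aY : a = y
          · subst aY; simp [*]
          · have h2 := hswap a ax aY
            simp [*]
      · by_cases bl : b = l
        · subst bl
          by_cases ax : a = x
          · subst ax; simp [*]
          · by_cases aY : a = y
            · subst aY; simp [*]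
            · have h2 := hswap a ax aY
              simp [*]
        · simp [*]

/-- edges of `G` lost by the switch are among the four ordered pairs of `D1`. -/
lemma mem_D1 {G : Fin n → Fin n → Bool} (hs : ∀ x y, G x y = G y x)
    {x y k l : Fin n} (hA : Alt G x y k l) {a b : Fin n} (h1 : G a b = true)
    (h2 : flip x y {k, l} G a b = false) : (a, b) ∈ D1 x y k l := by
  rw [flip_eq hs hA] at h2
  by_contra h
  rw [if_neg h] at h2
  split_ifs at h2
  rw [h1] at h2
  exact absurd h2 (by simp)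

lemma flip_lost {G : Fin n → Fin n → Bool} (hs : ∀ x y, G x y = G y x)
    {x y k l : Fin n} (hA : Alt G x y k l) :
    (flip x y {k, l} G x k = false) ∧ (flip x y {k, l} G y l = false) := by
  rw [flip_eq hs hA, flip_eq hs hA]
  simp [D1]

open Classical in
/-- at most 16 quadruples give the same switch. -/
lemma card_quads (G G' : Fin n → Fin n → Bool) (hs : ∀ x y, G x y = G y x) :
    (univ.filter fun q : Fin n × Fin n × Fin n × Fin n =>
      Sw G G' q.1 q.2.1 q.2.2.1 q.2.2.2).card ≤ 16 := by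
  by_cases hne : ∃ q : Fin n × Fin n × Fin n × Fin n, Sw G G' q.1 q.2.1 q.2.2.1 q.2.2.2
  · obtain ⟨⟨x, y, k, l⟩, hA, hG'⟩ := hne
    simp only at hA hG'
    have hinj : Function.Injective (fun q : Fin n × Fin n × Fin n × Fin n =>
        ((q.1, q.2.2.1), (q.2.1, q.2.2.2))) := by
      rintro ⟨a, b, c, e⟩ ⟨a', b', c', e'⟩ h
      simp only [Prod.mk.injEq] at h
      obtain ⟨⟨h1, h2⟩, h3, h4⟩ := h
      subst h1 h2 h3 h4
      rfl
    rw [← card_image_of_injective _ hinj]
    have hsub : (univ.filter fun q : Fin n × Fin n × Fin n × Fin n =>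
        Sw G G' q.1 q.2.1 q.2.2.1 q.2.2.2).image (fun q : Fin n × Fin n × Fin n × Fin n =>
        ((q.1, q.2.2.1), (q.2.1, q.2.2.2))) ⊆ D1 x y k l ×ˢ D1 x y k l := by
      intro z hz
      rw [mem_image] at hz
      obtain ⟨⟨a, b, c, e⟩, hq, rfl⟩ := hz
      rw [mem_filter] at hq
      obtain ⟨_, hA', hG''⟩ := hq
      simp only at hA' hG''
      have hl := flip_lost hs hA'
      rw [← hG'', hG'] at hl
      rw [mem_product]
      obtain ⟨_, _, _, _, _, _, e1, e2, _, _⟩ := hA'
      exact ⟨mem_D1 hs hA e1 hl.1, mem_D1 hs hA e2 hl.2⟩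
    calc _ ≤ (D1 x y k l ×ˢ D1 x y k l).card := card_le_card hsub
      _ = (D1 x y k l).card * (D1 x y k l).card := card_product _ _
      _ ≤ 4 * 4 := by
          have : (D1 x y k l).card ≤ 4 := by
            unfold D1; exact card_le_four
          exact Nat.mul_le_mul this this
  · have : (univ.filter fun q : Fin n × Fin n × Fin n × Fin n =>
      Sw G G' q.1 q.2.1 q.2.2.1 q.2.2.2) = ∅ := by
      rw [filter_eq_empty_iff]
      intro q _ hq
      exact hne ⟨q, hq⟩
    rw [this]; simp

lemma ed_mem_pair {x y k l : Fin n} (hxk : x ≠ k) (hyl : y ≠ l) {a b : Fin n} (hab : a ≠ b) :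
    ed a b hab ∈ ({ed x k hxk, ed y l hyl} : Finset (Edge n)) ↔ (a, b) ∈ D1 x y k l := by
  simp only [D1, mem_insert, mem_singleton, Prod.mk.injEq]
  have : ∀ (u v : Fin n) (huv : u ≠ v), ed a b hab = ed u v huv ↔
      (a = u ∧ b = v) ∨ (a = v ∧ b = u) := by
    intro u v huv
    rw [ed, ed, Subtype.mk.injEq, Sym2.eq_iff]
  rw [this, this]
  tauto

/-- a switch gives a proposal. -/
lemma one_le_proposalCount {d : Fin n → ℕ} (G G' : Rz d) {x y k l : Fin n}
    (h : Sw G.1 G'.1 x y k l) : 1 ≤ proposalCount (toE G.1) (toE G'.1) := by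
  obtain ⟨hA, hG'⟩ := h
  have hA' := hA
  obtain ⟨hxy, hkl, hxk, hxl, hyk, hyl, e1, e2, e3, e4⟩ := hA
  have hs := G.2.1
  have hs' := G'.2.1
  obtain ⟨S, hS⟩ : ∃ S : Finset (Fin n), S = {x, k, y, l} := ⟨_, rfl⟩
  have hF : ({ed x k hxk, ed y l hyl} : Finset (Edge n)) ∈ pmSet S :=
    pair_mem_pmSet hxk hyl hxy hxl hyk.symm hkl hS
  have hF' : ({ed x l hxl, ed y k hyk} : Finset (Edge n)) ∈ pmSet S :=
    pair_mem_pmSet hxl hyk hxy hxk hyl.symm hkl.symm (by rw [hS]; ext v; simp; tauto)
  have hScard : S.card = 4 := by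
    rw [hS, card_insert_of_notMem, card_insert_of_notMem, card_pair hyl]
    · simp [hyk.symm, hkl]
    · simp [hxk, hxy, hxl]
  have hFF' : ({ed x l hxl, ed y k hyk} : Finset (Edge n)) ≠ {ed x k hxk, ed y l hyl} := by
    intro h
    have h1 : ed x l hxl ∈ ({ed x k hxk, ed y l hyl} : Finset (Edge n)) := by rw [← h]; simp
    rw [ed_mem_pair] at h1
    simp only [D1, mem_insert, mem_singleton, Prod.mk.injEq] at h1
    tauto
  have hres : switchResult (toE G.1) {ed x k hxk, ed y l hyl} {ed x l hxl, ed y k hyk} =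
      toE G'.1 := by
    unfold switchResult
    have c1 : ({ed x k hxk, ed y l hyl} : Finset (Edge n)) ⊆ toE G.1 := by
      intro e he
      simp only [mem_insert, mem_singleton] at he
      rcases he with rfl | rfl
      · exact (mem_toE hs _).2 e1
      · exact (mem_toE hs _).2 e2
    have c2 : Disjoint ({ed x l hxl, ed y k hyk} : Finset (Edge n)) (toE G.1) := by
      rw [disjoint_left]
      intro e he
      simp only [mem_insert, mem_singleton] at he
      rcases he with rfl | rfl
      · rw [mem_toE hs, e3]; simp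
      · rw [mem_toE hs, e4]; simp
    rw [if_pos ⟨c1, c2⟩]
    ext e
    obtain ⟨a, b, hab, rfl⟩ := exists_ed e
    rw [mem_union, mem_sdiff, ed_mem_pair, ed_mem_pair, mem_toE hs, mem_toE hs', hG',
      flip_eq hs hA']
    by_cases h1 : (a, b) ∈ D1 x y k l
    · have h2 : (a, b) ∉ D1 x y l k := by
        simp only [D1, mem_insert, mem_singleton, Prod.mk.injEq] at h1 ⊢
        rcases h1 with ⟨rfl, rfl⟩ | ⟨rfl, rfl⟩ | ⟨rfl, rfl⟩ | ⟨rfl, rfl⟩ <;>
          simp [*, hxy.symm, hkl.symm, hxk.symm, hxl.symm, hyk.symm, hyl.symm]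
      simp [h1, h2]
    · by_cases h2 : (a, b) ∈ D1 x y l k
      · simp [h1, h2]
      · simp [h1, h2]
  unfold proposalCount
  calc 1 = (if switchResult (toE G.1) {ed x k hxk, ed y l hyl} {ed x l hxl, ed y k hyk} =
        toE G'.1 then 1 else 0) := by rw [if_pos hres]
    _ ≤ ∑ F' ∈ (pmSet S).erase {ed x k hxk, ed y l hyl},
        (if switchResult (toE G.1) {ed x k hxk, ed y l hyl} F' = toE G'.1 then 1 else 0) :=
      single_le_sum (f := fun F' => if switchResult (toE G.1) {ed x k hxk, ed y l hyl} F' =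
        toE G'.1 then 1 else 0) (fun _ _ => Nat.zero_le _) (mem_erase.2 ⟨hFF', hF'⟩)
    _ ≤ ∑ F ∈ pmSet S, ∑ F' ∈ (pmSet S).erase F,
        (if switchResult (toE G.1) F F' = toE G'.1 then 1 else 0) :=
      single_le_sum (f := fun F => ∑ F' ∈ (pmSet S).erase F,
        (if switchResult (toE G.1) F F' = toE G'.1 then 1 else 0))
        (fun _ _ => Nat.zero_le _) hF
    _ ≤ _ := single_le_sum (f := fun S => ∑ F ∈ pmSet S, ∑ F' ∈ (pmSet S).erase F,
        (if switchResult (toE G.1) F F' = toE G'.1 then 1 else 0))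
        (fun _ _ => Nat.zero_le _) (mem_powersetCard.2 ⟨subset_univ _, hScard⟩)

open Classical in
/-- the switch sum is dominated by the proposal sum. -/
lemma switch_sum_le (d : Fin n → ℕ) (φ : Finset (Edge n) → ℝ) :
    ∑ x : Fin n, ∑ y : Fin n, ∑ k : Fin n, ∑ l : Fin n, ∑ G : Rz d, ∑ G' : Rz d,
      (if Sw G.1 G'.1 x y k l then (φ (toE G.1) - φ (toE G'.1)) ^ 2 else 0) ≤
    16 * ∑ E ∈ realizations d, ∑ E' ∈ realizations d,
      (proposalCount E E' : ℝ) * (φ E - φ E') ^ 2 := by
  have h1 : ∑ x : Fin n, ∑ y : Fin n, ∑ k : Fin n, ∑ l : Fin n, ∑ G : Rz d, ∑ G' : Rz d,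
      (if Sw G.1 G'.1 x y k l then (φ (toE G.1) - φ (toE G'.1)) ^ 2 else 0) =
      ∑ G : Rz d, ∑ G' : Rz d, ∑ q : Fin n × Fin n × Fin n × Fin n,
      (if Sw G.1 G'.1 q.1 q.2.1 q.2.2.1 q.2.2.2 then
        (φ (toE G.1) - φ (toE G'.1)) ^ 2 else 0) := by
    have h0 : ∑ x : Fin n, ∑ y : Fin n, ∑ k : Fin n, ∑ l : Fin n, ∑ G : Rz d, ∑ G' : Rz d,
        (if Sw G.1 G'.1 x y k l then (φ (toE G.1) - φ (toE G'.1)) ^ 2 else 0) =
        ∑ q : Fin n × Fin n × Fin n × Fin n, ∑ G : Rz d, ∑ G' : Rz d,
        (if Sw G.1 G'.1 q.1 q.2.1 q.2.2.1 q.2.2.2 then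
          (φ (toE G.1) - φ (toE G'.1)) ^ 2 else 0) := by
      simp only [Fintype.sum_prod_type]
    rw [h0, sum_comm]
    exact sum_congr rfl fun G _ => sum_comm
  rw [h1, ← sum_Rz, mul_sum]
  refine sum_le_sum fun G _ => ?_
  rw [← sum_Rz, mul_sum]
  refine sum_le_sum fun G' _ => ?_
  rw [← sum_filter, sum_const, nsmul_eq_mul, ← mul_assoc]
  refine mul_le_mul_of_nonneg_right ?_ (sq_nonneg _)
  by_cases hne : ∃ q : Fin n × Fin n × Fin n × Fin n, Sw G.1 G'.1 q.1 q.2.1 q.2.2.1 q.2.2.2
  · obtain ⟨q, hq⟩ := hne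
    have h2 : (1 : ℝ) ≤ proposalCount (toE G.1) (toE G'.1) := by
      exact_mod_cast one_le_proposalCount G G' hq
    have h3 : ((univ.filter fun q : Fin n × Fin n × Fin n × Fin n =>
      Sw G.1 G'.1 q.1 q.2.1 q.2.2.1 q.2.2.2).card : ℝ) ≤ 16 := by
      exact_mod_cast card_quads G.1 G'.1 G.2.1
    linarith
  · have : (univ.filter fun q : Fin n × Fin n × Fin n × Fin n =>
      Sw G.1 G'.1 q.1 q.2.1 q.2.2.1 q.2.2.2) = ∅ := by
      rw [filter_eq_empty_iff]
      intro q _ hq
      exact hne ⟨q, hq⟩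
    rw [this]
    simp


/-- Dirichlet form of the kernel in terms of proposals. -/
lemma kernel_dirichlet (hn : 4 ≤ n) (d : Fin n → ℕ) (f : Finset (Edge n) → ℝ) :
    ∑ G ∈ realizations d, f G * (f G - ∑ G' ∈ realizations d, kernel n G G' * f G') =
      (1 / (24 * (n.choose 4 : ℝ))) * ∑ E ∈ realizations d, ∑ E' ∈ realizations d,
        (proposalCount E E' : ℝ) * (f E - f E') ^ 2 := by
  have hC : (0 : ℝ) < n.choose 4 := by exact_mod_cast Nat.choose_pos hn
  rw [dirichlet (kernel n) (realizations d) kernel_symm (sum_kernel hn)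
    (fun x hx y hy => kernel_eq_zero hx hy), mul_sum, mul_sum]
  refine sum_congr rfl fun E _ => ?_
  rw [mul_sum, mul_sum]
  refine sum_congr rfl fun E' _ => ?_
  unfold kernel
  by_cases h : E = E'
  · subst h; simp
  · rw [if_neg h]
    field_simp
    ring

/-- Poincaré inequality for the kernel. -/
lemma kernel_poincare (hn : 4 ≤ n) (d : Fin n → ℕ)
    (h : ∀ f : Rz d → ℝ, ∑ G, (f G - (∑ G', f G') / (Fintype.card (Rz d) : ℝ)) ^ 2 ≤
      (1 / 8) * ∑ x : Fin n, ∑ y : Fin n, ∑ k : Fin n, ∑ l : Fin n, ∑ G : Rz d, ∑ G' : Rz d,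
        (haveI := Classical.propDecidable (Sw G.1 G'.1 x y k l);
        if Sw G.1 G'.1 x y k l then (f G - f G') ^ 2 else 0))
    (f : Finset (Edge n) → ℝ) :
    ∑ G ∈ realizations d, (f G - (∑ G' ∈ realizations d, f G') / ((realizations d).card : ℝ)) ^ 2
      ≤ 48 * (n.choose 4 : ℝ) *
      ∑ G ∈ realizations d, f G * (f G - ∑ G' ∈ realizations d, kernel n G G' * f G') := by
  have hC : (0 : ℝ) < n.choose 4 := by exact_mod_cast Nat.choose_pos hn
  have h1 := h (fun G => f (toE G.1))
  rw [sum_Rz f, card_Rz, sum_Rz (fun E => (f E - (∑ G' ∈ realizations d, f G') /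
    ((realizations d).card : ℝ)) ^ 2)] at h1
  have h2 := switch_sum_le d f
  rw [kernel_dirichlet hn d f]
  have h3 : 48 * (n.choose 4 : ℝ) * (1 / (24 * (n.choose 4 : ℝ)) *
      ∑ E ∈ realizations d, ∑ E' ∈ realizations d,
        (proposalCount E E' : ℝ) * (f E - f E') ^ 2) =
      2 * ∑ E ∈ realizations d, ∑ E' ∈ realizations d,
        (proposalCount E E' : ℝ) * (f E - f E') ^ 2 := by
    field_simp
    ring
  rw [h3]
  refine h1.trans ?_
  refine (mul_le_mul_of_nonneg_left h2 (by norm_num : (0 : ℝ) ≤ 1 / 8)).trans_eq ?_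
  ring

lemma card_edge_le (hn : 4 ≤ n) : Fintype.card (Edge n) ≤ n ^ 2 := by
  calc Fintype.card (Edge n) ≤ Fintype.card (Sym2 (Fin n)) :=
        Fintype.card_subtype_le _
    _ = (n + 1).choose 2 := by rw [Sym2.card, Fintype.card_fin]
    _ ≤ n ^ 2 := by
        rw [Nat.choose_two_right]
        apply Nat.div_le_of_le_mul
        simp
        nlinarith

lemma card_realizations_le (hn : 4 ≤ n) (d : Fin n → ℕ) :
    ((realizations d).card : ℝ) ≤ 2 ^ (n ^ 2) := by
  have h1 : (realizations d).card ≤ 2 ^ (n ^ 2) := by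
    calc (realizations d).card ≤ Fintype.card (Finset (Edge n)) := card_le_univ _
      _ = 2 ^ Fintype.card (Edge n) := Fintype.card_finset
      _ ≤ 2 ^ (n ^ 2) := Nat.pow_le_pow_right (by norm_num) (card_edge_le hn)
  exact_mod_cast h1

open Classical in
/-- T6 -/
theorem final_of_poincare (n : ℕ) (hn : 4 ≤ n)
    (d : Fin n → ℕ) (hd : (Crest.SwitchChain.realizations d).Nonempty)
    (h : ∀ f : Rz d → ℝ, ∑ G, (f G - (∑ G', f G') / (Fintype.card (Rz d) : ℝ)) ^ 2 ≤
      (1 / 8) * ∑ x : Fin n, ∑ y : Fin n, ∑ k : Fin n, ∑ l : Fin n, ∑ G : Rz d, ∑ G' : Rz d,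
        if Sw G.1 G'.1 x y k l then (f G - f G') ^ 2 else 0) :
    (∃ t : ℕ, t ≤ 2 * n ^ 8 ∧ ∀ G ∈ Crest.SwitchChain.realizations d,
        Crest.SwitchChain.tvDist (fun G' => (Crest.SwitchChain.kernel n ^ t) G G')
          (Crest.SwitchChain.unifOn (Crest.SwitchChain.realizations d)) ≤ 1 / 4) ∧
      ∀ f : Finset (Crest.SwitchChain.Edge n) → ℝ,
        ((Crest.SwitchChain.realizations d).card : ℝ) *
              (∑ G ∈ Crest.SwitchChain.realizations d, f G ^ 2) -
            (∑ G ∈ Crest.SwitchChain.realizations d, f G) ^ 2 ≤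
          24 * (n : ℝ) ^ 2 * (n.choose 4 : ℝ) * (Crest.SwitchChain.realizations d).card *
            ∑ G ∈ Crest.SwitchChain.realizations d,
              f G * (f G - ∑ G' ∈ Crest.SwitchChain.realizations d,
                Crest.SwitchChain.kernel n G G' * f G') := by
  have hC : (1 : ℝ) ≤ n.choose 4 := by exact_mod_cast Nat.choose_pos hn
  have hn4 : (4 : ℝ) ≤ n := by exact_mod_cast hn
  have hΩ : (0 : ℝ) < (realizations d).card := by exact_mod_cast card_pos.2 hd
  have hP := kernel_poincare hn d h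
  have hE : ∀ f : Finset (Edge n) → ℝ, 0 ≤ ∑ G ∈ realizations d, f G * (f G - ∑ G' ∈ realizations d,
      kernel n G G' * f G') := by
    intro f
    rw [kernel_dirichlet hn d f]
    positivity
  refine ⟨⟨2 * n ^ 8, le_refl _, fun G hG => ?_⟩, fun f => ?_⟩
  · set γ : ℝ := 1 / (48 * (n.choose 4 : ℝ)) with hγ
    have hγ0 : 0 < γ := by positivity
    have hγ1 : γ ≤ 1 := by
      rw [hγ, div_le_one (by positivity)]
      linarith
    have htv := tv_bound (kernel n) (realizations d) kernel_symm kernel_nonneg (sum_kernel hn)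
      (fun x => by
        unfold kernel
        simp only [if_true]
        have : (0 : ℝ) ≤ (proposalCount x x : ℝ) / (12 * (n.choose 4 : ℝ)) := by positivity
        linarith)
      (fun x hx y hy => kernel_eq_zero hx hy) γ hγ1
      (fun f hf => by
        have := hP f
        rw [hf] at this
        simp only [zero_div, sub_zero] at this
        rw [hγ, one_div, inv_mul_le_iff₀ (by positivity)]
        exact this)
      G hG (2 * n ^ 8)
    have hγt : (n : ℝ) ^ 4 ≤ γ * (2 * n ^ 8 : ℕ) := by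
      have hc : (n.choose 4 : ℝ) ≤ (n : ℝ) ^ 4 / 24 := by
        have := Nat.choose_le_pow_div (α := ℝ) 4 n
        simpa [Nat.factorial] using this
      rw [hγ, div_mul_eq_mul_div, le_div_iff₀ (by positivity)]
      push_cast
      have h5 : (0 : ℝ) ≤ (n : ℝ) ^ 4 := by positivity
      nlinarith [mul_le_mul_of_nonneg_left hc h5]
    have hpow : (1 - γ) ^ (2 * n ^ 8) ≤ Real.exp (-(n : ℝ) ^ 4) := by
      calc (1 - γ) ^ (2 * n ^ 8) ≤ (Real.exp (-γ)) ^ (2 * n ^ 8) := by
            apply pow_le_pow_left₀ (by linarith)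
            have := Real.add_one_le_exp (-γ)
            linarith
        _ = Real.exp (-(γ * (2 * n ^ 8 : ℕ))) := by
            rw [← Real.exp_nat_mul]; congr 1; ring
        _ ≤ Real.exp (-(n : ℝ) ^ 4) := by
            apply Real.exp_le_exp.2; linarith
    have hcard : ((realizations d).card : ℝ) ≤ Real.exp ((n : ℝ) ^ 2) := by
      refine (card_realizations_le hn d).trans ?_
      have h2 : (2 : ℝ) ≤ Real.exp 1 := by
        have := Real.add_one_le_exp (1 : ℝ); linarith
      calc (2 : ℝ) ^ (n ^ 2) ≤ (Real.exp 1) ^ (n ^ 2) := pow_le_pow_left₀ (by norm_num) h2 _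
        _ = Real.exp ((n : ℝ) ^ 2) := by
            rw [← Real.exp_nat_mul]; push_cast; congr 1; ring
    have hfin : (tvDist (fun G' => (kernel n ^ (2 * n ^ 8)) G G') (unifOn (realizations d))) ^ 2
        ≤ (1 / 4) ^ 2 := by
      refine htv.trans ?_
      calc (1 / 4) * ((realizations d).card : ℝ) * (1 - γ) ^ (2 * n ^ 8)
          ≤ (1 / 4) * Real.exp ((n : ℝ) ^ 2) * Real.exp (-(n : ℝ) ^ 4) := by
            gcongr
        _ = (1 / 4) * Real.exp ((n : ℝ) ^ 2 - (n : ℝ) ^ 4) := by
            rw [mul_assoc, ← Real.exp_add]; ring_nf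
        _ ≤ (1 / 4) * Real.exp (-3) := by
            gcongr
            nlinarith [mul_self_nonneg ((n : ℝ) ^ 2 - 1)]
        _ ≤ (1 / 4) ^ 2 := by
            have h3 : Real.exp (-3) ≤ 1 / 4 := by
              rw [Real.exp_neg]
              have : (4 : ℝ) ≤ Real.exp 3 := by
                have := Real.add_one_le_exp (3 : ℝ); linarith
              rw [inv_le_comm₀ (by positivity) (by norm_num)]
              simpa using this
            linarith
    have hnn : 0 ≤ tvDist (fun G' => (kernel n ^ (2 * n ^ 8)) G G') (unifOn (realizations d)) := by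
      unfold tvDist
      positivity
    exact le_of_sq_le_sq hfin (by norm_num)
  · have h1 := hP f
    have h2 : ∑ G ∈ realizations d, (f G - (∑ G' ∈ realizations d, f G') /
        ((realizations d).card : ℝ)) ^ 2 =
        (∑ G ∈ realizations d, f G ^ 2) - (∑ G ∈ realizations d, f G) ^ 2 /
          ((realizations d).card : ℝ) := by
      simp only [sub_sq, sum_add_distrib, sum_sub_distrib, sum_const, nsmul_eq_mul, ← sum_mul,
        ← mul_sum]
      field_simp
      ring
    rw [h2] at h1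
    have h3 : ((realizations d).card : ℝ) * (∑ G ∈ realizations d, f G ^ 2) -
        (∑ G ∈ realizations d, f G) ^ 2 = ((realizations d).card : ℝ) *
        ((∑ G ∈ realizations d, f G ^ 2) - (∑ G ∈ realizations d, f G) ^ 2 /
          ((realizations d).card : ℝ)) := by
      field_simp
    rw [h3]
    have h4 : (48 : ℝ) ≤ 24 * (n : ℝ) ^ 2 := by nlinarith
    calc ((realizations d).card : ℝ) * ((∑ G ∈ realizations d, f G ^ 2) -
          (∑ G ∈ realizations d, f G) ^ 2 / ((realizations d).card : ℝ))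
        ≤ ((realizations d).card : ℝ) * (48 * (n.choose 4 : ℝ) *
          ∑ G ∈ realizations d, f G * (f G - ∑ G' ∈ realizations d, kernel n G G' * f G')) :=
          mul_le_mul_of_nonneg_left h1 hΩ.le
      _ ≤ ((realizations d).card : ℝ) * (24 * (n : ℝ) ^ 2 * (n.choose 4 : ℝ) *
          ∑ G ∈ realizations d, f G * (f G - ∑ G' ∈ realizations d, kernel n G G' * f G')) := by
          gcongr
          exact hE f
      _ = _ := by ring

end Crest.Agent.H25.T6
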