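import Crest.Agent.H25.RelQ

/-! T7 of `H25/Interface`: transfer of T1 (`triple_matrix`) to graphs.  `triple_graph_of` takes T1 for `N = V`
as a hypothesis: `triple_graph := triple_graph_of (fun r c f => T1.triple_matrix r c f)`. -/

set_option autoImplicit false
set_option linter.unusedSectionVars false
set_option linter.unusedVariables false

namespace Crest.Agent.H25.T7

open Finset Crest.Agent.H25

variable {V : Type*} [Fintype V] [DecidableEq V] {d : V → ℕ}

/-- the `3 × V` matrix of a graph (rows `t 0, t 1, t 2`); the column `t 0` contains the complements of the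
opposite internal edges, the columns `t 1`, `t 2` are `false`. -/
def toM (t : Fin 3 → V) (G : V → V → Bool) : Fin 3 → V → Bool := fun i z =>
  if z = t 0 then !(G (t (i + 1)) (t (i + 2))) else
    if z = t 1 ∨ z = t 2 then false else G (t i) z

/-- column sums -/
def csum (t : Fin 3 → V) (G : V → V → Bool) (z : V) : ℕ :=
  (univ.filter fun i => toM t G i z = true).card

/-- `z` is not one of the three rows -/
def Out (t : Fin 3 → V) (z : V) : Prop := z ≠ t 0 ∧ z ≠ t 1 ∧ z ≠ t 2

instance (t : Fin 3 → V) (z : V) : Decidable (Out t z) := by unfold Out; infer_instance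

/-- the key of a group. -/
def key (t : Fin 3 → V) (G : Rz d) : (V → V → Bool) × (V → ℕ) :=
  (fun a b => if Out t a ∧ Out t b then G.1 a b else false, csum t G.1)

theorem key_eq_iff (t : Fin 3 → V) (G G' : Rz d) :
    key t G = key t G' ↔ (∀ a b, Out t a → Out t b → G.1 a b = G'.1 a b) ∧
      ∀ z, csum t G.1 z = csum t G'.1 z := by
  unfold key
  rw [Prod.mk.injEq]
  constructor
  · rintro ⟨h1, h2⟩
    refine ⟨?_, fun z => congrFun h2 z⟩
    intro a b ha hb
    have := congrFun (congrFun h1 a) b
    simpa [ha, hb] using this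
  · rintro ⟨h1, h2⟩
    refine ⟨?_, funext h2⟩
    funext a b
    by_cases h : Out t a ∧ Out t b
    · simp only [h, and_self, if_true]; exact h1 a b h.1 h.2
    · simp only [h, if_false]

theorem card3 (p : Fin 3 → Bool) (i : Fin 3) :
    (univ.filter fun j => p j = true).card = (p i).toNat + (p (i + 1)).toNat + (p (i + 2)).toNat := by
  revert p i
  decide

theorem toM_out {t : Fin 3 → V} (G : V → V → Bool) (i : Fin 3) {z : V} (hz : Out t z) :
    toM t G i z = G (t i) z := by
  unfold toM
  rw [if_neg hz.1, if_neg (by rintro (h | h); exacts [hz.2.1 h, hz.2.2 h])]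

theorem toM_zero {t : Fin 3 → V} (G : V → V → Bool) (i : Fin 3) :
    toM t G i (t 0) = !(G (t (i + 1)) (t (i + 2))) := by
  unfold toM
  rw [if_pos rfl]

theorem toM_in {t : Fin 3 → V} (ht : Function.Injective t) (G : V → V → Bool) (i j : Fin 3)
    (hj : j ≠ 0) :
    toM t G i (t j) = false := by
  unfold toM
  have h0 : t j ≠ t 0 := fun h => hj (ht h)
  have h1 : t j = t 1 ∨ t j = t 2 := by
    have : j = 1 ∨ j = 2 := by
      clear h0; revert hj; revert j; decide
    rcases this with rfl | rfl
    · left; rfl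
    · right; rfl
  rw [if_neg h0, if_pos h1]

theorem out_or (t : Fin 3 → V) (z : V) : Out t z ∨ ∃ j, z = t j := by
  by_cases h0 : z = t 0
  · exact Or.inr ⟨0, h0⟩
  by_cases h1 : z = t 1
  · exact Or.inr ⟨1, h1⟩
  by_cases h2 : z = t 2
  · exact Or.inr ⟨2, h2⟩
  exact Or.inl ⟨h0, h1, h2⟩

theorem Out.ne {t : Fin 3 → V} {z : V} (h : Out t z) (j : Fin 3) : z ≠ t j := by
  obtain ⟨h0, h1, h2⟩ := h
  fin_cases j
  · exact h0
  · exact h1
  · exact h2

theorem fin3_eq (i : Fin 3) : i + 1 + 1 = i + 2 ∧ i + 1 + 2 = i ∧ i + 2 + 1 = i ∧ i + 2 + 2 = i + 1 ∧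
    i ≠ i + 1 ∧ i ≠ i + 2 ∧ i + 1 ≠ i + 2 := by
  revert i; decide

theorem fin3_or (i j : Fin 3) : j = i ∨ j = i + 1 ∨ j = i + 2 := by
  revert i j; decide

/-- the column sums in terms of the graph -/
theorem csum_out {t : Fin 3 → V} (G : V → V → Bool) (i : Fin 3) {z : V} (hz : Out t z) :
    csum t G z = (G (t i) z).toNat + (G (t (i + 1)) z).toNat + (G (t (i + 2)) z).toNat := by
  unfold csum
  rw [card3 _ i, toM_out _ _ hz, toM_out _ _ hz, toM_out _ _ hz]

theorem csum_zero {t : Fin 3 → V} (G : V → V → Bool) (i : Fin 3) :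
    csum t G (t 0) = (!(G (t (i + 1)) (t (i + 2)))).toNat + (!(G (t (i + 2)) (t i))).toNat +
      (!(G (t i) (t (i + 1)))).toNat := by
  unfold csum
  obtain ⟨h1, h2, h3, h4, _⟩ := fin3_eq i
  rw [card3 _ i, toM_zero, toM_zero, toM_zero, h1, h2, h3, h4]

theorem csum_in {t : Fin 3 → V} (ht : Function.Injective t) (G : V → V → Bool) (j : Fin 3)
    (hj : j ≠ 0) : csum t G (t j) = 0 := by
  unfold csum
  rw [card3 _ 0, toM_in ht _ _ _ hj, toM_in ht _ _ _ hj, toM_in ht _ _ _ hj]
  rfl

theorem bool_sum {a b a' b' : Bool} (h : a.toNat + b.toNat = a'.toNat + b'.toNat) (h' : a ≠ a') :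
    b = a' ∧ a = b' := by
  revert h h'; revert a b a' b'; decide

theorem bool_sum' {a b a' b' : Bool} (h : a.toNat + b.toNat = a'.toNat + b'.toNat) (h' : a = a') :
    b = b' := by
  revert h h'; revert a b a' b'; decide

theorem rel_iff {t : Fin 3 → V} (ht : Function.Injective t) (i : Fin 3) (G G' : Rz d) :
    Rel (t (i + 1)) (t (i + 2)) G G' ↔ key t G = key t G' ∧ toM t G.1 i = toM t G'.1 i := by
  obtain ⟨h11, h12, h21, h22, hi1, hi2, h12'⟩ := fin3_eq i
  have hxy : t (i + 1) ≠ t (i + 2) := fun h => h12' (ht h)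
  have hix : t i ≠ t (i + 1) := fun h => hi1 (ht h)
  have hiy : t i ≠ t (i + 2) := fun h => hi2 (ht h)
  rw [key_eq_iff]
  constructor
  · rintro ⟨Z, hx, hy, h⟩
    have hG' : ∀ a b, G'.1 a b = G.1 (if b ∈ Z then Equiv.swap (t (i + 1)) (t (i + 2)) a else a)
        (if a ∈ Z then Equiv.swap (t (i + 1)) (t (i + 2)) b else b) := by
      intro a b; rw [h]; rfl
    have hs : ∀ a, a ≠ t (i + 1) → a ≠ t (i + 2) → Equiv.swap (t (i + 1)) (t (i + 2)) a = a :=
      fun a h1 h2 => Equiv.swap_apply_of_ne_of_ne h1 h2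
    have hout : ∀ a b, Out t a → Out t b → G'.1 a b = G.1 a b := by
      intro a b ha hb
      rw [hG', hs a (ha.ne _) (ha.ne _), hs b (hb.ne _) (hb.ne _), ite_self, ite_self]
    have hxyG : G'.1 (t (i + 1)) (t (i + 2)) = G.1 (t (i + 1)) (t (i + 2)) := by
      rw [hG', if_neg hx, if_neg hy]
    have hrow : ∀ z, Out t z → G'.1 (t i) z = G.1 (t i) z := by
      intro z hz
      rw [hG', hs _ hix hiy, hs _ (hz.ne _) (hz.ne _), ite_self, ite_self]
    have hx' : ∀ z, (z ≠ t (i + 1)) → (z ≠ t (i + 2)) →
        G'.1 (t (i + 1)) z = if z ∈ Z then G.1 (t (i + 2)) z else G.1 (t (i + 1)) z := by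
      intro z h1 h2
      rw [hG', if_neg hx]
      split_ifs
      · rw [Equiv.swap_apply_left]
      · rfl
    have hy' : ∀ z, (z ≠ t (i + 1)) → (z ≠ t (i + 2)) →
        G'.1 (t (i + 2)) z = if z ∈ Z then G.1 (t (i + 1)) z else G.1 (t (i + 2)) z := by
      intro z h1 h2
      rw [hG', if_neg hy]
      split_ifs
      · rw [Equiv.swap_apply_right]
      · rfl
    refine ⟨⟨fun a b ha hb => (hout a b ha hb).symm, ?_⟩, ?_⟩
    · intro z
      rcases out_or t z with hz | ⟨j, rfl⟩
      · rw [csum_out _ i hz, csum_out _ i hz, hrow z hz, hx' z (hz.ne _) (hz.ne _),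
          hy' z (hz.ne _) (hz.ne _)]
        split_ifs <;> ring
      · by_cases hj : j = 0
        · subst hj
          rw [csum_zero _ i, csum_zero _ i, hxyG, hy' _ hix hiy, G'.2.1 (t i) (t (i + 1)),
            hx' _ hix hiy, G.2.1 (t i) (t (i + 1))]
          split_ifs
          · ring
          · ring
        · rw [csum_in ht _ _ hj, csum_in ht _ _ hj]
    · funext z
      rcases out_or t z with hz | ⟨j, rfl⟩
      · rw [toM_out _ _ hz, toM_out _ _ hz, hrow z hz]
      · by_cases hj : j = 0
        · subst hj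
          rw [toM_zero, toM_zero, hxyG]
        · rw [toM_in ht _ _ _ hj, toM_in ht _ _ _ hj]
  · rintro ⟨⟨hout, hc⟩, hrow⟩
    have hrow' : ∀ z, Out t z → G.1 (t i) z = G'.1 (t i) z := by
      intro z hz
      have := congrFun hrow z
      rwa [toM_out _ _ hz, toM_out _ _ hz] at this
    have hxyG : G.1 (t (i + 1)) (t (i + 2)) = G'.1 (t (i + 1)) (t (i + 2)) := by
      have := congrFun hrow (t 0)
      rw [toM_zero, toM_zero] at this
      simpa using this
    have hsum : ∀ z, z ≠ t (i + 1) → z ≠ t (i + 2) →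
        (G.1 (t (i + 1)) z).toNat + (G.1 (t (i + 2)) z).toNat =
          (G'.1 (t (i + 1)) z).toNat + (G'.1 (t (i + 2)) z).toNat := by
      intro z h1 h2
      rcases out_or t z with hz | ⟨j, rfl⟩
      · have := hc z
        rw [csum_out _ i hz, csum_out _ i hz, hrow' z hz] at this
        omega
      · have hj : j = i := by
          rcases fin3_or i j with h | h | h
          · exact h
          · exact absurd (congrArg t h) h1
          · exact absurd (congrArg t h) h2
        subst hj
        have := hc (t 0)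
        rw [csum_zero _ j, csum_zero _ j, hxyG, G.2.1 (t j) (t (j + 1)),
          G'.2.1 (t j) (t (j + 1))] at this
        revert this
        generalize G.1 (t (j + 1)) (t j) = a
        generalize G.1 (t (j + 2)) (t j) = b
        generalize G'.1 (t (j + 1)) (t j) = a'
        generalize G'.1 (t (j + 2)) (t j) = b'
        generalize G'.1 (t (j + 1)) (t (j + 2)) = e
        revert a b a' b' e
        decide
    set x := t (i + 1) with hxdef
    set y := t (i + 2) with hydef
    set Z : Finset V := univ.filter fun z => z ≠ x ∧ z ≠ y ∧ G.1 x z ≠ G'.1 x z with hZ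
    have hZm : ∀ z, z ∈ Z ↔ z ≠ x ∧ z ≠ y ∧ G.1 x z ≠ G'.1 x z := by
      intro z; rw [hZ]; simp
    have hxZ : x ∉ Z := by rw [hZm]; simp
    have hyZ : y ∉ Z := by rw [hZm]; simp
    -- rows x, y
    have hfx : ∀ b, b ≠ x → b ≠ y → flip x y Z G.1 x b = G'.1 x b := by
      intro b h1 h2
      have e : flip x y Z G.1 x b = if b ∈ Z then G.1 y b else G.1 x b := by
        unfold flip
        rw [if_neg hxZ]
        split_ifs
        · rw [Equiv.swap_apply_left]
        · rfl
      rw [e]
      split_ifs with hb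
      · exact (bool_sum (hsum b h1 h2) ((hZm b).mp hb).2.2).1
      · rw [hZm] at hb
        push Not at hb
        exact hb h1 h2
    have hfy : ∀ b, b ≠ x → b ≠ y → flip x y Z G.1 y b = G'.1 y b := by
      intro b h1 h2
      have e : flip x y Z G.1 y b = if b ∈ Z then G.1 x b else G.1 y b := by
        unfold flip
        rw [if_neg hyZ]
        split_ifs
        · rw [Equiv.swap_apply_right]
        · rfl
      rw [e]
      split_ifs with hb
      · exact (bool_sum (hsum b h1 h2) ((hZm b).mp hb).2.2).2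
      · rw [hZm] at hb
        push Not at hb
        exact bool_sum' (hsum b h1 h2) (hb h1 h2)
    have hfxy : flip x y Z G.1 x y = G'.1 x y := by
      unfold flip
      rw [if_neg hxZ, if_neg hyZ, hxyG]
    have hsymm := flip_symm (x := x) (y := y) (Z := Z) G.2.1
    have hirr := flip_irrefl (x := x) (y := y) (Z := Z) G.2.2.1
    refine ⟨Z, hxZ, hyZ, ?_⟩
    funext a b
    by_cases hax : a = x
    · rw [hax]
      by_cases hbx : b = x
      · rw [hbx, hirr, G'.2.2.1]
      · by_cases hby : b = y
        · rw [hby]; exact hfxy.symm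
        · exact (hfx b hbx hby).symm
    · by_cases hay : a = y
      · rw [hay]
        by_cases hbx : b = x
        · rw [hbx, hsymm, G'.2.1]; exact hfxy.symm
        · by_cases hby : b = y
          · rw [hby, hirr, G'.2.2.1]
          · exact (hfy b hbx hby).symm
      · by_cases hbx : b = x
        · rw [hbx, hsymm, G'.2.1]; exact (hfx a hax hay).symm
        · by_cases hby : b = y
          · rw [hby, hsymm, G'.2.1]; exact (hfy a hax hay).symm
          · have e : flip x y Z G.1 a b = G.1 a b := by
              unfold flip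
              rw [Equiv.swap_apply_of_ne_of_ne hax hay, Equiv.swap_apply_of_ne_of_ne hbx hby,
                ite_self, ite_self]
            rw [e]
            have hcase : ∀ z, z ≠ x → z ≠ y → Out t z ∨ z = t i := by
              intro z h1 h2
              rcases out_or t z with hz | ⟨j, rfl⟩
              · exact Or.inl hz
              · right
                rcases fin3_or i j with h | h | h
                · rw [h]
                · exact absurd (congrArg t h) h1
                · exact absurd (congrArg t h) h2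
            rcases hcase a hax hay with ha | ha
            · rcases hcase b hbx hby with hb | hb
              · exact (hout a b ha hb).symm
              · rw [hb, G.2.1, G'.2.1]; exact (hrow' a ha).symm
            · rcases hcase b hbx hby with hb | hb
              · rw [ha]; exact (hrow' b hb).symm
              · rw [ha, hb, G.2.2.1, G'.2.2.1]

/-- index of a row vertex -/
def idx (t : Fin 3 → V) (a : V) : Option (Fin 3) :=
  if a = t 0 then some 0 else if a = t 1 then some 1 else if a = t 2 then some 2 else none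

theorem idx_t {t : Fin 3 → V} (ht : Function.Injective t) (j : Fin 3) : idx t (t j) = some j := by
  unfold idx
  fin_cases j
  · simp
  · simp [ht.eq_iff]
  · simp [ht.eq_iff]

theorem idx_out {t : Fin 3 → V} {a : V} (h : Out t a) : idx t a = none := by
  unfold idx
  rw [if_neg h.1, if_neg h.2.1, if_neg h.2.2]

/-- the graph with matrix `m` and the outer edges of `G0`. -/
def ofM (t : Fin 3 → V) (G0 : V → V → Bool) (m : Fin 3 → V → Bool) : V → V → Bool := fun a b =>
  match idx t a, idx t b with
  | none, none => G0 a b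
  | some i, none => m i b
  | none, some j => m j a
  | some i, some j => if i = j then false else !(m (-(i + j)) (t 0))

section ofM

variable {t : Fin 3 → V} (ht : Function.Injective t) (G0 : V → V → Bool) (m : Fin 3 → V → Bool)

theorem ofM_oo {a b : V} (ha : Out t a) (hb : Out t b) : ofM t G0 m a b = G0 a b := by
  simp only [ofM, idx_out ha, idx_out hb]

include ht in
theorem ofM_to (i : Fin 3) {b : V} (hb : Out t b) : ofM t G0 m (t i) b = m i b := by
  simp only [ofM, idx_t ht, idx_out hb]

include ht in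
theorem ofM_ot (j : Fin 3) {a : V} (ha : Out t a) : ofM t G0 m a (t j) = m j a := by
  simp only [ofM, idx_t ht, idx_out ha]

include ht in
theorem ofM_tt (i j : Fin 3) : ofM t G0 m (t i) (t j) =
    if i = j then false else !(m (-(i + j)) (t 0)) := by
  simp only [ofM, idx_t ht]

end ofM

theorem card_split {t : Fin 3 → V} (ht : Function.Injective t) (p : V → Bool) (i : Fin 3) :
    (univ.filter fun b => p b = true).card = (univ.filter fun b => Out t b ∧ p b = true).card +
      ((p (t i)).toNat + (p (t (i + 1))).toNat + (p (t (i + 2))).toNat) := by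
  have h1 : (univ.filter fun b => p b = true) = (univ.filter fun b => Out t b ∧ p b = true) ∪
      (univ.filter fun j : Fin 3 => p (t j) = true).map ⟨t, ht⟩ := by
    ext b
    simp only [mem_filter, mem_univ, true_and, mem_union, mem_map, Function.Embedding.coeFn_mk]
    constructor
    · intro h
      rcases out_or t b with hb | ⟨j, rfl⟩
      · exact Or.inl ⟨hb, h⟩
      · exact Or.inr ⟨j, h, rfl⟩
    · rintro (⟨_, h⟩ | ⟨j, h, rfl⟩)
      · exact h
      · exact h
  have h2 : Disjoint (univ.filter fun b => Out t b ∧ p b = true)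
      ((univ.filter fun j : Fin 3 => p (t j) = true).map ⟨t, ht⟩) := by
    rw [Finset.disjoint_left]
    intro b hb hb'
    simp only [mem_filter, mem_univ, true_and, mem_map, Function.Embedding.coeFn_mk] at hb hb'
    obtain ⟨j, _, rfl⟩ := hb'
    exact hb.1.ne j rfl
  rw [h1, card_union_of_disjoint h2, card_map, card3 (fun j => p (t j)) i]

theorem rowsum {t : Fin 3 → V} (ht : Function.Injective t) (G : Rz d) (i : Fin 3) :
    (univ.filter fun z => toM t G.1 i z = true).card + 2 = d (t i) + csum t G.1 (t 0) := by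
  have h1 := card_split ht (fun z => toM t G.1 i z) 0
  have h2 := card_split ht (fun z => G.1 (t i) z) i
  have h3 := csum_zero (t := t) G.1 i
  have h4 := G.2.2.2 (t i)
  have h5 : (univ.filter fun b => Out t b ∧ toM t G.1 i b = true) =
      (univ.filter fun b => Out t b ∧ G.1 (t i) b = true) := by
    ext b
    simp only [mem_filter, mem_univ, true_and]
    refine and_congr_right fun hb => ?_
    rw [toM_out _ _ hb]
  beta_reduce at h1 h2
  rw [h5, toM_zero, toM_in ht _ _ (0 + 1) (by decide), toM_in ht _ _ (0 + 2) (by decide)] at h1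
  rw [G.2.2.1] at h2
  rw [G.2.1 (t (i + 2)) (t i)] at h3
  revert h1 h2 h3
  rw [h4]
  generalize (univ.filter fun z => toM t G.1 i z = true).card = A
  generalize (univ.filter fun b => Out t b ∧ G.1 (t i) b = true).card = B
  generalize csum t G.1 (t 0) = C
  generalize d (t i) = D
  generalize G.1 (t i) (t (i + 1)) = e1
  generalize G.1 (t i) (t (i + 2)) = e2
  generalize G.1 (t (i + 1)) (t (i + 2)) = e3
  intro h1 h2 h3
  cases e1 <;> cases e2 <;> cases e3 <;> simp at h1 h2 h3 <;> omega

theorem fin3_neg (i : Fin 3) : -(i + (i + 1)) = i + 2 ∧ -(i + (i + 2)) = i + 1 ∧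
    -(i + 1 + (i + 2)) = i := by
  revert i; decide

theorem arith {A B C D X : ℕ} {g1 g2 g3 : Bool}
    (h1 : X = B + (false.toNat + (!g3).toNat + (!g2).toNat))
    (h2 : A = B + (g1.toNat + false.toNat + false.toNat)) (h3 : A + 2 = D + C)
    (h6 : g1.toNat + g2.toNat + g3.toNat = C) : X = D := by
  cases g1 <;> cases g2 <;> cases g3 <;> simp at h1 h2 h6 <;> omega

section inverse

variable {t : Fin 3 → V} (ht : Function.Injective t) (G0 : Rz d)

/-- the matrices in the group of `G0` -/
abbrev MM (t : Fin 3 → V) (G0 : Rz d) : Type _ :=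
  Mat3 (fun i => (univ.filter fun z => toM t G0.1 i z = true).card) (csum t G0.1)

theorem MM_in {j : Fin 3} (ht : Function.Injective t) (hj : j ≠ 0) (m : MM t G0) (i : Fin 3) :
    m.1 i (t j) = false := by
  have h := m.2.2 (t j)
  rw [csum_in ht _ _ hj, Finset.card_eq_zero, Finset.filter_eq_empty_iff] at h
  have := h (mem_univ i)
  simpa using this

include ht in
theorem toM_ofM (m : MM t G0) : toM t (ofM t G0.1 m.1) = m.1 := by
  funext i z
  rcases out_or t z with hz | ⟨j, rfl⟩
  · rw [toM_out _ _ hz, ofM_to ht _ _ _ hz]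
  · by_cases hj : j = 0
    · subst hj
      rw [toM_zero, ofM_tt ht, if_neg (fin3_eq i).2.2.2.2.2.2]
      rw [(fin3_neg i).2.2, Bool.not_not]
    · rw [toM_in ht _ _ _ hj, MM_in G0 ht hj]

include ht in
theorem isReal_ofM (m : MM t G0) : IsReal d (ofM t G0.1 m.1) := by
  refine ⟨?_, ?_, ?_⟩
  · intro a b
    rcases out_or t a with ha | ⟨i, rfl⟩
    · rcases out_or t b with hb | ⟨j, rfl⟩
      · rw [ofM_oo _ _ ha hb, ofM_oo _ _ hb ha, G0.2.1]
      · rw [ofM_ot ht _ _ _ ha, ofM_to ht _ _ _ ha]
    · rcases out_or t b with hb | ⟨j, rfl⟩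
      · rw [ofM_ot ht _ _ _ hb, ofM_to ht _ _ _ hb]
      · rw [ofM_tt ht, ofM_tt ht, add_comm j i]
        simp only [eq_comm]
  · intro a
    rcases out_or t a with ha | ⟨i, rfl⟩
    · rw [ofM_oo _ _ ha ha, G0.2.2.1]
    · rw [ofM_tt ht, if_pos rfl]
  · intro a
    rcases out_or t a with ha | ⟨i, rfl⟩
    · have h1 := card_split ht (fun z => ofM t G0.1 m.1 a z) 0
      have h2 := card_split ht (fun z => G0.1 a z) 0
      have h3 := csum_out (t := t) G0.1 0 ha
      have h4 := G0.2.2.2 a
      have h5 : (univ.filter fun b => Out t b ∧ ofM t G0.1 m.1 a b = true) =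
          (univ.filter fun b => Out t b ∧ G0.1 a b = true) := by
        ext b
        simp only [mem_filter, mem_univ, true_and]
        refine and_congr_right fun hb => ?_
        rw [ofM_oo _ _ ha hb]
      have h6 := m.2.2 a
      rw [card3 _ 0] at h6
      beta_reduce at h1 h2
      rw [h5, ofM_ot ht _ _ _ ha, ofM_ot ht _ _ _ ha, ofM_ot ht _ _ _ ha] at h1
      rw [G0.2.1 a (t 0), G0.2.1 a (t (0 + 1)), G0.2.1 a (t (0 + 2))] at h2
      omega
    · have h1 := card_split ht (fun z => ofM t G0.1 m.1 (t i) z) i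
      have h2 := card_split ht (fun z => m.1 i z) 0
      have h3 := rowsum ht G0 i
      have h4 := m.2.1 i
      have h5 : (univ.filter fun b => Out t b ∧ ofM t G0.1 m.1 (t i) b = true) =
          (univ.filter fun b => Out t b ∧ m.1 i b = true) := by
        ext b
        simp only [mem_filter, mem_univ, true_and]
        refine and_congr_right fun hb => ?_
        rw [ofM_to ht _ _ _ hb]
      have h6 := m.2.2 (t 0)
      rw [card3 _ i] at h6
      obtain ⟨e1, e2, _⟩ := fin3_neg i
      beta_reduce at h1 h2 h4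
      rw [h5, ofM_tt ht, ofM_tt ht, ofM_tt ht, if_pos rfl, if_neg (fin3_eq i).2.2.2.2.1,
        if_neg (fin3_eq i).2.2.2.2.2.1, e1, e2] at h1
      rw [MM_in G0 ht (j := 0 + 1) (by decide), MM_in G0 ht (j := 0 + 2) (by decide)] at h2
      rw [h4] at h2
      exact arith h1 h2 h3 h6

/-- parametrization of the group of `G0` by matrices. -/
def phi (ht : Function.Injective t) (G0 : Rz d) (m : MM t G0) : Rz d :=
  ⟨ofM t G0.1 m.1, isReal_ofM ht G0 m⟩

theorem toM_phi (m : MM t G0) : toM t (phi ht G0 m).1 = m.1 := toM_ofM ht G0 m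

theorem phi_injective : Function.Injective (phi ht G0) := by
  intro m m' h
  apply Subtype.ext
  rw [← toM_phi ht G0 m, ← toM_phi ht G0 m', h]

theorem key_phi (m : MM t G0) : key t (phi ht G0 m) = key t G0 := by
  rw [key_eq_iff]
  refine ⟨fun a b ha hb => ofM_oo _ _ ha hb, fun z => ?_⟩
  have : csum t (phi ht G0 m).1 z = (univ.filter fun i => m.1 i z = true).card := by
    unfold csum
    rw [toM_phi]
  rw [this, m.2.2 z]

theorem phi_surj (G : Rz d) (h : key t G = key t G0) : ∃ m, phi ht G0 m = G := by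
  rw [key_eq_iff] at h
  obtain ⟨hout, hc⟩ := h
  refine ⟨⟨toM t G.1, ?_, ?_⟩, ?_⟩
  · intro i
    have h1 := rowsum ht G i
    have h2 := rowsum ht G0 i
    have h3 := hc (t 0)
    show (univ.filter fun z => toM t G.1 i z = true).card =
      (univ.filter fun z => toM t G0.1 i z = true).card
    omega
  · intro z
    exact hc z
  · apply Subtype.ext
    funext a b
    show ofM t G0.1 (toM t G.1) a b = G.1 a b
    rcases out_or t a with ha | ⟨i, rfl⟩
    · rcases out_or t b with hb | ⟨j, rfl⟩
      · rw [ofM_oo _ _ ha hb, hout a b ha hb]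
      · rw [ofM_ot ht _ _ _ ha, toM_out _ _ ha, G.2.1]
    · rcases out_or t b with hb | ⟨j, rfl⟩
      · rw [ofM_to ht _ _ _ hb, toM_out _ _ hb]
      · rw [ofM_tt ht]
        split_ifs with hij
        · rw [hij, G.2.2.1]
        · rw [toM_zero, Bool.not_not]
          have : (-(i + j) + 1 = i ∧ -(i + j) + 2 = j) ∨ (-(i + j) + 1 = j ∧ -(i + j) + 2 = i) := by
            revert hij; revert i j; decide
          rcases this with ⟨h1, h2⟩ | ⟨h1, h2⟩
          · rw [h1, h2]
          · rw [h1, h2, G.2.1]

end inverse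

theorem av_transfer {Ω Ω' : Type*} [Fintype Ω] [Fintype Ω'] (r : Ω → Ω → Prop)
    (r' : Ω' → Ω' → Prop) (φ : Ω' → Ω) (hφ : Function.Injective φ) (x : Ω')
    (h1 : ∀ y', r' x y' ↔ r (φ x) (φ y')) (h2 : ∀ y, r (φ x) y → ∃ y', φ y' = y) (f : Ω → ℝ) :
    av r f (φ x) = av r' (fun y => f (φ y)) x := by
  classical
  have h : univ.filter (fun y => r (φ x) y) = (univ.filter (fun y => r' x y)).map ⟨φ, hφ⟩ := by
    ext y
    simp only [mem_filter, mem_univ, true_and, mem_map, Function.Embedding.coeFn_mk]
    constructor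
    · intro hy
      obtain ⟨y', rfl⟩ := h2 y hy
      exact ⟨y', (h1 y').mpr hy, rfl⟩
    · rintro ⟨y', hy', rfl⟩
      exact (h1 y').mp hy'
  unfold av
  rw [h, Finset.sum_map, Finset.card_map]
  rfl

theorem triple_graph_of
    (T1 : ∀ (r : Fin 3 → ℕ) (c : V → ℕ) (f : Mat3 r c → ℝ),
      ∑ i, ∑ m, (f m - av (fun m m' : Mat3 r c => m.1 i = m'.1 i) f m) ^ 2 ≤
      ∑ m, (∑ i, (f m - av (fun m m' : Mat3 r c => m.1 i = m'.1 i) f m)) ^ 2)
    (f : Rz d → ℝ) {u v w : V} (huv : u ≠ v) (huw : u ≠ w) (hvw : v ≠ w) :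
    0 ≤ (∑ G, P u v f G * P u w f G) + (∑ G, P u v f G * P v w f G) +
      ∑ G, P u w f G * P v w f G := by
  classical
  set t : Fin 3 → V := ![u, v, w] with htdef
  have ht : Function.Injective t := by
    intro i j hij
    fin_cases i <;> fin_cases j <;> simp [htdef] at hij ⊢ <;> first | rfl | (exfalso; tauto)
  have hPsymm : P u w f = P w u f := by
    funext G
    unfold P
    have : (Rel (d := d) u w) = Rel w u := by
      funext G G'
      unfold Rel
      apply propext
      constructor
      · rintro ⟨Z, h1, h2, h3⟩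
        refine ⟨Z, h2, h1, ?_⟩
        rw [h3]; unfold flip; rw [Equiv.swap_comm]
      · rintro ⟨Z, h1, h2, h3⟩
        refine ⟨Z, h2, h1, ?_⟩
        rw [h3]; unfold flip; rw [Equiv.swap_comm]
    rw [this]
  set Q : Fin 3 → Rz d → ℝ := fun i => P (t (i + 1)) (t (i + 2)) f with hQ
  have hQ0 : Q 0 = P v w f := rfl
  have hQ1 : Q 1 = P w u f := rfl
  have hQ2 : Q 2 = P u v f := rfl
  have main : 0 ≤ ∑ G, ((∑ i, Q i G) ^ 2 - ∑ i, (Q i G) ^ 2) := by
    rw [← Finset.sum_fiberwise_of_maps_to (t := univ.image (key t)) (g := key t)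
      (fun G _ => Finset.mem_image_of_mem _ (mem_univ G))]
    apply Finset.sum_nonneg
    intro κ hκ
    obtain ⟨G0, _, rfl⟩ := Finset.mem_image.mp hκ
    have himg : univ.filter (fun G : Rz d => key t G = key t G0) =
        (univ : Finset (MM t G0)).map ⟨phi ht G0, phi_injective ht G0⟩ := by
      ext G
      simp only [mem_filter, mem_univ, true_and, mem_map, Function.Embedding.coeFn_mk]
      constructor
      · intro h
        exact phi_surj ht G0 G h
      · rintro ⟨m, rfl⟩
        exact key_phi ht G0 m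
    rw [himg, Finset.sum_map]
    have hQm : ∀ (i : Fin 3) (m : MM t G0), Q i (phi ht G0 m) = f (phi ht G0 m) -
        av (fun m m' : MM t G0 => m.1 i = m'.1 i) (fun m => f (phi ht G0 m)) m := by
      intro i m
      simp only [hQ, P]
      congr 1
      apply av_transfer _ _ (phi ht G0) (phi_injective ht G0)
      · intro m'
        rw [rel_iff ht, key_phi, key_phi, toM_phi, toM_phi]
        simp
      · intro G hG
        rw [rel_iff ht, key_phi] at hG
        exact phi_surj ht G0 G hG.1.symm
    simp only [Function.Embedding.coeFn_mk, hQm]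
    rw [Finset.sum_sub_distrib, Finset.sum_comm (f := fun m i => (f (phi ht G0 m) -
        av (fun m m' : MM t G0 => m.1 i = m'.1 i) (fun m => f (phi ht G0 m)) m) ^ 2)]
    have := T1 _ _ (fun m : MM t G0 => f (phi ht G0 m))
    linarith
  have e : ∑ G, ((∑ i, Q i G) ^ 2 - ∑ i, (Q i G) ^ 2) =
      2 * ((∑ G, P u v f G * P u w f G) + (∑ G, P u v f G * P v w f G) +
      ∑ G, P u w f G * P v w f G) := by
    rw [hPsymm, ← Finset.sum_add_distrib, ← Finset.sum_add_distrib, Finset.mul_sum]
    refine Finset.sum_congr rfl fun G _ => ?_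
    rw [Fin.sum_univ_three, Fin.sum_univ_three, hQ0, hQ1, hQ2]
    ring
  linarith

end Crest.Agent.H25.T7
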