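import Crest.Agent.H25.Poincare
import Crest.Agent.H25.T7
import Crest.Agent.H25.T6c

/-!
Assembly of the proof of S0453 from the triple inequality for `3 × N` matrices (T1) and the star
inequality for the Johnson scheme (T2).
-/

set_option autoImplicit false

namespace Crest.Agent.H25.Final

open Finset Crest.Agent.H25

/-- the statement of T1 -/
def MatIneq (N : Type*) [Fintype N] [DecidableEq N] : Prop :=
  ∀ (r : Fin 3 → ℕ) (c : N → ℕ) (f : Mat3 r c → ℝ),
      ∑ i, ∑ m, (f m - av (fun m m' : Mat3 r c => m.1 i = m'.1 i) f m) ^ 2 ≤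
      ∑ m, (∑ i, (f m - av (fun m m' : Mat3 r c => m.1 i = m'.1 i) f m)) ^ 2

theorem tripleIneq_of {V : Type*} [Fintype V] [DecidableEq V] {d : V → ℕ} (h : MatIneq V) :
    TripleIneq V d := fun f _ _ _ huv huw hvw =>
  T7.triple_graph_of h f huv huw hvw

theorem final_of (n : ℕ) (hn : 4 ≤ n)
    (hstar : StarIneq (Fin n)) (T1 : MatIneq (Fin n))
    (d : Fin n → ℕ) (hd : (Crest.SwitchChain.realizations d).Nonempty) :
    (∃ t : ℕ, t ≤ 2 * n ^ 8 ∧ ∀ G ∈ Crest.SwitchChain.realizations d,
        Crest.SwitchChain.tvDist (fun G' => (Crest.SwitchChain.kernel n ^ t) G G')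
          (Crest.SwitchChain.unifOn (Crest.SwitchChain.realizations d)) ≤ 1 / 4) ∧
      ∀ f : Finset (Crest.SwitchChain.Edge n) → ℝ,
        ((Crest.SwitchChain.realizations d).card : ℝ) *
              (∑ G ∈ Crest.SwitchChain.realizations d, f G ^ 2) -
            (∑ G ∈ Crest.SwitchChain.realizations d, f G) ^ 2 ≤
          24 * (n : ℝ) ^ 2 * (n.choose 4 : ℝ) * (Crest.SwitchChain.realizations d).card *
            ∑ G ∈ Crest.SwitchChain.realizations d,
              f G * (f G - ∑ G' ∈ Crest.SwitchChain.realizations d,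
                Crest.SwitchChain.kernel n G G' * f G') := by
  exact T6.final_of_poincare n hn d hd (fun f => poincare_switch hstar (tripleIneq_of T1) f)

end Crest.Agent.H25.Final
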