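import Crest.Agent.H25.Avg

set_option autoImplicit false
set_option linter.unusedSectionVars false
set_option linter.unusedVariables false

namespace Crest.Agent.H25

open Finset

variable {V : Type*} [Fintype V] [DecidableEq V]

theorem swap_mem_iff {x y : V} {Z : Finset V} (hx : x ∉ Z) (hy : y ∉ Z) (v : V) :
    Equiv.swap x y v ∈ Z ↔ v ∈ Z := by
  by_cases hvx : v = x
  · subst hvx; simp [Equiv.swap_apply_left, hx, hy]
  · by_cases hvy : v = y
    · subst hvy; simp [Equiv.swap_apply_right, hx, hy]
    · rw [Equiv.swap_apply_of_ne_of_ne hvx hvy]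

theorem swap_mem_iff' {k l : V} {Z : Finset V} (hkl : k ∈ Z ↔ l ∈ Z) (v : V) :
    Equiv.swap k l v ∈ Z ↔ v ∈ Z := by
  by_cases hvx : v = k
  · subst hvx; simp [Equiv.swap_apply_left, hkl]
  · by_cases hvy : v = l
    · subst hvy; simp [Equiv.swap_apply_right, hkl]
    · rw [Equiv.swap_apply_of_ne_of_ne hvx hvy]

theorem flip_empty (x y : V) (G : V → V → Bool) : flip x y ∅ G = G := by
  funext u v; simp [flip]

theorem flip_flip {x y : V} {Z Z' : Finset V} (hx : x ∉ Z) (hy : y ∉ Z) (hx' : x ∉ Z')
    (hy' : y ∉ Z') (G : V → V → Bool) :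
    flip x y Z (flip x y Z' G) = flip x y (symmDiff Z Z') G := by
  funext u v
  have hm : ∀ w, w ∈ symmDiff Z Z' ↔ ¬ (w ∈ Z ↔ w ∈ Z') := by
    intro w; rw [Finset.mem_symmDiff]; tauto
  have h1 : ∀ u v : V, (if u ∈ Z then Equiv.swap x y v else v) ∈ Z' ↔ v ∈ Z' := by
    intro u v
    split_ifs
    · exact swap_mem_iff hx' hy' v
    · rfl
  simp only [flip, h1, hm]
  by_cases h1 : v ∈ Z <;> by_cases h2 : v ∈ Z' <;> by_cases h3 : u ∈ Z <;> by_cases h4 : u ∈ Z' <;>
    simp [h1, h2, h3, h4]

theorem flip_invol {x y : V} {Z : Finset V} (hx : x ∉ Z) (hy : y ∉ Z) (G : V → V → Bool) :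
    flip x y Z (flip x y Z G) = G := by
  rw [flip_flip hx hy hx hy, symmDiff_self, Finset.bot_eq_empty, flip_empty]

theorem flip_symm {x y : V} {Z : Finset V} {G : V → V → Bool}
    (hG : ∀ u v, G u v = G v u) (u v : V) : flip x y Z G u v = flip x y Z G v u := by
  simp only [flip]
  rw [hG]

theorem flip_irrefl {x y : V} {Z : Finset V} {G : V → V → Bool}
    (hG : ∀ u, G u u = false) (u : V) : flip x y Z G u u = false := by
  simp only [flip]
  split_ifs <;> exact hG _

/-- degrees of vertices other than `x, y` are preserved. -/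
theorem deg_flip {x y : V} {Z : Finset V} (G : V → V → Bool) {v : V} (hvx : v ≠ x) (hvy : v ≠ y) :
    (univ.filter fun w => flip x y Z G v w = true).card = (univ.filter fun w => G v w = true).card := by
  have h1 : ∀ w, flip x y Z G v w = G v (if v ∈ Z then Equiv.swap x y w else w) := by
    intro w
    simp only [flip]
    congr 1
    split_ifs
    · exact Equiv.swap_apply_of_ne_of_ne hvx hvy
    · rfl
  simp_rw [h1]
  by_cases hv : v ∈ Z
  · simp only [hv, if_true]
    refine Finset.card_bij (fun w _ => Equiv.swap x y w) ?_ ?_ ?_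
    · intro a ha; simpa using ha
    · intro a _ b _ hab; exact (Equiv.swap x y).injective hab
    · intro b hb
      exact ⟨Equiv.swap x y b, by simpa using hb, by simp⟩
  · simp [hv]

/-- conjugation identity. -/
theorem flip_comm {x y k l : V} (hxk : x ≠ k) (hxl : x ≠ l) (hyk : y ≠ k) (hyl : y ≠ l)
    {Z Z' : Finset V} (hkl : k ∈ Z ↔ l ∈ Z) (G : V → V → Bool) :
    flip x y Z (flip k l Z' G) =
      flip k l (if k ∈ Z then Z'.map (Equiv.swap x y).toEmbedding else Z') (flip x y Z G) := by
  set W := (if k ∈ Z then Z'.map (Equiv.swap x y).toEmbedding else Z') with hW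
  have hWmem : ∀ v, v ∈ W ↔ (if k ∈ Z then Equiv.swap x y v else v) ∈ Z' := by
    intro v
    rw [hW]
    split_ifs with h
    · rw [Finset.mem_map_equiv, Equiv.symm_swap]
    · rfl
  have hs : ∀ u, u ≠ k → u ≠ l → Equiv.swap x y u ≠ k ∧ Equiv.swap x y u ≠ l := by
    intro u h1 h2
    by_cases hux : u = x
    · subst hux; simp [Equiv.swap_apply_left, hyk, hyl]
    · by_cases huy : u = y
      · subst huy; simp [Equiv.swap_apply_right, hxk, hxl]
      · rw [Equiv.swap_apply_of_ne_of_ne hux huy]; exact ⟨h1, h2⟩
  have hk : Equiv.swap x y k = k := Equiv.swap_apply_of_ne_of_ne hxk.symm hyk.symm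
  have hl : Equiv.swap x y l = l := Equiv.swap_apply_of_ne_of_ne hxl.symm hyl.symm
  have aux : ∀ u v : V, (if (if u ∈ Z then Equiv.swap x y v else v) ∈ Z' then
      Equiv.swap k l (if v ∈ Z then Equiv.swap x y u else u) else
        (if v ∈ Z then Equiv.swap x y u else u)) =
      (if v ∈ Z then Equiv.swap x y (if v ∈ W then Equiv.swap k l u else u) else
        (if v ∈ W then Equiv.swap k l u else u)) := by
    intro u v
    by_cases huk : u = k
    · subst huk
      have e1 : (if v ∈ Z then Equiv.swap x y u else u) = u := by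
        split_ifs
        · exact hk
        · rfl
      have e2 : Equiv.swap x y (if v ∈ W then Equiv.swap u l u else u) =
          (if v ∈ W then Equiv.swap u l u else u) := by
        split_ifs
        · rw [Equiv.swap_apply_left, hl]
        · exact hk
      rw [e1, e2, ite_self]
      simp only [hWmem]
    · by_cases hul : u = l
      · subst hul
        have e1 : (if v ∈ Z then Equiv.swap x y u else u) = u := by
          split_ifs
          · exact hl
          · rfl
        have e2 : Equiv.swap x y (if v ∈ W then Equiv.swap k u u else u) =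
            (if v ∈ W then Equiv.swap k u u else u) := by
          split_ifs
          · rw [Equiv.swap_apply_right, hk]
          · exact hl
        rw [e1, e2, ite_self]
        simp only [hWmem, hkl]
      · have h0 : Equiv.swap k l u = u := Equiv.swap_apply_of_ne_of_ne huk hul
        have h0' : Equiv.swap k l (Equiv.swap x y u) = Equiv.swap x y u :=
          Equiv.swap_apply_of_ne_of_ne (hs u huk hul).1 (hs u huk hul).2
        have e1 : Equiv.swap k l (if v ∈ Z then Equiv.swap x y u else u) =
            (if v ∈ Z then Equiv.swap x y u else u) := by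
          split_ifs
          · exact h0'
          · exact h0
        rw [e1, h0, ite_self, ite_self]
  funext u v
  have hZ : ∀ (p : Prop) [Decidable p] (w : V), (if p then Equiv.swap k l w else w) ∈ Z ↔ w ∈ Z := by
    intro p _ w
    split_ifs
    · exact swap_mem_iff' hkl w
    · rfl
  show G _ _ = G _ _
  simp only [flip, hZ]
  rw [aux u v, aux v u]

end Crest.Agent.H25
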