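import Crest.Agent.H25.Flip

/-!
# H25/T4: connectivity of the realizations of a degree vector under switches
-/

set_option autoImplicit false
set_option linter.unusedSectionVars false
set_option linter.unusedVariables false

namespace Crest.Agent.H25.T4

open Finset Crest.Agent.H25

variable {V : Type*} [Fintype V] [DecidableEq V]

/-- entries of a switched matrix in row `x` -/
theorem flip_row_x {G : V → V → Bool} {x y k l : V} (h : Alt G x y k l) (w : V) :
    flip x y {k, l} G x w = G x (Equiv.swap k l w) := by
  obtain ⟨hxy, hkl, hxk, hxl, hyk, hyl, h1, h2, h3, h4⟩ := h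
  have hx : x ∉ ({k, l} : Finset V) := by simp [hxk, hxl]
  simp only [flip, hx, if_false]
  by_cases hwk : w = k
  · subst hwk
    simp [Equiv.swap_apply_left, h3, h4]
  · by_cases hwl : w = l
    · subst hwl
      simp [Equiv.swap_apply_left, Equiv.swap_apply_right, h1, h2]
    · rw [Equiv.swap_apply_of_ne_of_ne hwk hwl]
      simp [hwk, hwl]

/-- entries of a switched matrix in row `y` -/
theorem flip_row_y {G : V → V → Bool} {x y k l : V} (h : Alt G x y k l) (w : V) :
    flip x y {k, l} G y w = G y (Equiv.swap k l w) := by
  obtain ⟨hxy, hkl, hxk, hxl, hyk, hyl, h1, h2, h3, h4⟩ := h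
  have hy : y ∉ ({k, l} : Finset V) := by simp [hyk, hyl]
  simp only [flip, hy, if_false]
  by_cases hwk : w = k
  · subst hwk
    simp [Equiv.swap_apply_left, Equiv.swap_apply_right, h1, h2]
  · by_cases hwl : w = l
    · subst hwl
      simp [Equiv.swap_apply_left, Equiv.swap_apply_right, h3, h4]
    · rw [Equiv.swap_apply_of_ne_of_ne hwk hwl]
      simp [hwk, hwl]

theorem isReal_flip {d : V → ℕ} {G : V → V → Bool} (hG : IsReal d G) {x y k l : V}
    (h : Alt G x y k l) : IsReal d (flip x y {k, l} G) := by
  refine ⟨flip_symm hG.1, flip_irrefl hG.2.1, ?_⟩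
  intro v
  have key : ∀ (w : V), (∀ u, flip x y {k, l} G w u = G w (Equiv.swap k l u)) →
      (univ.filter fun u => flip x y {k, l} G w u = true).card = d w := by
    intro w hw
    rw [← hG.2.2 w]
    simp_rw [hw]
    refine Finset.card_bij (fun u _ => Equiv.swap k l u) ?_ ?_ ?_
    · intro a ha; simpa using ha
    · intro a _ b _ hab; exact (Equiv.swap k l).injective hab
    · intro b hb
      exact ⟨Equiv.swap k l b, by simpa using hb, by simp⟩
  by_cases hvx : v = x
  · subst hvx
    exact key v (flip_row_x h)
  · by_cases hvy : v = y
    · subst hvy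
      exact key v (flip_row_y h)
    · rw [deg_flip G hvx hvy]
      exact hG.2.2 v

/-- entries of a switched matrix outside the four vertices -/
theorem flip_row_other {G : V → V → Bool} {x y k l : V} {u : V} (hx : u ≠ x) (hy : u ≠ y)
    (hk : u ≠ k) (hl : u ≠ l) (w : V) : flip x y {k, l} G u w = G u w := by
  have hu : u ∉ ({k, l} : Finset V) := by simp [hk, hl]
  simp only [flip, hu, if_false]
  congr 1
  split_ifs
  · exact Equiv.swap_apply_of_ne_of_ne hx hy
  · rfl

/-- residual degree -/
def rdeg (G : V → V → Bool) (U : Finset V) (a : V) : ℕ :=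
  (univ.filter fun w => G a w = true ∧ w ∉ U).card

theorem rdeg_add {d : V → ℕ} {G : V → V → Bool} (hG : IsReal d G) (U : Finset V) (a : V) :
    rdeg G U a + (univ.filter fun w => G a w = true ∧ w ∈ U).card = d a := by
  rw [← hG.2.2 a, rdeg, add_comm]
  rw [← Finset.card_filter_add_card_filter_not (s := univ.filter fun w => G a w = true)
    (p := fun w => w ∈ U)]
  rw [Finset.filter_filter, Finset.filter_filter]

theorem rdeg_congr {d : V → ℕ} {G G' : V → V → Bool} (hG : IsReal d G) (hG' : IsReal d G')
    {U : Finset V} (hU : ∀ u ∈ U, ∀ z, G u z = G' u z) (a : V) : rdeg G U a = rdeg G' U a := by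
  have h1 := rdeg_add hG U a
  have h2 := rdeg_add hG' U a
  have h3 : (univ.filter fun w => G a w = true ∧ w ∈ U) =
      (univ.filter fun w => G' a w = true ∧ w ∈ U) := by
    apply Finset.filter_congr
    intro w _
    constructor
    · rintro ⟨h, hw⟩
      refine ⟨?_, hw⟩
      rw [hG'.1, ← hU w hw, hG.1]
      exact h
    · rintro ⟨h, hw⟩
      refine ⟨?_, hw⟩
      rw [hG.1, hU w hw, hG'.1]
      exact h
  rw [h3] at h1
  omega

/-- existence of the fourth vertex -/
theorem exists_fourth {G : V → V → Bool} (hs : ∀ x y, G x y = G y x) (hi : ∀ x, G x x = false)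
    {U : Finset V} {v a b : V} (hv : v ∉ U) (ha : a ∉ U) (hb : b ∉ U) (hab : a ≠ b) (hbv : b ≠ v)
    (hva : G v a = true) (hvb : G v b = false) (hd : rdeg G U a ≤ rdeg G U b) :
    ∃ w, w ∉ U ∧ w ≠ v ∧ w ≠ a ∧ w ≠ b ∧ G b w = true ∧ G a w = false := by
  by_contra hcon
  push Not at hcon
  have hav : a ≠ v := by
    rintro rfl
    rw [hi] at hva
    exact absurd hva (by simp)
  -- the set N_G(b) \ U \ {a} is contained in N_G(a) \ U \ {b} minus v
  have hsub : (univ.filter fun w => G b w = true ∧ w ∉ U).image (Equiv.swap a b) ⊆
      (univ.filter fun w => G a w = true ∧ w ∉ U).erase v := by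
    intro z hz
    rw [Finset.mem_image] at hz
    obtain ⟨w, hw, rfl⟩ := hz
    rw [Finset.mem_filter] at hw
    obtain ⟨-, hw1, hw2⟩ := hw
    have hwb : w ≠ b := by
      rintro rfl
      rw [hi] at hw1
      exact absurd hw1 (by simp)
    by_cases hwa : w = a
    · subst hwa
      rw [Equiv.swap_apply_left]
      rw [Finset.mem_erase, Finset.mem_filter]
      refine ⟨hbv, mem_univ _, ?_, hb⟩
      rw [hs]; exact hw1
    · rw [Equiv.swap_apply_of_ne_of_ne hwa hwb]
      have hwv : w ≠ v := by
        rintro rfl
        rw [hs, hvb] at hw1
        exact absurd hw1 (by simp)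
      rw [Finset.mem_erase, Finset.mem_filter]
      refine ⟨hwv, mem_univ _, ?_, hw2⟩
      have := hcon w hw2 hwv hwa hwb hw1
      simpa using this
  have hcard := Finset.card_le_card hsub
  rw [Finset.card_image_of_injective _ (Equiv.swap a b).injective] at hcard
  have hmem : v ∈ (univ.filter fun w => G a w = true ∧ w ∉ U) := by
    rw [Finset.mem_filter]
    exact ⟨mem_univ _, by rw [hs]; exact hva, hv⟩
  have hlt : ((univ.filter fun w => G a w = true ∧ w ∉ U).erase v).card <
      (univ.filter fun w => G a w = true ∧ w ∉ U).card := Finset.card_erase_lt_of_mem hmem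
  have h1 : rdeg G U b = (univ.filter fun w => G b w = true ∧ w ∉ U).card := rfl
  have h2 : rdeg G U a = (univ.filter fun w => G a w = true ∧ w ∉ U).card := rfl
  omega

/-- number of disagreements in row `v` -/
def dis (G G' : V → V → Bool) (v : V) : ℕ := (univ.filter fun z => G v z ≠ G' v z).card

theorem dis_comm (G G' : V → V → Bool) (v : V) : dis G G' v = dis G' G v := by
  unfold dis
  congr 1
  apply Finset.filter_congr
  intro z _
  exact ne_comm

/-- one step: a switch of `G` that decreases the number of disagreements in row `v`. -/
theorem step {d : V → ℕ} (G G' : Rz d) {U : Finset V} (hU : ∀ u ∈ U, ∀ z, G.1 u z = G'.1 u z)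
    {v a b : V} (hv : v ∉ U) (ha : a ∉ U) (hb : b ∉ U) (hab : a ≠ b)
    (hva : G.1 v a = true) (hvb : G.1 v b = false)
    (hva' : G'.1 v a = false) (hvb' : G'.1 v b = true) (hd : rdeg G.1 U a ≤ rdeg G.1 U b) :
    ∃ (G1 : Rz d) (x y k l : V), Sw G.1 G1.1 x y k l ∧ (∀ u ∈ U, ∀ z, G1.1 u z = G'.1 u z) ∧
      dis G1.1 G'.1 v < dis G.1 G'.1 v := by
  have hva0 : v ≠ a := by
    rintro rfl
    rw [G.2.2.1] at hva
    exact absurd hva (by simp)
  have hvb0 : v ≠ b := by
    rintro rfl
    rw [G'.2.2.1] at hvb'
    exact absurd hvb' (by simp)
  obtain ⟨w, hw1, hw2, hw3, hw4, hw5, hw6⟩ :=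
    exists_fourth G.2.1 G.2.2.1 hv ha hb hab hvb0.symm hva hvb hd
  have hAlt : Alt G.1 v w a b := by
    refine ⟨hw2.symm, hab, hva0, hvb0, hw3, hw4, hva, ?_, hvb, ?_⟩
    · rw [G.2.1]; exact hw5
    · rw [G.2.1]; exact hw6
  refine ⟨⟨flip v w {a, b} G.1, isReal_flip G.2 hAlt⟩, v, w, a, b, ⟨hAlt, rfl⟩, ?_, ?_⟩
  · intro u hu z
    rw [← hU u hu z]
    apply flip_row_other
    · rintro rfl; exact hv hu
    · rintro rfl; exact hw1 hu
    · rintro rfl; exact ha hu
    · rintro rfl; exact hb hu
  · unfold dis
    apply Finset.card_lt_card
    rw [Finset.ssubset_iff_of_subset]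
    · refine ⟨a, ?_, ?_⟩
      · rw [Finset.mem_filter]
        refine ⟨mem_univ _, ?_⟩
        rw [hva, hva']
        simp
      · rw [Finset.mem_filter]
        simp only [flip_row_x hAlt]
        rw [Equiv.swap_apply_left, hvb, hva']
        simp
    · intro z hz
      rw [Finset.mem_filter] at hz ⊢
      refine ⟨mem_univ _, ?_⟩
      obtain ⟨-, hz⟩ := hz
      simp only [flip_row_x hAlt] at hz
      by_cases hza : z = a
      · subst hza
        rw [hva, hva']; simp
      · by_cases hzb : z = b
        · subst hzb
          rw [hvb, hvb']; simp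
        · rwa [Equiv.swap_apply_of_ne_of_ne hza hzb] at hz

/-- T4 -/
theorem switch_connected {V : Type*} [Fintype V] [DecidableEq V] {d : V → ℕ} {β : Type*}
    (F : Rz d → β) (hF : ∀ (G G' : Rz d) (x y k l : V), Sw G.1 G'.1 x y k l → F G = F G')
    (G G' : Rz d) : F G = F G' := by
  -- induction on the number of unprocessed vertices
  have main : ∀ (n : ℕ) (U : Finset V), (univ \ U).card = n →
      ∀ G G' : Rz d, (∀ u ∈ U, ∀ z, G.1 u z = G'.1 u z) → F G = F G' := by
    intro n
    induction n with
    | zero =>
      intro U hU G G' h
      have : G = G' := by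
        apply Subtype.ext
        funext u z
        apply h
        rw [Finset.card_eq_zero, Finset.sdiff_eq_empty_iff_subset] at hU
        exact hU (mem_univ u)
      rw [this]
    | succ n ih =>
      intro U hU
      have hne : (univ \ U).Nonempty := by
        rw [← Finset.card_pos]; omega
      obtain ⟨v, hv⟩ := hne
      have hvU : v ∉ U := (Finset.mem_sdiff.mp hv).2
      have hcard : (univ \ (insert v U)).card = n := by
        have : univ \ (insert v U) = (univ \ U).erase v := by
          ext z
          simp only [Finset.mem_sdiff, Finset.mem_univ, true_and, Finset.mem_insert,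
            Finset.mem_erase]
          tauto
        rw [this, Finset.card_erase_of_mem hv, hU]
        rfl
      have inner : ∀ (m : ℕ) (G G' : Rz d), dis G.1 G'.1 v ≤ m →
          (∀ u ∈ U, ∀ z, G.1 u z = G'.1 u z) → F G = F G' := by
        intro m
        induction m with
        | zero =>
          intro G G' hm h
          apply ih (insert v U) hcard
          intro u hu z
          rw [Finset.mem_insert] at hu
          rcases hu with rfl | hu
          · have h0 : dis G.1 G'.1 u = 0 := Nat.le_zero.mp hm
            unfold dis at h0
            rw [Finset.card_eq_zero, Finset.filter_eq_empty_iff] at h0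
            have := h0 (mem_univ z)
            simpa using this
          · exact h u hu z
        | succ m ihm =>
          intro G G' hm h
          by_cases hsmall : dis G.1 G'.1 v ≤ m
          · exact ihm G G' hsmall h
          -- a, b
          have hdpos : 0 < dis G.1 G'.1 v := by omega
          have hdeg : (univ.filter fun z => G.1 v z = true).card =
              (univ.filter fun z => G'.1 v z = true).card := by
            rw [G.2.2.2 v, G'.2.2.2 v]
          have hne : (univ.filter fun z => G.1 v z = true) ≠
              (univ.filter fun z => G'.1 v z = true) := by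
            intro heq
            unfold dis at hdpos
            rw [Finset.card_pos] at hdpos
            obtain ⟨z, hz⟩ := hdpos
            rw [Finset.mem_filter] at hz
            apply hz.2
            have := Finset.ext_iff.mp heq z
            simp only [Finset.mem_filter, Finset.mem_univ, true_and] at this
            rw [Bool.eq_iff_iff]
            exact this
          have ha : ∃ a, G.1 v a = true ∧ G'.1 v a = false := by
            by_contra hcon
            push Not at hcon
            apply hne
            apply Finset.eq_of_subset_of_card_le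
            · intro z hz
              rw [Finset.mem_filter] at hz ⊢
              refine ⟨mem_univ _, ?_⟩
              simpa using hcon z hz.2
            · exact hdeg.ge
          have hb : ∃ b, G'.1 v b = true ∧ G.1 v b = false := by
            by_contra hcon
            push Not at hcon
            apply hne
            symm
            apply Finset.eq_of_subset_of_card_le
            · intro z hz
              rw [Finset.mem_filter] at hz ⊢
              refine ⟨mem_univ _, ?_⟩
              simpa using hcon z hz.2
            · exact hdeg.le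
          obtain ⟨a, hva, hva'⟩ := ha
          obtain ⟨b, hvb', hvb⟩ := hb
          have hab : a ≠ b := by
            rintro rfl
            rw [hva] at hvb
            exact absurd hvb (by simp)
          have haU : a ∉ U := by
            intro haU
            have := h a haU v
            rw [G.2.1, G'.2.1 a v, hva, hva'] at this
            exact absurd this (by simp)
          have hbU : b ∉ U := by
            intro hbU
            have := h b hbU v
            rw [G.2.1, G'.2.1 b v, hvb, hvb'] at this
            exact absurd this (by simp)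
          by_cases hd : rdeg G.1 U a ≤ rdeg G.1 U b
          · obtain ⟨G1, x, y, k, l, hsw, hG1, hlt⟩ :=
              step G G' h hvU haU hbU hab hva hvb hva' hvb' hd
            rw [hF G G1 x y k l hsw]
            exact ihm G1 G' (by omega) hG1
          · have hra := rdeg_congr G.2 G'.2 h a
            have hrb := rdeg_congr G.2 G'.2 h b
            have hd' : rdeg G'.1 U b ≤ rdeg G'.1 U a := by omega
            obtain ⟨G1, x, y, k, l, hsw, hG1, hlt⟩ :=
              step G' G (fun u hu z => (h u hu z).symm) hvU hbU haU hab.symm hvb' hva' hvb hva hd'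
            rw [hF G' G1 x y k l hsw]
            refine ihm G G1 ?_ (fun u hu z => (hG1 u hu z).symm)
            rw [dis_comm]
            rw [dis_comm G'.1] at hlt
            omega
      intro G G' h
      exact inner _ G G' le_rfl h
  exact main _ ∅ rfl G G' (by simp)

end Crest.Agent.H25.T4
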