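import Crest.Agent.H25.Defs

/-!
# H25/T5: a crude Poincaré inequality on `powersetCard`
-/

set_option autoImplicit false
set_option linter.unusedSectionVars false
set_option linter.unusedVariables false

namespace Crest.Agent.H25.T5

open Finset

variable {N : Type*} [DecidableEq N]

/-- double counting -/
theorem dc (M : Finset N) (s : ℕ) (g : Finset N → N → ℝ) :
    ∑ S ∈ M.powersetCard (s + 1), ∑ k ∈ S, g (S.erase k) k =
      ∑ S ∈ M.powersetCard s, ∑ l ∈ M \ S, g S l := by
  rw [Finset.sum_sigma', Finset.sum_sigma']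
  refine Finset.sum_bij' (fun p _ => ⟨p.1.erase p.2, p.2⟩) (fun p _ => ⟨insert p.2 p.1, p.2⟩)
    ?_ ?_ ?_ ?_ ?_
  · rintro ⟨S, k⟩ h
    simp only [Finset.mem_sigma, Finset.mem_powersetCard, Finset.mem_sdiff] at h ⊢
    refine ⟨⟨(Finset.erase_subset _ _).trans h.1.1, ?_⟩, h.1.1 h.2, Finset.notMem_erase _ _⟩
    rw [Finset.card_erase_of_mem h.2, h.1.2]
    rfl
  · rintro ⟨S, l⟩ h
    simp only [Finset.mem_sigma, Finset.mem_powersetCard, Finset.mem_sdiff] at h ⊢
    refine ⟨⟨?_, ?_⟩, Finset.mem_insert_self _ _⟩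
    · intro x hx
      rw [Finset.mem_insert] at hx
      rcases hx with rfl | hx
      · exact h.2.1
      · exact h.1.1 hx
    · rw [Finset.card_insert_of_notMem h.2.2, h.1.2]
  · rintro ⟨S, k⟩ h
    simp only [Finset.mem_sigma] at h
    simp [Finset.insert_erase h.2]
  · rintro ⟨S, l⟩ h
    simp only [Finset.mem_sigma, Finset.mem_sdiff] at h
    simp [Finset.erase_insert h.2.2]
  · rintro ⟨S, k⟩ h
    rfl

theorem var_eq {ι : Type*} (J : Finset ι) (g : ι → ℝ) :
    ∑ S ∈ J, (g S - (∑ T ∈ J, g T) / (J.card : ℝ)) ^ 2 =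
      ∑ S ∈ J, g S ^ 2 - (∑ T ∈ J, g T) ^ 2 / (J.card : ℝ) := by
  rcases J.eq_empty_or_nonempty with rfl | hJ
  · simp
  have hc : (J.card : ℝ) ≠ 0 := by
    rw [Nat.cast_ne_zero]; exact hJ.card_pos.ne'
  simp_rw [sub_sq, Finset.sum_add_distrib, Finset.sum_sub_distrib]
  rw [Finset.sum_const, nsmul_eq_mul]
  have : ∑ x ∈ J, 2 * g x * ((∑ T ∈ J, g T) / (J.card : ℝ)) =
      2 * (∑ T ∈ J, g T) * ((∑ T ∈ J, g T) / (J.card : ℝ)) := by
    rw [← Finset.sum_mul, ← Finset.mul_sum]
  rw [this]
  field_simp
  ring

/-- the Dirichlet form, ordered -/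
noncomputable def D (R : Finset N) (s : ℕ) (f : Finset N → ℝ) : ℝ :=
  ∑ S ∈ R.powersetCard s, ∑ k ∈ S, ∑ l ∈ R \ S, (f S - f (insert l (S.erase k))) ^ 2

/-- the variance -/
noncomputable def Va (R : Finset N) (s : ℕ) (f : Finset N → ℝ) : ℝ :=
  ∑ S ∈ R.powersetCard s, f S ^ 2 - (∑ T ∈ R.powersetCard s, f T) ^ 2 / ((R.powersetCard s).card : ℝ)

theorem D_nonneg (R : Finset N) (s : ℕ) (f : Finset N → ℝ) : 0 ≤ D R s f :=
  Finset.sum_nonneg fun _ _ => Finset.sum_nonneg fun _ _ => Finset.sum_nonneg fun _ _ => sq_nonneg _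

/-- the cross term -/
noncomputable def X (M : Finset N) (k : N) (s : ℕ) (f : Finset N → ℝ) : ℝ :=
  ∑ S ∈ M.powersetCard s, ∑ l ∈ M \ S, (f (insert k S) - f (insert l S)) ^ 2

theorem sum_insert_card {M : Finset N} {k : N} (hk : k ∉ M) (s : ℕ) (g : Finset N → ℝ) :
    ∑ S ∈ (insert k M).powersetCard (s + 1), g S =
      ∑ S ∈ M.powersetCard (s + 1), g S + ∑ S ∈ M.powersetCard s, g (insert k S) := by
  rw [Finset.powersetCard_succ_insert hk, Finset.sum_union, Finset.sum_image]
  · intro S hS T hT hST
    rw [Finset.mem_coe, Finset.mem_powersetCard] at hS hT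
    have h1 : k ∉ S := fun h => hk (hS.1 h)
    have h2 : k ∉ T := fun h => hk (hT.1 h)
    have := congrArg (fun A => A.erase k) hST
    simpa [Finset.erase_insert h1, Finset.erase_insert h2] using this
  · rw [Finset.disjoint_left]
    intro S hS hS'
    rw [Finset.mem_powersetCard] at hS
    rw [Finset.mem_image] at hS'
    obtain ⟨T, _, rfl⟩ := hS'
    exact hk (hS.1 (Finset.mem_insert_self _ _))

theorem D_insert {M : Finset N} {k : N} (hk : k ∉ M) (s : ℕ) (f : Finset N → ℝ) :
    D (insert k M) (s + 1) f =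
      D M (s + 1) f + D M s (fun S => f (insert k S)) + 2 * X M k s f := by
  unfold D
  rw [sum_insert_card hk]
  have h0 : ∑ S ∈ M.powersetCard (s + 1), ∑ k' ∈ S, ∑ l ∈ insert k M \ S,
      (f S - f (insert l (S.erase k'))) ^ 2 =
      (∑ S ∈ M.powersetCard (s + 1), ∑ k' ∈ S, ∑ l ∈ M \ S,
        (f S - f (insert l (S.erase k'))) ^ 2) + X M k s f := by
    have hX : X M k s f = ∑ S ∈ M.powersetCard (s + 1), ∑ k' ∈ S,
        (f S - f (insert k (S.erase k'))) ^ 2 := by
      unfold X
      rw [← dc M s (fun S l => (f (insert k S) - f (insert l S)) ^ 2)]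
      refine Finset.sum_congr rfl fun S hS => Finset.sum_congr rfl fun k' hk' => ?_
      rw [Finset.insert_erase hk']
      ring
    rw [hX, ← Finset.sum_add_distrib]
    refine Finset.sum_congr rfl fun S hS => ?_
    rw [← Finset.sum_add_distrib]
    refine Finset.sum_congr rfl fun k' hk' => ?_
    rw [Finset.mem_powersetCard] at hS
    have hkS : k ∉ S := fun h => hk (hS.1 h)
    have h1 : insert k M \ S = insert k (M \ S) := Finset.insert_sdiff_of_notMem _ hkS
    have h2 : k ∉ M \ S := fun h => hk (Finset.mem_sdiff.mp h).1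
    rw [h1, Finset.sum_insert h2]
    ring
  have h1 : ∑ S ∈ M.powersetCard s, ∑ k' ∈ insert k S, ∑ l ∈ insert k M \ insert k S,
      (f (insert k S) - f (insert l ((insert k S).erase k'))) ^ 2 =
      (∑ S ∈ M.powersetCard s, ∑ k' ∈ S, ∑ l ∈ M \ S,
        (f (insert k S) - f (insert k (insert l (S.erase k')))) ^ 2) + X M k s f := by
    unfold X
    rw [← Finset.sum_add_distrib]
    refine Finset.sum_congr rfl fun S hS => ?_
    rw [Finset.mem_powersetCard] at hS
    have hkS : k ∉ S := fun h => hk (hS.1 h)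
    have h1 : insert k M \ insert k S = M \ S := by
      ext z
      simp only [Finset.mem_sdiff, Finset.mem_insert]
      constructor
      · rintro ⟨h1, h2⟩
        push Not at h2
        rcases h1 with h1 | h1
        · exact absurd h1 h2.1
        · exact ⟨h1, h2.2⟩
      · rintro ⟨h1, h2⟩
        refine ⟨Or.inr h1, ?_⟩
        push Not
        exact ⟨by rintro rfl; exact hk h1, h2⟩
    rw [Finset.sum_insert hkS, h1, Finset.erase_insert hkS, add_comm]
    congr 1
    refine Finset.sum_congr rfl fun k' hk' => Finset.sum_congr rfl fun l hl => ?_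
    have hkk' : k ≠ k' := by rintro rfl; exact hkS hk'
    rw [Finset.erase_insert_of_ne hkk', Finset.insert_comm]
  rw [h0, h1]
  ring

theorem card_rel (M : Finset N) (s : ℕ) :
    ((s : ℝ) + 1) * ((M.powersetCard (s + 1)).card : ℝ) =
      ((M.card : ℝ) - s) * ((M.powersetCard s).card : ℝ) := by
  have h := dc M s (fun _ _ => (1 : ℝ))
  have h1 : ∑ S ∈ M.powersetCard (s + 1), ∑ k ∈ S, (1 : ℝ) =
      ((s : ℝ) + 1) * ((M.powersetCard (s + 1)).card : ℝ) := by
    rw [Finset.sum_congr rfl (g := fun _ => ((s : ℝ) + 1))]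
    · rw [Finset.sum_const, nsmul_eq_mul, mul_comm]
    · intro S hS
      rw [Finset.mem_powersetCard] at hS
      simp [hS.2]
  have h2 : ∑ S ∈ M.powersetCard s, ∑ l ∈ M \ S, (1 : ℝ) =
      ((M.card : ℝ) - s) * ((M.powersetCard s).card : ℝ) := by
    rw [Finset.sum_congr rfl (g := fun _ => ((M.card : ℝ) - s))]
    · rw [Finset.sum_const, nsmul_eq_mul, mul_comm]
    · intro S hS
      rw [Finset.mem_powersetCard] at hS
      simp only [Finset.sum_const, nsmul_eq_mul, mul_one]
      rw [Finset.card_sdiff_of_subset hS.1, Nat.cast_sub (Finset.card_le_card hS.1), hS.2]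
  rw [← h1, ← h2]
  exact h

theorem cs_step (M : Finset N) (k : N) (s : ℕ) (f : Finset N → ℝ) :
    (((M.card : ℝ) - s) * (∑ S ∈ M.powersetCard s, f (insert k S)) -
      ((s : ℝ) + 1) * (∑ S ∈ M.powersetCard (s + 1), f S)) ^ 2 ≤
    (((s : ℝ) + 1) * ((M.powersetCard (s + 1)).card : ℝ)) * X M k s f := by
  have h1 : ((M.card : ℝ) - s) * (∑ S ∈ M.powersetCard s, f (insert k S)) =
      ∑ S ∈ M.powersetCard s, ∑ l ∈ M \ S, f (insert k S) := by
    rw [Finset.mul_sum]
    refine Finset.sum_congr rfl fun S hS => ?_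
    rw [Finset.mem_powersetCard] at hS
    rw [Finset.sum_const, nsmul_eq_mul, Finset.card_sdiff_of_subset hS.1,
      Nat.cast_sub (Finset.card_le_card hS.1), hS.2]
  have h2 : ((s : ℝ) + 1) * (∑ S ∈ M.powersetCard (s + 1), f S) =
      ∑ S ∈ M.powersetCard s, ∑ l ∈ M \ S, f (insert l S) := by
    rw [← dc M s (fun S l => f (insert l S)), Finset.mul_sum]
    refine Finset.sum_congr rfl fun S hS => ?_
    rw [Finset.mem_powersetCard] at hS
    rw [Finset.sum_congr rfl (g := fun _ => f S)]
    · rw [Finset.sum_const, nsmul_eq_mul, hS.2]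
      push_cast
      ring
    · intro l hl
      rw [Finset.insert_erase hl]
  have h3 : ((s : ℝ) + 1) * ((M.powersetCard (s + 1)).card : ℝ) =
      (((M.powersetCard s).sigma fun S => M \ S).card : ℝ) := by
    rw [card_rel, Finset.card_sigma]
    push_cast
    rw [Finset.sum_congr rfl (g := fun _ => ((M.card : ℝ) - s))]
    · rw [Finset.sum_const, nsmul_eq_mul, mul_comm]
    · intro S hS
      rw [Finset.mem_powersetCard] at hS
      rw [Finset.card_sdiff_of_subset hS.1, Nat.cast_sub (Finset.card_le_card hS.1), hS.2]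
  rw [h1, h2, h3, ← Finset.sum_sub_distrib]
  unfold X
  simp_rw [← Finset.sum_sub_distrib]
  rw [Finset.sum_sigma', Finset.sum_sigma']
  exact sq_sum_le_card_mul_sum_sq

theorem main (R : Finset N) : ∀ (s : ℕ) (f : Finset N → ℝ), Va R s f ≤ (1 / 4) * D R s f := by
  induction R using Finset.induction_on with
  | empty =>
    intro s f
    have : Va ∅ s f ≤ 0 := by
      unfold Va
      rcases Nat.eq_zero_or_pos s with rfl | hs
      · simp
      · rw [Finset.powersetCard_eq_empty.mpr (by simpa using hs)]
        simp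
    have := D_nonneg ∅ s f
    linarith
  | insert k M hk ih =>
    intro s f
    rcases Nat.eq_zero_or_pos s with rfl | hs
    · have : Va (insert k M) 0 f ≤ 0 := by
        unfold Va
        simp
      have := D_nonneg (insert k M) 0 f
      linarith
    obtain ⟨s, rfl⟩ : ∃ t, s = t + 1 := ⟨s - 1, by omega⟩
    rw [D_insert hk]
    have ih1 := ih (s + 1) f
    have ih2 := ih s (fun S => f (insert k S))
    have hXnn : 0 ≤ X M k s f :=
      Finset.sum_nonneg fun _ _ => Finset.sum_nonneg fun _ _ => sq_nonneg _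
    have hkey : Va (insert k M) (s + 1) f ≤
        Va M (s + 1) f + Va M s (fun S => f (insert k S)) + (1 / 2) * X M k s f := by
      have hcs := cs_step M k s f
      have hrel := card_rel M s
      have hcardJ : (((insert k M).powersetCard (s + 1)).card : ℝ) =
          ((M.powersetCard (s + 1)).card : ℝ) + ((M.powersetCard s).card : ℝ) := by
        have := sum_insert_card hk s (fun _ => (1 : ℝ))
        simpa using this
      unfold Va
      rw [sum_insert_card hk, sum_insert_card hk, hcardJ]
      set a : ℝ := ((M.powersetCard s).card : ℝ) with ha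
      set b : ℝ := ((M.powersetCard (s + 1)).card : ℝ) with hb
      set x : ℝ := ∑ S ∈ M.powersetCard s, f (insert k S) with hx
      set y : ℝ := ∑ S ∈ M.powersetCard (s + 1), f S with hy
      have hbnn : 0 ≤ b := Nat.cast_nonneg _
      have hann : 0 ≤ a := Nat.cast_nonneg _
      rcases eq_or_lt_of_le hbnn with hb0 | hbpos
      · -- J0 empty
        have hempty : M.powersetCard (s + 1) = ∅ := by
          rw [← Finset.card_eq_zero]
          have : ((M.powersetCard (s + 1)).card : ℝ) = 0 := hb0.symm
          exact_mod_cast this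
        have hy0 : y = 0 := by rw [hy, hempty]; simp
        rw [hy0, ← hb0]
        simp only [zero_add]
        have : ∑ S ∈ M.powersetCard (s + 1), f S ^ 2 = 0 := by rw [hempty]; simp
        rw [this]
        simp
        linarith
      · have hbpos' : 0 < (M.powersetCard (s + 1)).card := by
          rw [hb] at hbpos
          exact_mod_cast hbpos
        have hMs : s + 1 ≤ M.card := by
          by_contra hcon
          rw [Finset.powersetCard_eq_empty.mpr (by omega)] at hbpos'
          simp at hbpos'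
        have hMs' : (s : ℝ) + 1 ≤ (M.card : ℝ) := by exact_mod_cast hMs
        have hapos : 0 < a := by
          rw [ha]
          have : 0 < (M.powersetCard s).card := by
            rw [Finset.card_pos, Finset.powersetCard_nonempty]
            omega
          exact_mod_cast this
        have hs0 : (0 : ℝ) ≤ s := Nat.cast_nonneg s
        -- main algebra
        have hid : (y + x) ^ 2 / (b + a) =
            y ^ 2 / b + x ^ 2 / a - a * b / (a + b) * (x / a - y / b) ^ 2 := by
          field_simp
          ring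
        have hE : 0 < ((s : ℝ) + 1) * b := by positivity
        have hcs' : (x / a - y / b) ^ 2 ≤ X M k s f / (((s : ℝ) + 1) * b) := by
          have h1 : ((M.card : ℝ) - s) * x - ((s : ℝ) + 1) * y =
              (((s : ℝ) + 1) * b) * (x / a - y / b) := by
            have h2 : ((s : ℝ) + 1) * b * (x / a) = ((M.card : ℝ) - s) * x := by
              rw [hrel]; field_simp
            have h3 : ((s : ℝ) + 1) * b * (y / b) = ((s : ℝ) + 1) * y := by
              field_simp
            rw [mul_sub, h2, h3]
          rw [h1, mul_pow] at hcs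
          rw [le_div_iff₀ hE]
          have : (((s : ℝ) + 1) * b) * ((x / a - y / b) ^ 2 * (((s : ℝ) + 1) * b)) ≤
              (((s : ℝ) + 1) * b) * X M k s f := by
            calc _ = (((s : ℝ) + 1) * b) ^ 2 * (x / a - y / b) ^ 2 := by ring
              _ ≤ _ := hcs
          exact le_of_mul_le_mul_left this hE
        have hfin : a * b / (a + b) * (x / a - y / b) ^ 2 ≤ (1 / 2) * X M k s f := by
          calc a * b / (a + b) * (x / a - y / b) ^ 2 ≤
              a * b / (a + b) * (X M k s f / (((s : ℝ) + 1) * b)) :=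
                mul_le_mul_of_nonneg_left hcs' (by positivity)
            _ = (a / ((a + b) * ((s : ℝ) + 1))) * X M k s f := by
                field_simp
            _ ≤ (1 / 2) * X M k s f := by
                apply mul_le_mul_of_nonneg_right _ hXnn
                rw [div_le_div_iff₀ (by positivity) (by norm_num)]
                have h4 : (a + b) * ((s : ℝ) + 1) = a * ((M.card : ℝ) + 1) := by
                  have : (a + b) * ((s : ℝ) + 1) = a * ((s : ℝ) + 1) + ((s : ℝ) + 1) * b := by ring
                  rw [this, hrel]; ring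
                rw [h4]
                nlinarith
        rw [hid]
        linarith
    linarith

/-- T5 -/
theorem johnson_poincare {N : Type*} [DecidableEq N] (R : Finset N) (s : ℕ) (f : Finset N → ℝ) :
    ∑ S ∈ R.powersetCard s,
      (f S - (∑ T ∈ R.powersetCard s, f T) / ((R.powersetCard s).card : ℝ)) ^ 2 ≤
    (1 / 4) * ∑ S ∈ R.powersetCard s, ∑ k ∈ S, ∑ l ∈ R \ S,
      (f S - f (insert l (S.erase k))) ^ 2 := by
  rw [var_eq]
  exact main R s f

end Crest.Agent.H25.T5
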