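import Crest.Agent.H25.StarGraph
import Crest.Agent.H25.T4
import Crest.Agent.H25.T5

set_option autoImplicit false
set_option linter.unusedSectionVars false
set_option linter.unusedVariables false
set_option maxHeartbeats 4000000

namespace Crest.Agent.H25

open Finset

variable {V : Type*} [Fintype V] [DecidableEq V] {d : V → ℕ}

/-! ### basic facts on `P` -/

theorem flip_swap_xy (x y : V) (Z : Finset V) (G : V → V → Bool) : flip x y Z G = flip y x Z G := by
  unfold flip
  rw [Equiv.swap_comm]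

theorem rel_comm_xy (x y : V) : Rel (d := d) x y = Rel y x := by
  funext G G'
  unfold Rel
  apply propext
  constructor
  · rintro ⟨Z, h1, h2, h3⟩; exact ⟨Z, h2, h1, by rw [h3, flip_swap_xy]⟩
  · rintro ⟨Z, h1, h2, h3⟩; exact ⟨Z, h2, h1, by rw [h3, flip_swap_xy]⟩

theorem P_comm_xy (x y : V) (f : Rz d → ℝ) (G : Rz d) : P x y f G = P y x f G := by
  unfold P
  rw [rel_comm_xy]

theorem P_self (x : V) (f : Rz d → ℝ) (G : Rz d) : P x x f G = 0 := by
  unfold P
  rw [av_of_inv (rel_equiv x x) f G, sub_self]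
  rintro G' ⟨Z, hx, _, h⟩
  have : G' = G := by
    apply Subtype.ext
    rw [h]
    funext u v
    simp [flip]
  rw [this]

theorem sum_P_mul (x y : V) (f g : Rz d → ℝ) :
    ∑ G, P x y f G * g G = ∑ G, P x y f G * P x y g G := by
  have h1 : ∀ G, P x y f G * g G = P x y f G * P x y g G + P x y f G * av (Rel x y) g G := by
    intro G; unfold P; ring
  have h2 : ∑ G, P x y f G * av (Rel x y) g G = 0 := by
    rw [← sum_av_mul (rel_equiv x y) (P x y f) g]
    have : ∀ G, av (Rel x y) (P x y f) G = 0 := by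
      intro G
      have : P x y f = fun z => f z - av (Rel x y) f z := rfl
      rw [this, av_sub, congrFun (av_av (rel_equiv x y) f) G, sub_self]
    simp [this]
  simp_rw [h1, Finset.sum_add_distrib, h2, add_zero]

theorem sum_P (x y : V) (f : Rz d → ℝ) : ∑ G, P x y f G = 0 := by
  have h := sum_P_mul x y f (fun _ => 1)
  have h1 : ∀ G, P x y (fun _ : Rz d => (1 : ℝ)) G = 0 := by
    intro G
    unfold P
    rw [av_of_inv (rel_equiv x y) _ G (fun _ _ => rfl), sub_self]
  simpa [h1] using h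

/-- bilinear form -/
noncomputable def I (f : Rz d → ℝ) (x y k l : V) : ℝ := ∑ G, P x y f G * P k l f G

theorem I_symm (f : Rz d → ℝ) (x y k l : V) : I f x y k l = I f k l x y := by
  unfold I; exact Finset.sum_congr rfl fun G _ => mul_comm _ _

theorem I_swap1 (f : Rz d → ℝ) (x y k l : V) : I f x y k l = I f y x k l := by
  unfold I; simp_rw [P_comm_xy x y]

theorem I_swap2 (f : Rz d → ℝ) (x y k l : V) : I f x y k l = I f x y l k := by
  unfold I; simp_rw [P_comm_xy k l]

theorem I_self2 (f : Rz d → ℝ) (x y k : V) : I f x y k k = 0 := by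
  unfold I; simp [P_self]

theorem I_self1 (f : Rz d → ℝ) (x k l : V) : I f x x k l = 0 := by
  unfold I; simp [P_self]

/-! ### splitting sums -/

/-- vertices other than x,y -/
def U2 (x y : V) : Finset V := univ.filter (fun z => z ≠ x ∧ z ≠ y)
/-- vertices other than x,y,k -/
def U3 (x y k : V) : Finset V := univ.filter (fun z => z ≠ x ∧ z ≠ y ∧ z ≠ k)

theorem sum_split2 {x y : V} (hxy : x ≠ y) (h : V → ℝ) :
    ∑ k, h k = h x + h y + ∑ k ∈ U2 x y, h k := by
  have hU : (univ : Finset V) = insert x (insert y (U2 x y)) := by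
    ext z
    simp only [Finset.mem_univ, Finset.mem_insert, U2, Finset.mem_filter, true_and, true_iff]
    tauto
  rw [hU, Finset.sum_insert, Finset.sum_insert, add_assoc]
  · simp [U2]
  · simp [U2, hxy]

theorem sum_split3 {x y k : V} (hk : k ∈ U2 x y) (h : V → ℝ) :
    ∑ l ∈ U2 x y, h l = h k + ∑ l ∈ U3 x y k, h l := by
  have hU : U2 x y = insert k (U3 x y k) := by
    ext z
    simp only [U2, U3, Finset.mem_filter, Finset.mem_univ, true_and, Finset.mem_insert] at hk ⊢
    constructor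
    · intro h
      by_cases hz : z = k
      · exact Or.inl hz
      · exact Or.inr ⟨h.1, h.2, hz⟩
    · rintro (rfl | h)
      · exact hk
      · exact ⟨h.1, h.2.1⟩
  rw [hU, Finset.sum_insert]
  simp [U3]

theorem sum_I_expand (f : Rz d → ℝ) {x y : V} (hxy : x ≠ y) :
    ∑ k, ∑ l, I f x y k l = 2 * I f x y x y +
      2 * ∑ z ∈ U2 x y, (I f x y x z + I f x y y z) +
      ∑ k ∈ U2 x y, ∑ l ∈ U3 x y k, I f x y k l := by
  rw [sum_split2 hxy, sum_split2 hxy (fun l => I f x y x l), sum_split2 hxy (fun l => I f x y y l)]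
  have h1 : ∑ k ∈ U2 x y, ∑ l, I f x y k l = ∑ k ∈ U2 x y, (I f x y k x + I f x y k y) +
      ∑ k ∈ U2 x y, ∑ l ∈ U3 x y k, I f x y k l := by
    rw [← Finset.sum_add_distrib]
    refine Finset.sum_congr rfl fun k hk => ?_
    rw [sum_split2 hxy (fun l => I f x y k l), sum_split3 hk (fun l => I f x y k l), I_self2,
      zero_add]
  rw [h1, I_self2, I_self2]
  have h2 : ∑ k ∈ U2 x y, (I f x y k x + I f x y k y) =
      ∑ z ∈ U2 x y, (I f x y x z + I f x y y z) := by
    refine Finset.sum_congr rfl fun k hk => ?_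
    rw [I_swap2 f x y k x, I_swap2 f x y k y]
  have h3 : I f x y y x = I f x y x y := I_swap2 f x y y x
  rw [h2, h3, Finset.sum_add_distrib]
  ring

/-- sum over distinct triples -/
noncomputable def D3 (F : V → V → V → ℝ) : ℝ :=
  ∑ x, ∑ y, ∑ z, if x ≠ y ∧ x ≠ z ∧ y ≠ z then F x y z else 0

theorem D3_add (F F' : V → V → V → ℝ) :
    D3 (fun x y z => F x y z + F' x y z) = D3 F + D3 F' := by
  unfold D3
  simp_rw [← Finset.sum_add_distrib]
  refine Finset.sum_congr rfl fun x _ => Finset.sum_congr rfl fun y _ =>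
    Finset.sum_congr rfl fun z _ => ?_
  split_ifs <;> simp

theorem D3_swap12 (F : V → V → V → ℝ) : D3 (fun x y z => F y x z) = D3 F := by
  unfold D3
  rw [Finset.sum_comm]
  refine Finset.sum_congr rfl fun x _ => Finset.sum_congr rfl fun y _ =>
    Finset.sum_congr rfl fun z _ => ?_
  have : (y ≠ x ∧ y ≠ z ∧ x ≠ z) ↔ (x ≠ y ∧ x ≠ z ∧ y ≠ z) := by tauto
  simp only [this]

theorem D3_swap23 (F : V → V → V → ℝ) : D3 (fun x y z => F x z y) = D3 F := by
  unfold D3
  refine Finset.sum_congr rfl fun x _ => ?_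
  rw [Finset.sum_comm]
  refine Finset.sum_congr rfl fun y _ => Finset.sum_congr rfl fun z _ => ?_
  have : (x ≠ z ∧ x ≠ y ∧ z ≠ y) ↔ (x ≠ y ∧ x ≠ z ∧ y ≠ z) := by tauto
  simp only [this]

theorem D3_nonneg (F : V → V → V → ℝ) (h : ∀ x y z, x ≠ y → x ≠ z → y ≠ z → 0 ≤ F x y z) :
    0 ≤ D3 F := by
  unfold D3
  refine Finset.sum_nonneg fun x _ => Finset.sum_nonneg fun y _ => Finset.sum_nonneg fun z _ => ?_
  split_ifs with h'
  · exact h x y z h'.1 h'.2.1 h'.2.2
  · exact le_rfl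

/-- the triple statement (T7) -/
def TripleIneq (V : Type*) [Fintype V] [DecidableEq V] (d : V → ℕ) : Prop :=
  ∀ (f : Rz d → ℝ) (u v w : V), u ≠ v → u ≠ w → v ≠ w →
    0 ≤ (∑ G, P u v f G * P u w f G) + (∑ G, P u v f G * P v w f G) + ∑ G, P u w f G * P v w f G

theorem triple_part (hT : TripleIneq V d) (f : Rz d → ℝ) :
    0 ≤ D3 (fun x y z => I f x y x z + I f x y y z) := by
  have h0 : 0 ≤ D3 (fun x y z => I f x y x z + I f x y y z + I f x z y z) := by
    apply D3_nonneg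
    intro x y z h1 h2 h3
    exact hT f x y z h1 h2 h3
  have hΘ1 : D3 (fun x y z => I f x y y z) = D3 (fun x y z => I f x y x z) := by
    rw [← D3_swap12 (fun x y z => I f x y x z)]
    congr 1
    funext x y z
    rw [I_swap1]
  have hΘ2 : D3 (fun x y z => I f x z y z) = D3 (fun x y z => I f x y x z) := by
    have e1 : D3 (fun x y z => I f x z y z) = D3 (fun x y z => I f x y z y) := by
      rw [← D3_swap23 (fun x y z => I f x z y z)]
    have e2 : D3 (fun x y z => I f x y z y) = D3 (fun x y z => I f y x z x) := by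
      rw [← D3_swap12 (fun x y z => I f x y z y)]
    rw [e1, e2]
    congr 1
    funext x y z
    rw [I_swap1 f y x, I_swap2 f x y z x]
  rw [D3_add (fun x y z => I f x y x z + I f x y y z) (fun x y z => I f x z y z),
    D3_add (fun x y z => I f x y x z) (fun x y z => I f x y y z), hΘ1, hΘ2] at h0
  rw [D3_add (fun x y z => I f x y x z) (fun x y z => I f x y y z), hΘ1]
  linarith

/-- sum over distinct quadruples -/
noncomputable def D4 (F : V → V → V → V → ℝ) : ℝ :=
  ∑ x, ∑ y, ∑ k, ∑ l, if (x ≠ y ∧ x ≠ k ∧ y ≠ k) ∧ (l ≠ x ∧ l ≠ y ∧ l ≠ k) then F x y k l else 0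

theorem D4_eq (F : V → V → V → V → ℝ) :
    D4 F = ∑ x, ∑ y, ∑ k, if (x ≠ y ∧ x ≠ k ∧ y ≠ k) then ∑ l ∈ U3 x y k, F x y k l else 0 := by
  unfold D4
  refine Finset.sum_congr rfl fun x _ => Finset.sum_congr rfl fun y _ =>
    Finset.sum_congr rfl fun k _ => ?_
  split_ifs with h
  · rw [U3, Finset.sum_filter]
    exact Finset.sum_congr rfl fun l _ => by simp [h]
  · simp [h]

theorem D4_le (F F' : V → V → V → V → ℝ)
    (h : ∀ x y k, x ≠ y → x ≠ k → y ≠ k → ∑ l ∈ U3 x y k, F x y k l ≤ ∑ l ∈ U3 x y k, F' x y k l) :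
    D4 F ≤ D4 F' := by
  rw [D4_eq, D4_eq]
  refine Finset.sum_le_sum fun x _ => Finset.sum_le_sum fun y _ => Finset.sum_le_sum fun k _ => ?_
  split_ifs with h'
  · exact h x y k h'.1 h'.2.1 h'.2.2
  · exact le_rfl

theorem D4_le_pt (F F' : V → V → V → V → ℝ)
    (h : ∀ x y k l, x ≠ y → k ≠ l → x ≠ k → x ≠ l → y ≠ k → y ≠ l → F x y k l ≤ F' x y k l) :
    D4 F ≤ D4 F' := by
  unfold D4
  refine Finset.sum_le_sum fun x _ => Finset.sum_le_sum fun y _ => Finset.sum_le_sum fun k _ =>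
    Finset.sum_le_sum fun l _ => ?_
  split_ifs with h'
  · exact h x y k l h'.1.1 h'.2.2.2.symm h'.1.2.1 h'.2.1.symm h'.1.2.2 h'.2.2.1.symm
  · exact le_rfl

theorem D4_sub (F F' : V → V → V → V → ℝ) :
    D4 (fun x y k l => F x y k l - F' x y k l) = D4 F - D4 F' := by
  unfold D4
  simp_rw [← Finset.sum_sub_distrib]
  refine Finset.sum_congr rfl fun x _ => Finset.sum_congr rfl fun y _ =>
    Finset.sum_congr rfl fun z _ => Finset.sum_congr rfl fun l _ => ?_
  split_ifs <;> simp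

theorem D4_smul (c : ℝ) (F : V → V → V → V → ℝ) :
    D4 (fun x y k l => c * F x y k l) = c * D4 F := by
  unfold D4
  simp_rw [Finset.mul_sum]
  refine Finset.sum_congr rfl fun x _ => Finset.sum_congr rfl fun y _ =>
    Finset.sum_congr rfl fun z _ => Finset.sum_congr rfl fun l _ => ?_
  split_ifs <;> simp

theorem D4_exchange (F : V → V → V → V → ℝ) : D4 (fun x y k l => F k l x y) = D4 F := by
  unfold D4
  have e : ∀ (H : V → V → V → V → ℝ), ∑ x, ∑ y, ∑ k, ∑ l, H x y k l =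
      ∑ p : V × V, ∑ q : V × V, H p.1 p.2 q.1 q.2 := by
    intro H
    rw [Fintype.sum_prod_type]
    refine Finset.sum_congr rfl fun x _ => Finset.sum_congr rfl fun y _ => ?_
    rw [Fintype.sum_prod_type]
  rw [e, e (fun x y k l => if (x ≠ y ∧ x ≠ k ∧ y ≠ k) ∧ (l ≠ x ∧ l ≠ y ∧ l ≠ k) then
    F x y k l else 0), Finset.sum_comm]
  refine Finset.sum_congr rfl fun p _ => Finset.sum_congr rfl fun q _ => ?_
  have : ((q.1 ≠ q.2 ∧ q.1 ≠ p.1 ∧ q.2 ≠ p.1) ∧ (p.2 ≠ q.1 ∧ p.2 ≠ q.2 ∧ p.2 ≠ p.1)) ↔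
      ((p.1 ≠ p.2 ∧ p.1 ≠ q.1 ∧ p.2 ≠ q.1) ∧ (q.2 ≠ p.1 ∧ q.2 ≠ p.2 ∧ q.2 ≠ q.1)) := by tauto
  simp only [this]

theorem disjoint_part (hstar : StarIneq V) (f : Rz d → ℝ) :
    0 ≤ D4 (fun x y k l => I f x y k l) := by
  set δ : V → V → V → V → ℝ := fun x y k l => ∑ G, ((f G - f (tau x y k l G)) / 2) ^ 2 with hδ
  set a : V → V → V → V → ℝ := fun x y k l => ∑ G : Rz d, (if Dp x y k l G.1 then
          (av (RelS x y k l) f G - av (Rel x y) f G) ^ 2 else 0) with ha
  have h1 : D4 (fun x y k l => δ x y k l - (1 / 2) * a x y k l - (1 / 2) * a k l x y) ≤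
      D4 (fun x y k l => I f x y k l) := by
    apply D4_le_pt
    intro x y k l hxy hkl hxk hxl hyk hyl
    have := disjoint_ineq hxy hkl hxk hxl hyk hyl f
    have hsymm : a k l x y = ∑ G : Rz d, (if Dp x y k l G.1 then
          (av (RelS k l x y) f G - av (Rel k l) f G) ^ 2 else 0) := by
      rw [ha]
      refine Finset.sum_congr rfl fun G _ => ?_
      simp only [Dp_symm (x := x) (y := y) (k := k) (l := l) G.2.1]
    rw [hsymm]
    exact this
  have h2 : D4 a ≤ D4 δ := by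
    apply D4_le
    intro x y k hxy hxk hyk
    exact star_graph hstar hxy hxk hyk f
  have h3 : D4 (fun x y k l => δ x y k l - (1 / 2) * a x y k l - (1 / 2) * a k l x y) =
      D4 δ - (1 / 2) * D4 a - (1 / 2) * D4 a := by
    rw [D4_sub (fun x y k l => δ x y k l - (1 / 2) * a x y k l) (fun x y k l => (1 / 2) * a k l x y),
      D4_sub δ (fun x y k l => (1 / 2) * a x y k l), D4_smul,
      D4_smul (1 / 2) (fun x y k l => a k l x y), D4_exchange a]
  rw [h3] at h1
  linarith

/-- **Main inequality** `‖A f‖² ≥ 2 ⟨f, A f⟩`. -/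
theorem main_ineq (hstar : StarIneq V) (hT : TripleIneq V d) (f : Rz d → ℝ) :
    2 * ∑ x, ∑ y, ∑ G, (P x y f G) ^ 2 ≤ ∑ G, (∑ x, ∑ y, P x y f G) ^ 2 := by
  have h1 : ∑ G, (∑ x, ∑ y, P x y f G) ^ 2 = ∑ x, ∑ y, ∑ k, ∑ l, I f x y k l := by
    have : ∀ G : Rz d, (∑ x, ∑ y, P x y f G) ^ 2 =
        ∑ x, ∑ y, ∑ k, ∑ l, P x y f G * P k l f G := by
      intro G
      rw [sq, Finset.sum_mul]
      refine Finset.sum_congr rfl fun x _ => ?_
      rw [Finset.sum_mul]
      refine Finset.sum_congr rfl fun y _ => ?_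
      rw [Finset.mul_sum]
      refine Finset.sum_congr rfl fun k _ => ?_
      rw [Finset.mul_sum]
    simp_rw [this]
    unfold I
    rw [Finset.sum_comm]
    refine Finset.sum_congr rfl fun x _ => ?_
    rw [Finset.sum_comm]
    refine Finset.sum_congr rfl fun y _ => ?_
    rw [Finset.sum_comm]
    refine Finset.sum_congr rfl fun k _ => ?_
    rw [Finset.sum_comm]
  have h2 : ∀ x y, ∑ k, ∑ l, I f x y k l = 2 * I f x y x y +
      (if x ≠ y then 2 * ∑ z ∈ U2 x y, (I f x y x z + I f x y y z) +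
      ∑ k ∈ U2 x y, ∑ l ∈ U3 x y k, I f x y k l else 0) := by
    intro x y
    by_cases hxy : x = y
    · subst hxy
      simp [I_self1]
    · rw [sum_I_expand f hxy, if_pos hxy, add_assoc]
  have h3 : ∑ x, ∑ y, (if x ≠ y then 2 * ∑ z ∈ U2 x y, (I f x y x z + I f x y y z) +
      ∑ k ∈ U2 x y, ∑ l ∈ U3 x y k, I f x y k l else 0) =
      2 * D3 (fun x y z => I f x y x z + I f x y y z) + D4 (fun x y k l => I f x y k l) := by
    rw [D4_eq]
    unfold D3
    simp_rw [Finset.mul_sum]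
    rw [← Finset.sum_add_distrib]
    refine Finset.sum_congr rfl fun x _ => ?_
    rw [← Finset.sum_add_distrib]
    refine Finset.sum_congr rfl fun y _ => ?_
    by_cases hxy : x = y
    · simp [hxy]
    · rw [if_pos hxy]
      congr 1
      · rw [U2, Finset.sum_filter]
        refine Finset.sum_congr rfl fun z _ => ?_
        have : (z ≠ x ∧ z ≠ y) ↔ (x ≠ y ∧ x ≠ z ∧ y ≠ z) := by
          constructor
          · rintro ⟨h1, h2⟩; exact ⟨hxy, h1.symm, h2.symm⟩
          · rintro ⟨_, h1, h2⟩; exact ⟨h1.symm, h2.symm⟩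
        simp only [this]
        split_ifs <;> simp
      · rw [U2, Finset.sum_filter]
        refine Finset.sum_congr rfl fun z _ => ?_
        have : (z ≠ x ∧ z ≠ y) ↔ (x ≠ y ∧ x ≠ z ∧ y ≠ z) := by
          constructor
          · rintro ⟨h1, h2⟩; exact ⟨hxy, h1.symm, h2.symm⟩
          · rintro ⟨_, h1, h2⟩; exact ⟨h1.symm, h2.symm⟩
        simp only [this]
  have h4 : ∑ x, ∑ y, ∑ G, (P x y f G) ^ 2 = ∑ x, ∑ y, I f x y x y := by
    unfold I
    simp_rw [sq]
  have h6 : ∑ x, ∑ y, ∑ k, ∑ l, I f x y k l = ∑ x, ∑ y, 2 * I f x y x y +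
      ∑ x, ∑ y, (if x ≠ y then 2 * ∑ z ∈ U2 x y, (I f x y x z + I f x y y z) +
      ∑ k ∈ U2 x y, ∑ l ∈ U3 x y k, I f x y k l else 0) := by
    rw [← Finset.sum_add_distrib]
    refine Finset.sum_congr rfl fun x _ => ?_
    rw [← Finset.sum_add_distrib]
    exact Finset.sum_congr rfl fun y _ => h2 x y
  rw [h1, h6, h3, h4]
  have h5 : ∑ x : V, ∑ y : V, 2 * I f x y x y = 2 * ∑ x, ∑ y, I f x y x y := by
    simp_rw [Finset.mul_sum]
  rw [h5]
  have := triple_part hT f
  have := disjoint_part hstar f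
  linarith

end Crest.Agent.H25
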