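import Crest.Agent.H25.MainIneq

set_option autoImplicit false
set_option linter.unusedSectionVars false
set_option linter.unusedVariables false
set_option maxHeartbeats 4000000

namespace Crest.Agent.H25

open Finset

variable {V : Type*} [Fintype V] [DecidableEq V] {d : V → ℕ}

/-- the operator `A f = ∑_{x,y} P x y f` as a linear map -/
noncomputable def Aop (f : Rz d → ℝ) (G : Rz d) : ℝ := ∑ x, ∑ y, P x y f G

theorem P_add (x y : V) (f g : Rz d → ℝ) (G : Rz d) :
    P x y (fun H => f H + g H) G = P x y f G + P x y g G := by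
  unfold P; rw [av_add]; ring

theorem P_smul (x y : V) (c : ℝ) (f : Rz d → ℝ) (G : Rz d) :
    P x y (fun H => c * f H) G = c * P x y f G := by
  unfold P; rw [av_smul]; ring

/-- `B f = A f + (∑ f) 1`. -/
noncomputable def Bmap : (Rz d → ℝ) →ₗ[ℝ] (Rz d → ℝ) where
  toFun f := fun G => Aop f G + ∑ H, f H
  map_add' f g := by
    funext G
    have : (f + g) = fun H => f H + g H := rfl
    simp only [this, Aop, P_add, Finset.sum_add_distrib, Pi.add_apply]
    ring
  map_smul' c f := by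
    funext G
    have : (c • f) = fun H => c * f H := rfl
    simp only [this, Aop, P_smul, ← Finset.mul_sum, Pi.smul_apply, smul_eq_mul, RingHom.id_apply]
    ring

theorem sum_Aop (f : Rz d → ℝ) : ∑ G, Aop f G = 0 := by
  unfold Aop
  rw [Finset.sum_comm]
  refine Finset.sum_eq_zero fun x _ => ?_
  rw [Finset.sum_comm]
  exact Finset.sum_eq_zero fun y _ => sum_P x y f

theorem sum_mul_Aop (f g : Rz d → ℝ) :
    ∑ G, g G * Aop f G = ∑ x, ∑ y, ∑ G, P x y g G * P x y f G := by
  unfold Aop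
  simp_rw [Finset.mul_sum]
  rw [Finset.sum_comm]
  refine Finset.sum_congr rfl fun x _ => ?_
  rw [Finset.sum_comm]
  refine Finset.sum_congr rfl fun y _ => ?_
  have := sum_P_mul x y f g
  rw [Finset.sum_congr rfl (fun G _ => mul_comm (g G) (P x y f G)), this]
  exact Finset.sum_congr rfl fun G _ => mul_comm _ _

/-- if all `P x y f = 0` then `f` is constant. -/
theorem const_of_P_zero (f : Rz d → ℝ) (h : ∀ x y G, P x y f G = 0) (G G' : Rz d) :
    f G = f G' := by
  apply T4.switch_connected f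
  intro G G' x y k l hsw
  have hrel : Rel x y G G' := by
    obtain ⟨hA, hG'⟩ := hsw
    obtain ⟨h1, h2, h3, h4, h5, h6, _⟩ := hA
    exact ⟨{k, l}, by simp [h3, h4], by simp [h5, h6], hG'⟩
  have h1 := h x y G
  have h2 := h x y G'
  unfold P at h1 h2
  rw [av_congr_class (rel_equiv x y) f hrel] at h1
  linarith

theorem Bmap_injective [Nonempty (Rz d)] : Function.Injective (Bmap (d := d)) := by
  rw [injective_iff_map_eq_zero]
  intro f hf
  have hf' : ∀ G, Aop f G + ∑ H, f H = 0 := fun G => congrFun hf G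
  have hcard : 0 < (Fintype.card (Rz d) : ℝ) := by exact_mod_cast Fintype.card_pos
  have hsum : ∑ H, f H = 0 := by
    have h1 : ∑ G, (Aop f G + ∑ H, f H) = 0 := by simp [hf']
    rw [Finset.sum_add_distrib, sum_Aop, Finset.sum_const, zero_add, nsmul_eq_mul,
      Finset.card_univ] at h1
    rcases mul_eq_zero.mp h1 with h | h
    · exact absurd h hcard.ne'
    · exact h
  have hA : ∀ G, Aop f G = 0 := by
    intro G
    have := hf' G
    rw [hsum] at this
    linarith
  have hq : ∑ x, ∑ y, ∑ G, P x y f G * P x y f G = 0 := by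
    rw [← sum_mul_Aop f f]
    simp [hA]
  have hP : ∀ x y G, P x y f G = 0 := by
    intro x y G
    have h1 := (Finset.sum_eq_zero_iff_of_nonneg (fun x _ => Finset.sum_nonneg fun y _ =>
      Finset.sum_nonneg fun G _ => mul_self_nonneg (P x y f G))).mp hq x (Finset.mem_univ _)
    have h2 := (Finset.sum_eq_zero_iff_of_nonneg (fun y _ =>
      Finset.sum_nonneg fun G _ => mul_self_nonneg (P x y f G))).mp h1 y (Finset.mem_univ _)
    have h3 := (Finset.sum_eq_zero_iff_of_nonneg (fun G _ => mul_self_nonneg (P x y f G))).mp h2 G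
      (Finset.mem_univ _)
    exact mul_self_eq_zero.mp h3
  have hc := const_of_P_zero f hP
  funext G
  have h2 : ∑ H, f H = Fintype.card (Rz d) * f G := by
    rw [Finset.sum_congr rfl (fun H _ => hc H G), Finset.sum_const, Finset.card_univ, nsmul_eq_mul]
  rw [hsum] at h2
  rcases mul_eq_zero.mp h2.symm with h | h
  · exact absurd h hcard.ne'
  · simpa using h

/-- Poincaré for `A` on mean zero functions -/
theorem poincare_A (hstar : StarIneq V) (hT : TripleIneq V d) (f : Rz d → ℝ)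
    (hf : ∑ G, f G = 0) : 2 * ∑ G, f G ^ 2 ≤ ∑ x, ∑ y, ∑ G, (P x y f G) ^ 2 := by
  rcases isEmpty_or_nonempty (Rz d) with he | hne
  · simp
  -- f = A g
  obtain ⟨g, hg⟩ := (LinearMap.injective_iff_surjective.mp (Bmap_injective (d := d))) f
  have hg' : ∀ G, Aop g G + ∑ H, g H = f G := fun G => congrFun hg G
  have hcard : 0 < (Fintype.card (Rz d) : ℝ) := by exact_mod_cast Fintype.card_pos
  have hsumg : ∑ H, g H = 0 := by
    have h1 : ∑ G, (Aop g G + ∑ H, g H) = 0 := by simp_rw [hg']; exact hf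
    rw [Finset.sum_add_distrib, sum_Aop, Finset.sum_const, zero_add, nsmul_eq_mul,
      Finset.card_univ] at h1
    rcases mul_eq_zero.mp h1 with h | h
    · exact absurd h hcard.ne'
    · exact h
  have hfA : ∀ G, f G = Aop g G := by
    intro G
    rw [← hg' G, hsumg, add_zero]
  set q : (Rz d → ℝ) → ℝ := fun u => ∑ x, ∑ y, ∑ G, (P x y u G) ^ 2 with hq
  have hqf : 0 ≤ q f := Finset.sum_nonneg fun x _ => Finset.sum_nonneg fun y _ =>
    Finset.sum_nonneg fun G _ => sq_nonneg _
  have hqg : 0 ≤ q g := Finset.sum_nonneg fun x _ => Finset.sum_nonneg fun y _ =>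
    Finset.sum_nonneg fun G _ => sq_nonneg _
  -- main inequality for g
  have h1 : 2 * q g ≤ ∑ G, f G ^ 2 := by
    have := main_ineq hstar hT g
    have h2 : ∑ G, (∑ x, ∑ y, P x y g G) ^ 2 = ∑ G, f G ^ 2 := by
      refine Finset.sum_congr rfl fun G _ => ?_
      rw [hfA G]; rfl
    rw [h2] at this
    exact this
  -- ‖f‖² = ⟨f, A g⟩
  have h2 : ∑ G, f G ^ 2 = ∑ x, ∑ y, ∑ G, P x y f G * P x y g G := by
    rw [← sum_mul_Aop g f]
    refine Finset.sum_congr rfl fun G _ => ?_
    rw [← hfA G]; ring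
  -- Cauchy-Schwarz
  have h3 : (∑ x, ∑ y, ∑ G, P x y f G * P x y g G) ^ 2 ≤ q f * q g := by
    have e : ∀ F : V → V → Rz d → ℝ, ∑ x, ∑ y, ∑ G, F x y G =
        ∑ p : V × V × Rz d, F p.1 p.2.1 p.2.2 := by
      intro F
      rw [Fintype.sum_prod_type]
      refine Finset.sum_congr rfl fun x _ => ?_
      rw [Fintype.sum_prod_type]
    rw [hq]
    simp only
    rw [e (fun x y G => P x y f G * P x y g G), e (fun x y G => P x y f G ^ 2),
      e (fun x y G => P x y g G ^ 2)]
    exact Finset.sum_mul_sq_le_sq_mul_sq _ _ _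
  rw [← h2] at h3
  set N := ∑ G, f G ^ 2 with hN
  have hN0 : 0 ≤ N := Finset.sum_nonneg fun G _ => sq_nonneg _
  rcases hN0.eq_or_lt with h0 | hpos
  · rw [← h0]; simpa using hqf
  · -- N² ≤ q f * q g ≤ q f * N/2
    have h4 : N ^ 2 ≤ q f * (N / 2) := by
      refine h3.trans (mul_le_mul_of_nonneg_left ?_ hqf)
      linarith
    have h5 : N * (2 * N) ≤ N * q f := by nlinarith
    exact le_of_mul_le_mul_left h5 hpos

/-- class bound by Johnson -/
theorem P_le_switch {x y : V} (hxy : x ≠ y) (f : Rz d → ℝ) :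
    ∑ G, (P x y f G) ^ 2 ≤ (1 / 4) * ∑ k, ∑ l, ∑ G : Rz d,
      (if Dp x y k l G.1 ∧ G.1 x k = true ∧ k ≠ l ∧ x ≠ k ∧ x ≠ l ∧ y ≠ k ∧ y ≠ l then
        (f G - f (tau x y k l G)) ^ 2 else 0) := by
  classical
  have hre : (1 / 4) * ∑ k, ∑ l, ∑ G : Rz d,
      (if Dp x y k l G.1 ∧ G.1 x k = true ∧ k ≠ l ∧ x ≠ k ∧ x ≠ l ∧ y ≠ k ∧ y ≠ l then
        (f G - f (tau x y k l G)) ^ 2 else 0) =
      ∑ G : Rz d, (1 / 4) * ∑ k, ∑ l,
      (if Dp x y k l G.1 ∧ G.1 x k = true ∧ k ≠ l ∧ x ≠ k ∧ x ≠ l ∧ y ≠ k ∧ y ≠ l then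
        (f G - f (tau x y k l G)) ^ 2 else 0) := by
    rw [← Finset.mul_sum]
    congr 1
    rw [Finset.sum_comm' (s := univ) (t := fun _ => univ) (t' := univ) (s' := fun _ => univ)
      (by simp)]
    rw [Finset.sum_congr rfl (fun l _ => Finset.sum_comm)]
    rw [Finset.sum_comm]
    exact Finset.sum_congr rfl (fun G _ => Finset.sum_comm)
  rw [hre]
  apply sum_le_sum_of_class (rel_equiv (d := d) x y)
  intro G
  rw [sum_class hxy, sum_class hxy]
  have hJ := T5.johnson_poincare (Rset x y G.1) (Sset x y G.1).card (fun S => f (mkR x y G S))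
  have e1 : ∑ S ∈ Jset x y G.1, (P x y f (mkR x y G S)) ^ 2 =
      ∑ S ∈ (Rset x y G.1).powersetCard (Sset x y G.1).card, (f (mkR x y G S) -
        (∑ T ∈ (Rset x y G.1).powersetCard (Sset x y G.1).card, f (mkR x y G T)) /
          (((Rset x y G.1).powersetCard (Sset x y G.1).card).card : ℝ)) ^ 2 := by
    refine Finset.sum_congr rfl fun S hS => ?_
    unfold P
    rw [← av_congr_class (rel_equiv x y) f (rel_mkR hxy G hS), av_rel_eq hxy G f]
    rfl
  rw [e1]
  refine hJ.trans ?_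
  rw [Finset.mul_sum]
  refine Finset.sum_le_sum fun S hS => ?_
  refine mul_le_mul_of_nonneg_left ?_ (by norm_num)
  have hSR : S ⊆ Rset x y G.1 := (Finset.mem_powersetCard.mp hS).1
  have hS' : S ∈ Jset x y G.1 := hS
  have h0 : ∀ k l, 0 ≤ (if Dp x y k l (mkR x y G S).1 ∧ (mkR x y G S).1 x k = true ∧ k ≠ l ∧ x ≠ k ∧
      x ≠ l ∧ y ≠ k ∧ y ≠ l then
        (f (mkR x y G S) - f (tau x y k l (mkR x y G S))) ^ 2 else 0) := by
    intro k l
    split_ifs
    · exact sq_nonneg _
    · exact le_rfl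
  refine le_trans ?_ (Finset.sum_le_sum_of_subset_of_nonneg (Finset.subset_univ S)
    (fun k _ _ => Finset.sum_nonneg fun l _ => h0 k l))
  refine Finset.sum_le_sum fun k hk => ?_
  refine le_trans ?_ (Finset.sum_le_sum_of_subset_of_nonneg
    (Finset.subset_univ (Rset x y G.1 \ S)) (fun l _ _ => h0 k l))
  refine le_of_eq (Finset.sum_congr rfl fun l hl => ?_)
  obtain ⟨hlR, hlS⟩ := Finset.mem_sdiff.mp hl
  have hkR := hSR hk
  have hkl : k ≠ l := fun h => hlS (h ▸ hk)
  have hk' := mem_Rset.mp hkR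
  have hl' := mem_Rset.mp hlR
  have hne : ¬ (k ∈ S ↔ l ∈ S) := by tauto
  have hD := (Dp_mkR hxy hk'.1.symm hl'.1.symm hk'.2.1.symm hl'.2.1.symm G hS').mpr
    ⟨hkR, hlR, hne⟩
  have hxk : (mkR x y G S).1 x k = true := by
    rw [mkR_val hxy G hS', (flip_sd_row hSR hkR).1]
    simpa using hk
  rw [if_pos ⟨hD, hxk, hkl, hk'.1.symm, hl'.1.symm, hk'.2.1.symm, hl'.2.1.symm⟩,
    tau_mkR hxy hkl hk'.1.symm hl'.1.symm hk'.2.1.symm hl'.2.1.symm G hS' hkR hlR hne]
  congr 4
  ext z
  rw [mem_symmDiff_iff']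
  simp only [Finset.mem_insert, Finset.mem_singleton, Finset.mem_erase]
  by_cases hzk : z = k
  · subst hzk; simp [hk, hkl]
  · by_cases hzl : z = l
    · subst hzl; simp [hlS]
    · simp [hzk, hzl]

open Classical in
/-- the hypothesis of T6 -/
theorem poincare_switch (hstar : StarIneq V) (hT : TripleIneq V d) (f : Rz d → ℝ) :
    ∑ G, (f G - (∑ G', f G') / (Fintype.card (Rz d) : ℝ)) ^ 2 ≤
      (1 / 8) * ∑ x : V, ∑ y : V, ∑ k : V, ∑ l : V, ∑ G : Rz d, ∑ G' : Rz d,
        if Sw G.1 G'.1 x y k l then (f G - f G') ^ 2 else 0 := by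
  rcases isEmpty_or_nonempty (Rz d) with he | hne
  · simp
  have hcard : 0 < (Fintype.card (Rz d) : ℝ) := by exact_mod_cast Fintype.card_pos
  set μ := (∑ G', f G') / (Fintype.card (Rz d) : ℝ) with hμ
  have hmean : ∑ G, (f G - μ) = 0 := by
    rw [Finset.sum_sub_distrib, Finset.sum_const, Finset.card_univ, nsmul_eq_mul, hμ]
    field_simp
    ring
  have h1 := poincare_A hstar hT (fun G => f G - μ) hmean
  have hP : ∀ x y G, P x y (fun G : Rz d => f G - μ) G = P x y f G := by
    intro x y G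
    unfold P
    rw [av_sub, av_of_inv (rel_equiv x y) (fun _ : Rz d => μ) G (fun _ _ => rfl)]
    ring
  simp_rw [hP] at h1
  have h2 : ∀ x y, ∑ G, (P x y f G) ^ 2 ≤ (1 / 4) * ∑ k : V, ∑ l : V, ∑ G : Rz d, ∑ G' : Rz d,
        if Sw G.1 G'.1 x y k l then (f G - f G') ^ 2 else 0 := by
    intro x y
    by_cases hxy : x = y
    · subst hxy
      have : ∑ G, (P x x f G) ^ 2 = 0 := by simp [P_self]
      rw [this]
      refine mul_nonneg (by norm_num) (Finset.sum_nonneg fun k _ => Finset.sum_nonneg fun l _ =>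
        Finset.sum_nonneg fun G _ => Finset.sum_nonneg fun G' _ => ?_)
      split_ifs
      · exact sq_nonneg _
      · exact le_rfl
    · refine (P_le_switch hxy f).trans (mul_le_mul_of_nonneg_left ?_ (by norm_num))
      refine Finset.sum_le_sum fun k _ => Finset.sum_le_sum fun l _ => Finset.sum_le_sum fun G _ => ?_
      split_ifs with hc
      · obtain ⟨hD, hxk, hkl, h3, h4, h5, h6⟩ := hc
        have hsw : Sw G.1 (tau x y k l G).1 x y k l := by
          refine ⟨⟨hxy, hkl, h3, h4, h5, h6, hxk, ?_⟩, tau_val hxy hkl h3 h4 h5 h6 hD⟩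
          obtain ⟨a1, a2, a3⟩ := hD
          revert a1 a2 a3 hxk
          cases G.1 x k <;> cases G.1 y k <;> cases G.1 x l <;> cases G.1 y l <;> simp
        have h7 := Finset.single_le_sum (s := univ) (f := fun G' : Rz d =>
          if Sw G.1 G'.1 x y k l then (f G - f G') ^ 2 else 0) (fun G' _ => by
            split_ifs
            · exact sq_nonneg _
            · exact le_rfl) (Finset.mem_univ (tau x y k l G))
        simp only [if_pos hsw] at h7
        exact h7
      · exact Finset.sum_nonneg fun G' _ => by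
          split_ifs
          · exact sq_nonneg _
          · exact le_rfl
  have h3 : ∑ x, ∑ y, ∑ G, (P x y f G) ^ 2 ≤ (1 / 4) * ∑ x : V, ∑ y : V,
      ∑ k : V, ∑ l : V, ∑ G : Rz d, ∑ G' : Rz d,
        if Sw G.1 G'.1 x y k l then (f G - f G') ^ 2 else 0 := by
    rw [Finset.mul_sum]
    refine Finset.sum_le_sum fun x _ => ?_
    rw [Finset.mul_sum]
    exact Finset.sum_le_sum fun y _ => h2 x y
  linarith

end Crest.Agent.H25
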