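import Crest.Agent.H25.Flip

set_option autoImplicit false
set_option linter.unusedSectionVars false
set_option linter.unusedVariables false

namespace Crest.Agent.H25

open Finset

variable {V : Type*} [Fintype V] [DecidableEq V] {d : V → ℕ}

/-- row pair relation with flips restricted by `Q`. -/
def RelQ (x y : V) (Q : Finset V → Prop) (G G' : Rz d) : Prop :=
  ∃ Z : Finset V, x ∉ Z ∧ y ∉ Z ∧ Q Z ∧ G'.1 = flip x y Z G.1

/-- admissible restriction predicates -/
structure QOk (Q : Finset V → Prop) : Prop where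
  empty : Q ∅
  sd : ∀ Z Z', Q Z → Q Z' → Q (symmDiff Z Z')

theorem QOk.true : QOk (fun _ : Finset V => True) := ⟨trivial, fun _ _ _ _ => trivial⟩

theorem mem_symmDiff_iff' (Z Z' : Finset V) (w : V) :
    w ∈ symmDiff Z Z' ↔ ¬ (w ∈ Z ↔ w ∈ Z') := by
  rw [Finset.mem_symmDiff]; tauto

theorem QOk.pair (k l : V) : QOk (fun Z : Finset V => (k ∈ Z ↔ l ∈ Z)) := by
  refine ⟨by simp, ?_⟩
  intro Z Z' h h'
  simp only [mem_symmDiff_iff']
  tauto

theorem relQ_equiv (x y : V) {Q : Finset V → Prop} (hQ : QOk Q) :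
    Equivalence (RelQ (d := d) x y Q) := by
  refine ⟨?_, ?_, ?_⟩
  · intro G
    exact ⟨∅, by simp, by simp, hQ.empty, by rw [flip_empty]⟩
  · rintro G G' ⟨Z, hx, hy, hZ, h⟩
    exact ⟨Z, hx, hy, hZ, by rw [h, flip_invol hx hy]⟩
  · rintro G G' G'' ⟨Z, hx, hy, hZ, h⟩ ⟨Z', hx', hy', hZ', h'⟩
    refine ⟨symmDiff Z' Z, ?_, ?_, hQ.sd _ _ hZ' hZ, ?_⟩
    · rw [mem_symmDiff_iff']; tauto
    · rw [mem_symmDiff_iff']; tauto
    · rw [h', h, flip_flip hx' hy' hx hy]

theorem rel_eq_relQ (x y : V) : (Rel (d := d) x y) = RelQ x y (fun _ => True) := by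
  funext G G'
  simp [Rel, RelQ]

theorem rel_equiv (x y : V) : Equivalence (Rel (d := d) x y) := by
  rw [rel_eq_relQ]; exact relQ_equiv x y QOk.true

/-- the sharp relation: `k`, `l` flipped together. -/
abbrev RelS (x y k l : V) (G G' : Rz d) : Prop := RelQ x y (fun Z => (k ∈ Z ↔ l ∈ Z)) G G'

theorem relS_equiv (x y k l : V) : Equivalence (RelS (d := d) x y k l) :=
  relQ_equiv x y (QOk.pair k l)

theorem relS_le (x y k l : V) (G G' : Rz d) (h : RelS x y k l G G') : Rel x y G G' := by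
  obtain ⟨Z, h1, h2, _, h3⟩ := h
  exact ⟨Z, h1, h2, h3⟩

/-- combination of the two flips is a realization. -/
theorem isReal_of_flips {x y k l : V} (hxk : x ≠ k) (hxl : x ≠ l) (hyk : y ≠ k) (hyl : y ≠ l)
    {Z Z' : Finset V} {G G' : Rz d} {H : V → V → Bool}
    (h1 : H = flip x y Z G.1) (h2 : H = flip k l Z' G'.1) : IsReal d H := by
  refine ⟨?_, ?_, ?_⟩
  · intro u v; rw [h1]; exact flip_symm G.2.1 u v
  · intro u; rw [h1]; exact flip_irrefl G.2.2.1 u
  · intro v
    by_cases hv : v = k ∨ v = l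
    · rw [h1, deg_flip G.1 (by rcases hv with rfl | rfl <;> tauto)
        (by rcases hv with rfl | rfl <;> tauto)]
      exact G.2.2.2 v
    · push Not at hv
      rw [h2, deg_flip G'.1 hv.1 hv.2]
      exact G'.2.2.2 v

/-- the commutation lemma. -/
theorem relS_comm {x y k l : V} (hxy : x ≠ y) (hkl : k ≠ l) (hxk : x ≠ k) (hxl : x ≠ l)
    (hyk : y ≠ k) (hyl : y ≠ l)
    {Q : Finset V → Prop} (hQ : QOk Q)
    (hQs : ∀ Z', Q Z' → Q (Z'.map (Equiv.swap x y).toEmbedding)) (f : Rz d → ℝ) :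
    av (RelS x y k l) (av (RelQ k l Q) f) = av (RelQ k l Q) (av (RelS x y k l) f) := by
  classical
  apply av_comm (relS_equiv x y k l) (relQ_equiv k l hQ)
  rintro G G1 ⟨Z, hx, hy, hZ, h⟩
  -- the map φ
  have key : ∀ (A B : Rz d), B.1 = flip x y Z A.1 → ∀ C : Rz d, RelQ k l Q A C →
      ∃ hR : IsReal d (flip x y Z C.1), RelQ k l Q B ⟨flip x y Z C.1, hR⟩ := by
    rintro A B hAB C ⟨Z', hk', hl', hZ', hC⟩
    have h1 := flip_comm hxk hxl hyk hyl (Z := Z) (Z' := Z') hZ A.1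
    rw [← hC, ← hAB] at h1
    have hR : IsReal d (flip x y Z C.1) := isReal_of_flips hxk hxl hyk hyl rfl h1
    refine ⟨hR, _, ?_, ?_, ?_, h1⟩
    · split_ifs
      · rw [Finset.mem_map_equiv, Equiv.symm_swap, Equiv.swap_apply_of_ne_of_ne hxk.symm hyk.symm]
        exact hk'
      · exact hk'
    · split_ifs
      · rw [Finset.mem_map_equiv, Equiv.symm_swap, Equiv.swap_apply_of_ne_of_ne hxl.symm hyl.symm]
        exact hl'
      · exact hl'
    · split_ifs
      · exact hQs _ hZ'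
      · exact hZ'
  have hG : G.1 = flip x y Z G1.1 := by rw [h, flip_invol hx hy]
  refine ⟨fun C => if hR : IsReal d (flip x y Z C.1) then ⟨flip x y Z C.1, hR⟩ else C, ?_, ?_⟩
  · refine ⟨?_, ?_, ?_⟩
    · intro C hC
      obtain ⟨hR, hB⟩ := key G G1 h C hC
      simp only [Set.mem_ofPred_eq]
      rw [dif_pos hR]
      exact hB
    · intro C hC C' hC' hCC'
      obtain ⟨hR, _⟩ := key G G1 h C hC
      obtain ⟨hR', _⟩ := key G G1 h C' hC'
      simp only at hCC'
      rw [dif_pos hR, dif_pos hR'] at hCC'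
      have : flip x y Z C.1 = flip x y Z C'.1 := congrArg Subtype.val hCC'
      apply Subtype.ext
      rw [← flip_invol hx hy C.1, this, flip_invol hx hy]
    · intro C hC
      obtain ⟨hR, hB⟩ := key G1 G hG C hC
      refine ⟨⟨flip x y Z C.1, hR⟩, hB, ?_⟩
      obtain ⟨hR', _⟩ := key G G1 h _ hB
      simp only
      rw [dif_pos hR']
      apply Subtype.ext
      exact flip_invol hx hy C.1
  · intro C hC
    obtain ⟨hR, hB⟩ := key G G1 h C hC
    simp only
    rw [dif_pos hR]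
    exact ⟨Z, hx, hy, hZ, rfl⟩

theorem relS_comm_full {x y k l : V} (hxy : x ≠ y) (hkl : k ≠ l) (hxk : x ≠ k) (hxl : x ≠ l)
    (hyk : y ≠ k) (hyl : y ≠ l) (f : Rz d → ℝ) :
    av (RelS x y k l) (av (Rel k l) f) = av (Rel k l) (av (RelS x y k l) f) := by
  rw [rel_eq_relQ]
  exact relS_comm hxy hkl hxk hxl hyk hyl QOk.true (fun _ _ => trivial) f

theorem relS_comm_sharp {x y k l : V} (hxy : x ≠ y) (hkl : k ≠ l) (hxk : x ≠ k) (hxl : x ≠ l)
    (hyk : y ≠ k) (hyl : y ≠ l) (f : Rz d → ℝ) :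
    av (RelS x y k l) (av (RelS k l x y) f) = av (RelS k l x y) (av (RelS x y k l) f) := by
  apply relS_comm hxy hkl hxk hxl hyk hyl (QOk.pair x y)
  intro Z' h
  rw [Finset.mem_map_equiv, Finset.mem_map_equiv, Equiv.symm_swap, Equiv.swap_apply_left,
    Equiv.swap_apply_right]
  tauto

end Crest.Agent.H25
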