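import Crest.Agent.H25.ClassParam

set_option autoImplicit false
set_option linter.unusedSectionVars false
set_option linter.unusedVariables false
set_option maxHeartbeats 4000000

namespace Crest.Agent.H25

open Finset

section

variable {Ω : Type*} [Fintype Ω] {r : Ω → Ω → Prop}

open Classical in
theorem sum_le_sum_of_class (hr : Equivalence r) (a b : Ω → ℝ)
    (h : ∀ x, ∑ y ∈ univ.filter (fun y => r x y), a y ≤ ∑ y ∈ univ.filter (fun y => r x y), b y) :
    ∑ x, a x ≤ ∑ x, b x := by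
  have h1 : ∀ a : Ω → ℝ, ∑ x, a x = ∑ x, av r a x := by
    intro a
    have := sum_av_mul hr a (fun _ => 1)
    have h2 : ∀ x, av r (fun _ : Ω => (1 : ℝ)) x = 1 := fun x => av_of_inv hr _ x (fun _ _ => rfl)
    simp only [mul_one, h2] at this
    exact this.symm
  rw [h1 a, h1 b]
  refine Finset.sum_le_sum fun x _ => ?_
  unfold av
  exact div_le_div_of_nonneg_right (h x) (Nat.cast_nonneg _)

end

variable {V : Type*} [Fintype V] [DecidableEq V] {d : V → ℕ}

theorem Dp_mkR {x y k l : V} (hxy : x ≠ y) (hxk : x ≠ k) (hxl : x ≠ l) (hyk : y ≠ k) (hyl : y ≠ l)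
    (G : Rz d) {S : Finset V} (hS : S ∈ Jset x y G.1) :
    Dp x y k l (mkR x y G S).1 ↔ k ∈ Rset x y G.1 ∧ l ∈ Rset x y G.1 ∧ ¬ (k ∈ S ↔ l ∈ S) := by
  rw [Dp_iff hxk hxl hyk hyl, Rset_mkR hxy G hS, Sset_mkR hxy G hS]

theorem symmDiff_pair_mem_Jset {x y k l : V} (hkl : k ≠ l) {G : V → V → Bool} {S : Finset V}
    (hS : S ∈ Jset x y G) (hk : k ∈ Rset x y G) (hl : l ∈ Rset x y G)
    (h : ¬ (k ∈ S ↔ l ∈ S)) : symmDiff S {k, l} ∈ Jset x y G := by
  obtain ⟨h1, h2⟩ := Finset.mem_powersetCard.mp hS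
  refine Finset.mem_powersetCard.mpr ⟨?_, ?_⟩
  · intro z hz
    rw [Finset.mem_symmDiff] at hz
    rcases hz with hz | hz
    · exact h1 hz.1
    · simp only [Finset.mem_insert, Finset.mem_singleton] at hz
      rcases hz.1 with rfl | rfl
      · exact hk
      · exact hl
  · rw [← h2]
    by_cases hkS : k ∈ S
    · have hlS : l ∉ S := by tauto
      have : symmDiff S {k, l} = insert l (S.erase k) := by
        ext z
        rw [mem_symmDiff_iff']
        simp only [Finset.mem_insert, Finset.mem_singleton, Finset.mem_erase]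
        by_cases hzk : z = k
        · subst hzk; simp [hkS, hkl]
        · by_cases hzl : z = l
          · subst hzl; simp [hlS]
          · simp [hzk, hzl]
      rw [this, Finset.card_insert_of_notMem (by simp [hlS]), Finset.card_erase_of_mem hkS]
      have : 0 < S.card := Finset.card_pos.mpr ⟨k, hkS⟩
      omega
    · have hlS : l ∈ S := by tauto
      have : symmDiff S {k, l} = insert k (S.erase l) := by
        ext z
        rw [mem_symmDiff_iff']
        simp only [Finset.mem_insert, Finset.mem_singleton, Finset.mem_erase]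
        by_cases hzk : z = k
        · subst hzk; simp [hkS]
        · by_cases hzl : z = l
          · subst hzl; simp [hlS, hkl.symm]
          · simp [hzk, hzl]
      rw [this, Finset.card_insert_of_notMem (by simp [hkS]), Finset.card_erase_of_mem hlS]
      have : 0 < S.card := Finset.card_pos.mpr ⟨l, hlS⟩
      omega

theorem tau_mkR {x y k l : V} (hxy : x ≠ y) (hkl : k ≠ l) (hxk : x ≠ k) (hxl : x ≠ l)
    (hyk : y ≠ k) (hyl : y ≠ l) (G : Rz d) {S : Finset V} (hS : S ∈ Jset x y G.1)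
    (hk : k ∈ Rset x y G.1) (hl : l ∈ Rset x y G.1) (h : ¬ (k ∈ S ↔ l ∈ S)) :
    tau x y k l (mkR x y G S) = mkR x y G (symmDiff S {k, l}) := by
  apply Subtype.ext
  have hD : Dp x y k l (mkR x y G S).1 := (Dp_mkR hxy hxk hxl hyk hyl G hS).mpr ⟨hk, hl, h⟩
  have hS' := symmDiff_pair_mem_Jset hkl hS hk hl h
  obtain ⟨hx, hy⟩ := not_mem_sd (Jset_sub hS)
  rw [tau_val hxy hkl hxk hxl hyk hyl hD, mkR_val hxy G hS, mkR_val hxy G hS',
    flip_flip (by simp [hxk, hxl]) (by simp [hyk, hyl]) hx hy]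
  congr 1
  rw [← symmDiff_assoc, symmDiff_comm {k, l} S]

open Classical in
theorem av_relS_mkR {x y k l : V} (hxy : x ≠ y) (hkl : k ≠ l) (hxk : x ≠ k) (hxl : x ≠ l)
    (hyk : y ≠ k) (hyl : y ≠ l) (G : Rz d) {S : Finset V} (hS : S ∈ Jset x y G.1)
    (hk : k ∈ Rset x y G.1) (hl : l ∈ Rset x y G.1) (h : ¬ (k ∈ S ↔ l ∈ S)) (f : Rz d → ℝ) :
    av (RelS x y k l) f (mkR x y G S) =
      (∑ T ∈ (Jset x y G.1).filter (fun T => ¬ (k ∈ T ↔ l ∈ T)), f (mkR x y G T)) /
        (((Jset x y G.1).filter (fun T => ¬ (k ∈ T ↔ l ∈ T))).card : ℝ) := by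
  have hfwd : ∀ G' : Rz d, RelS x y k l (mkR x y G S) G' →
      Rel x y G G' ∧ ¬ (k ∈ Sset x y G'.1 ↔ l ∈ Sset x y G'.1) := by
    intro G' hG'
    have hrel : Rel x y G G' := (rel_equiv x y).trans (rel_mkR hxy G hS) (relS_le _ _ _ _ _ _ hG')
    refine ⟨hrel, ?_⟩
    obtain ⟨Z, hx, hy, hZ, hG'Z⟩ := hG'
    have hR1 : Rset x y G'.1 = Rset x y G.1 := Rset_of_rel hrel
    have key : ∀ j, j ∈ Rset x y G.1 → (j ∈ Sset x y G'.1 ↔ ¬ (j ∈ S ↔ j ∈ Z)) := by
      intro j hj
      have hjS : j ∈ S ↔ (mkR x y G S).1 x j = true := by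
        have e : (j ∈ Sset x y (mkR x y G S).1) = (j ∈ S) := by rw [Sset_mkR hxy G hS]
        rw [← e, mem_Sset, ← mem_Rset, Rset_mkR hxy G hS]
        simp [hj]
      have hjy : (mkR x y G S).1 x j ≠ (mkR x y G S).1 y j := by
        have := hj
        rw [← Rset_mkR hxy G hS] at this
        exact (mem_Rset.mp this).2.2
      rw [mem_Sset, ← mem_Rset, hR1, hjS, hG'Z, flip_row_x hx]
      simp only [hj, true_and]
      by_cases hjZ : j ∈ Z
      · simp only [hjZ, if_true, iff_true]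
        revert hjy
        cases (mkR x y G S).1 x j <;> cases (mkR x y G S).1 y j <;> simp
      · simp only [hjZ, if_false, iff_false, not_not]
    rw [key k hk, key l hl]
    tauto
  have hbwd : ∀ T ∈ Jset x y G.1, ¬ (k ∈ T ↔ l ∈ T) →
      RelS x y k l (mkR x y G S) (mkR x y G T) := by
    intro T hT hT'
    obtain ⟨hxS, hyS⟩ := not_mem_sd (Jset_sub hS)
    obtain ⟨hxT, hyT⟩ := not_mem_sd (Jset_sub hT)
    have hnx : ∀ U, U ⊆ Rset x y G.1 → x ∉ U ∧ y ∉ U := by
      intro U hU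
      exact ⟨fun hh => (mem_Rset.mp (hU hh)).1 rfl, fun hh => (mem_Rset.mp (hU hh)).2.1 rfl⟩
    have h1 := hnx S (Jset_sub hS)
    have h2 := hnx T (Jset_sub hT)
    have hxTS : x ∉ symmDiff T S := by rw [mem_symmDiff_iff']; tauto
    have hyTS : y ∉ symmDiff T S := by rw [mem_symmDiff_iff']; tauto
    refine ⟨symmDiff T S, hxTS, hyTS, ?_, ?_⟩
    · show (k ∈ symmDiff T S ↔ l ∈ symmDiff T S)
      rw [mem_symmDiff_iff', mem_symmDiff_iff']
      tauto
    · rw [mkR_val hxy G hS, mkR_val hxy G hT, flip_flip hxTS hyTS hxS hyS]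
      congr 1
      rw [symmDiff_assoc, symmDiff_symmDiff_cancel_left]
  have hsum : ∀ g : Rz d → ℝ, ∑ G' ∈ univ.filter (fun G' => RelS x y k l (mkR x y G S) G'), g G' =
      ∑ T ∈ (Jset x y G.1).filter (fun T => ¬ (k ∈ T ↔ l ∈ T)), g (mkR x y G T) := by
    intro g
    refine Finset.sum_bij' (fun G' _ => Sset x y G'.1) (fun S _ => mkR x y G S) ?_ ?_ ?_ ?_ ?_
    · intro G' hG'
      obtain ⟨h1, h2⟩ := hfwd G' (by simpa using hG')
      exact Finset.mem_filter.mpr ⟨Sset_mem_Jset_of_rel hxy h1, h2⟩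
    · intro T hT
      obtain ⟨h1, h2⟩ := Finset.mem_filter.mp hT
      simpa using hbwd T h1 h2
    · intro G' hG'
      exact mkR_Sset_of_rel hxy (hfwd G' (by simpa using hG')).1
    · intro T hT
      exact Sset_mkR hxy G (Finset.mem_filter.mp hT).1
    · intro G' hG'
      rw [mkR_Sset_of_rel hxy (hfwd G' (by simpa using hG')).1]
  have hcard : ((univ.filter (fun G' => RelS x y k l (mkR x y G S) G')).card : ℝ) =
      (((Jset x y G.1).filter (fun T => ¬ (k ∈ T ↔ l ∈ T))).card : ℝ) := by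
    have := hsum (fun _ => 1)
    simpa using this
  unfold av
  rw [hsum f, hcard]

/-- the statement of the star inequality (T2) -/
def StarIneq (N : Type*) [DecidableEq N] : Prop :=
  ∀ (R : Finset N) (k : N) (_ : k ∈ R) (s : ℕ) (f : Finset N → ℝ),
    ∑ l ∈ R.erase k, ∑ S ∈ (R.powersetCard s).filter (fun S => ¬ (k ∈ S ↔ l ∈ S)),
      ((∑ T ∈ (R.powersetCard s).filter (fun T => ¬ (k ∈ T ↔ l ∈ T)), f T) /
          (((R.powersetCard s).filter (fun T => ¬ (k ∈ T ↔ l ∈ T))).card : ℝ)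
        - (∑ T ∈ R.powersetCard s, f T) / ((R.powersetCard s).card : ℝ)) ^ 2 ≤
    ∑ l ∈ R.erase k, ∑ S ∈ (R.powersetCard s).filter (fun S => ¬ (k ∈ S ↔ l ∈ S)),
      ((f S - f (symmDiff S {k, l})) / 2) ^ 2

/-- graph version of the star inequality -/
theorem star_graph (hstar : StarIneq V) {x y k : V} (hxy : x ≠ y) (hxk : x ≠ k) (hyk : y ≠ k)
    (f : Rz d → ℝ) :
    ∑ l ∈ univ.filter (fun l => l ≠ x ∧ l ≠ y ∧ l ≠ k),
      ∑ G : Rz d, (if Dp x y k l G.1 then (av (RelS x y k l) f G - av (Rel x y) f G) ^ 2 else 0) ≤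
    ∑ l ∈ univ.filter (fun l => l ≠ x ∧ l ≠ y ∧ l ≠ k),
      ∑ G : Rz d, ((f G - f (tau x y k l G)) / 2) ^ 2 := by
  classical
  rw [Finset.sum_comm, Finset.sum_comm (s := univ.filter (fun l => l ≠ x ∧ l ≠ y ∧ l ≠ k))]
  apply sum_le_sum_of_class (rel_equiv (d := d) x y)
  intro G
  rw [sum_class hxy, sum_class hxy]
  by_cases hk : k ∈ Rset x y G.1
  · -- main case
    have h := hstar (Rset x y G.1) k hk (Sset x y G.1).card (fun S => f (mkR x y G S))
    have hsub : (Rset x y G.1).erase k ⊆ univ.filter (fun l => l ≠ x ∧ l ≠ y ∧ l ≠ k) := by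
      intro l hl
      rw [Finset.mem_erase] at hl
      have := mem_Rset.mp hl.2
      simp only [Finset.mem_filter, Finset.mem_univ, true_and]
      exact ⟨this.1, this.2.1, hl.1⟩
    have e1 : ∑ S ∈ Jset x y G.1, ∑ l ∈ univ.filter (fun l => l ≠ x ∧ l ≠ y ∧ l ≠ k),
        (if Dp x y k l (mkR x y G S).1 then
          (av (RelS x y k l) f (mkR x y G S) - av (Rel x y) f (mkR x y G S)) ^ 2 else 0) =
        ∑ l ∈ (Rset x y G.1).erase k, ∑ S ∈ (Jset x y G.1).filter (fun S => ¬ (k ∈ S ↔ l ∈ S)),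
        ((∑ T ∈ (Jset x y G.1).filter (fun T => ¬ (k ∈ T ↔ l ∈ T)), f (mkR x y G T)) /
          (((Jset x y G.1).filter (fun T => ¬ (k ∈ T ↔ l ∈ T))).card : ℝ)
        - (∑ T ∈ Jset x y G.1, f (mkR x y G T)) / ((Jset x y G.1).card : ℝ)) ^ 2 := by
      rw [Finset.sum_comm]
      rw [← Finset.sum_subset hsub]
      · refine Finset.sum_congr rfl fun l hl => ?_
        rw [Finset.mem_erase] at hl
        have hlR := mem_Rset.mp hl.2
        rw [Finset.sum_filter]
        refine Finset.sum_congr rfl fun S hS => ?_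
        have hD := Dp_mkR hxy hxk hlR.1.symm hyk hlR.2.1.symm G hS (l := l) (k := k)
        by_cases hc : ¬ (k ∈ S ↔ l ∈ S)
        · rw [if_pos (hD.mpr ⟨hk, hl.2, hc⟩), if_pos hc,
            av_relS_mkR hxy hl.1.symm hxk hlR.1.symm hyk hlR.2.1.symm G hS hk hl.2 hc f,
            ← av_congr_class (rel_equiv x y) f (rel_mkR hxy G hS), av_rel_eq hxy G f]
        · rw [if_neg (fun h => hc (hD.mp h).2.2), if_neg hc]
      · intro l hl hl'
        simp only [Finset.mem_filter, Finset.mem_univ, true_and] at hl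
        refine Finset.sum_eq_zero fun S hS => ?_
        rw [if_neg]
        intro h
        have := (Dp_mkR hxy hxk hl.1.symm hyk hl.2.1.symm G hS).mp h
        exact hl' (Finset.mem_erase.mpr ⟨hl.2.2, this.2.1⟩)
    have e2 : ∑ l ∈ (Rset x y G.1).erase k, ∑ S ∈ (Jset x y G.1).filter (fun S => ¬ (k ∈ S ↔ l ∈ S)),
        ((f (mkR x y G S) - f (mkR x y G (symmDiff S {k, l}))) / 2) ^ 2 ≤
        ∑ S ∈ Jset x y G.1, ∑ l ∈ univ.filter (fun l => l ≠ x ∧ l ≠ y ∧ l ≠ k),
        ((f (mkR x y G S) - f (tau x y k l (mkR x y G S))) / 2) ^ 2 := by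
      rw [Finset.sum_comm (s := Jset x y G.1)]
      refine le_trans ?_ (Finset.sum_le_sum_of_subset_of_nonneg hsub
        (fun l _ _ => Finset.sum_nonneg fun S _ => sq_nonneg _))
      refine Finset.sum_le_sum fun l hl => ?_
      rw [Finset.mem_erase] at hl
      have hlR := mem_Rset.mp hl.2
      refine le_trans (le_of_eq ?_) (Finset.sum_le_sum_of_subset_of_nonneg
        (Finset.filter_subset (fun S => ¬ (k ∈ S ↔ l ∈ S)) (Jset x y G.1))
        (fun S _ _ => sq_nonneg _))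
      refine Finset.sum_congr rfl fun S hS => ?_
      obtain ⟨hS1, hS2⟩ := Finset.mem_filter.mp hS
      rw [tau_mkR hxy hl.1.symm hxk hlR.1.symm hyk hlR.2.1.symm G hS1 hk hl.2 hS2]
    rw [e1]
    exact le_trans h e2
  · -- trivial case
    have : ∑ S ∈ Jset x y G.1, ∑ l ∈ univ.filter (fun l => l ≠ x ∧ l ≠ y ∧ l ≠ k),
        (if Dp x y k l (mkR x y G S).1 then
          (av (RelS x y k l) f (mkR x y G S) - av (Rel x y) f (mkR x y G S)) ^ 2 else 0) = 0 := by
      refine Finset.sum_eq_zero fun S hS => Finset.sum_eq_zero fun l hl => ?_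
      simp only [Finset.mem_filter, Finset.mem_univ, true_and] at hl
      rw [if_neg]
      intro h
      exact hk ((Dp_mkR hxy hxk hl.1.symm hyk hl.2.1.symm G hS).mp h).1
    rw [this]
    exact Finset.sum_nonneg fun S _ => Finset.sum_nonneg fun l _ => sq_nonneg _

end Crest.Agent.H25
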