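import Crest.Agent.H25.T1d

set_option autoImplicit false
set_option linter.unusedSectionVars false

namespace Crest.Agent.H25.T1

open Finset Crest.Agent.H25

variable {N : Type*} [Fintype N] [DecidableEq N] {r : Fin 3 → ℕ} {c : N → ℕ}

/-- elementary swap invariance -/
theorem swap_inv {p q i : Fin 3} (h : Dist p q i) (g : Mat3 r c → ℝ)
    (hX : ∀ (z₁ z₂ : N) (hz : c z₁ = c z₂) y, g (colswap z₁ z₂ hz y) = g y)
    (hD : ∀ y y', D y y' → g y = g y') (R : Finset N) {y : Mat3 r c} (hok : Ok c (y.1 q) R)
    (x z : {z // z ∈ R}) (hxz : x ≠ z) : g (act q R (Equiv.swap x z) y) = g y := by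
  have hne : (x : N) ≠ z := fun h' => hxz (Subtype.ext h')
  have hx := hok x x.2
  have hz := hok z z.2
  have yix : y.1 i x = !y.1 p x := res1 h hx
  have yiz : y.1 i z = !y.1 p z := res1 h hz
  have hsw : Equiv.Perm.ofSubtype (Equiv.swap x z) = Equiv.swap (x : N) z :=
    Equiv.Perm.ofSubtype_swap_eq x z
  have val : ∀ j w, (act q R (Equiv.swap x z) y).1 j w =
      if j = q then y.1 q w else y.1 j (Equiv.swap (x : N) z w) := by
    intro j w
    rw [act_val _ hok, hsw]; rfl
  by_cases hcc : c x = c z
  · -- it is the column exchange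
    have : act q R (Equiv.swap x z) y = colswap (x : N) (z : N) hcc y := by
      apply Subtype.ext
      funext j w
      rw [val]
      change _ = y.1 j (Equiv.swap (x : N) z w)
      split_ifs with hj
      · subst hj
        have hq : y.1 j x = y.1 j z := by
          cases h1 : y.1 j x <;> cases h2 : y.1 j z <;> simp [h1, h2] at hx hz ⊢ <;> omega
        by_cases h1 : w = x
        · rw [h1, Equiv.swap_apply_left, hq]
        · by_cases h2 : w = z
          · rw [h2, Equiv.swap_apply_right, hq]
          · rw [Equiv.swap_apply_of_ne_of_ne h1 h2]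
      · rfl
    rw [this, hX]
  · by_cases hpp : y.1 p x = y.1 p z
    · -- nothing changes
      have : act q R (Equiv.swap x z) y = y := by
        apply Subtype.ext
        funext j w
        rw [val]
        split_ifs with hj
        · rw [hj]
        · by_cases h1 : w = x
          · rw [h1, Equiv.swap_apply_left]
            rcases eq_or h j with rfl | rfl | rfl
            · exact hpp.symm
            · exact absurd rfl hj
            · rw [yix, yiz, hpp]
          · by_cases h2 : w = z
            · rw [h2, Equiv.swap_apply_right]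
              rcases eq_or h j with rfl | rfl | rfl
              · exact hpp
              · exact absurd rfl hj
              · rw [yix, yiz, hpp]
            · rw [Equiv.swap_apply_of_ne_of_ne h1 h2]
      rw [this]
    · -- a D move
      symm
      apply hD
      -- general helper
      have mk : ∀ (b a : N) (p' i' : Fin 3), Dist p' q i' → c b = 1 → c a = 2 →
          Equiv.swap (x : N) z b = a → Equiv.swap (x : N) z a = b →
          (∀ w, w ≠ a → w ≠ b → Equiv.swap (x : N) z w = w) →
          y.1 p' b = true → y.1 i' b = false → y.1 p' a = false → y.1 i' a = true →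
          D y (act q R (Equiv.swap x z) y) := by
        intro b a p' i' h' hb ha s1 s2 s3 v1 v2 v3 v4
        refine ⟨p', i', a, b, h'.2.2, hb, ha, v1, v2, v3, v4, ?_, ?_, ?_, ?_, ?_⟩
        · rw [val, if_neg h'.1, s1, v3]
        · rw [val, if_neg h'.2.1, s1, v4]
        · rw [val, if_neg h'.1, s2, v1]
        · rw [val, if_neg h'.2.1, s2, v2]
        · intro w hwa hwb j
          rw [val]
          split_ifs with hj
          · rw [hj]
          · rw [s3 w hwa hwb]
      have hc12 : (c x = 1 ∧ c z = 2) ∨ (c x = 2 ∧ c z = 1) := by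
        cases h1 : y.1 q x <;> cases h2 : y.1 q z <;> simp [h1, h2] at hx hz <;> omega
      have sl : Equiv.swap (x : N) z x = z := Equiv.swap_apply_left _ _
      have sr : Equiv.swap (x : N) z z = x := Equiv.swap_apply_right _ _
      have so : ∀ w, w ≠ (x : N) → w ≠ (z : N) → Equiv.swap (x : N) z w = w :=
        fun w h1 h2 => Equiv.swap_apply_of_ne_of_ne h1 h2
      rcases hc12 with ⟨h1, h2⟩ | ⟨h1, h2⟩
      · -- b = x, a = z
        cases hpx : y.1 p x
        · have hpz : y.1 p z = true := by
            cases h3 : y.1 p z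
            · exact absurd (by rw [hpx, h3]) hpp
            · rfl
          exact mk x z i p h.swap h1 h2 sl sr (fun w hw hw' => so w hw' hw) (by rw [yix, hpx]; rfl) hpx
            (by rw [yiz, hpz]; rfl) hpz
        · have hpz : y.1 p z = false := by
            cases h3 : y.1 p z
            · rfl
            · exact absurd (by rw [hpx, h3]) hpp
          exact mk x z p i h h1 h2 sl sr (fun w hw hw' => so w hw' hw) hpx (by rw [yix, hpx]; rfl)
            hpz (by rw [yiz, hpz]; rfl)
      · -- b = z, a = x
        cases hpx : y.1 p x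
        · have hpz : y.1 p z = true := by
            cases h3 : y.1 p z
            · exact absurd (by rw [hpx, h3]) hpp
            · rfl
          exact mk z x p i h h2 h1 sr sl so hpz (by rw [yiz, hpz]; rfl) hpx (by rw [yix, hpx]; rfl)
        · have hpz : y.1 p z = false := by
            cases h3 : y.1 p z
            · rfl
            · exact absurd (by rw [hpx, h3]) hpp
          exact mk z x i p h.swap h2 h1 sr sl so (by rw [yiz, hpz]; rfl) hpz
            (by rw [yix, hpx]; rfl) hpx

theorem act_inv {p q i : Fin 3} (h : Dist p q i) (g : Mat3 r c → ℝ)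
    (hX : ∀ (z₁ z₂ : N) (hz : c z₁ = c z₂) y, g (colswap z₁ z₂ hz y) = g y)
    (hD : ∀ y y', D y y' → g y = g y') (R : Finset N) (π : Equiv.Perm {z // z ∈ R}) :
    ∀ y : Mat3 r c, Ok c (y.1 q) R → g (act q R π y) = g y := by
  refine Equiv.Perm.swap_induction_on (motive := fun π => ∀ y : Mat3 r c, Ok c (y.1 q) R →
    g (act q R π y) = g y) π ?_ ?_
  · intro y _; rw [act_one]
  · intro f x z hxz ih y hok
    rw [← act_act q R f (Equiv.swap x z) hok, ih _ (by rw [act_q]; exact hok),
      swap_inv h g hX hD R hok x z hxz]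

theorem class_const {p q i : Fin 3} (h : Dist p q i) (g : Mat3 r c → ℝ)
    (hX : ∀ (z₁ z₂ : N) (hz : c z₁ = c z₂) y, g (colswap z₁ z₂ hz y) = g y)
    (hD : ∀ y y', D y y' → g y = g y') {y y' : Mat3 r c} (hyy : y.1 q = y'.1 q) : g y' = g y := by
  set R : Finset N := univ.filter fun z => c z = (y'.1 q z).toNat + 1 with hRdef
  have hR : ∀ z, z ∈ R ↔ c z = (y'.1 q z).toNat + 1 := fun z => by simp [hRdef]
  have hok' : Ok c (y'.1 q) R := fun z hz => (hR z).1 hz
  obtain ⟨π, hπ⟩ := exists_align (α := {z // z ∈ R})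
    (univ.filter fun z => y.1 p z = true) (univ.filter fun z => y'.1 p z = true)
  rw [← act_inv h g hX hD R π y' hok']
  congr 1
  set y₁ := act q R π y' with hy₁
  have hq : y₁.1 q = y.1 q := by rw [hy₁, act_q, hyy]
  have ap : ∀ (z : N) (hz : z ∈ R), y₁.1 p z = y'.1 p (π ⟨z, hz⟩) := by
    intro z hz
    rw [hy₁, act_p h.1 π hok', Equiv.Perm.ofSubtype_apply_of_mem π hz]
  have off : ∀ z, z ∉ R → y₁.1 p z = y.1 p z := by
    intro z hz
    rw [hR] at hz
    refine off_free h (by rw [hq]) ?_
    rw [hyy]; exact hz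
  set U := univ.filter fun z => y.1 p z = true with hU
  set U' := univ.filter fun z => y₁.1 p z = true with hU'
  have cU : U.card = r p := y.2.1 p
  have cU' : U'.card = r p := y₁.2.1 p
  have heq : U = U' := by
    rcases hπ with hπ | hπ
    · refine eq_of_subset_of_card_le ?_ (by rw [cU, cU'])
      intro z hz
      have hz' : y.1 p z = true := by simpa [hU] using hz
      by_cases hzR : z ∈ R
      · have := hπ ⟨z, hzR⟩ (by simpa using hz')
        simp only [mem_filter, mem_univ, true_and] at this
        rw [← ap z hzR] at this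
        simpa [hU'] using this
      · simpa [hU', off z hzR] using hz'
    · refine (eq_of_subset_of_card_le ?_ (by rw [cU, cU'])).symm
      intro z hz
      have hz' : y₁.1 p z = true := by simpa [hU'] using hz
      by_cases hzR : z ∈ R
      · rw [ap z hzR] at hz'
        have := hπ ⟨z, hzR⟩ (by simpa using hz')
        simp only [mem_filter, mem_univ, true_and] at this
        simpa [hU] using this
      · rw [off z hzR] at hz'
        simpa [hU] using hz'
  refine ext_two h ?_ hq
  funext z
  have : z ∈ U ↔ z ∈ U' := by rw [heq]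
  simp only [hU, hU', mem_filter, mem_univ, true_and] at this
  cases h1 : y.1 p z <;> cases h2 : y₁.1 p z <;> simp [h1, h2] at this ⊢

theorem eigen (κ : ℝ) (g : Mat3 r c → ℝ) (hg0 : g ≠ 0)
    (hg : ∀ m, ∑ i, (g m - av (rel r c i) g m) = κ * g m) : κ ≤ κ ^ 2 := by
  classical
  have hsum : ∀ m, ∑ i, av (rel r c i) g m = (3 - κ) * g m := by
    intro m
    have := hg m
    rw [Finset.sum_sub_distrib, Finset.sum_const, card_univ, Fintype.card_fin] at this
    simp only [nsmul_eq_mul] at this
    push_cast at this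
    linarith
  have hdiff : ∀ m m', (3 - κ) * (g m - g m') =
      ∑ i, (av (rel r c i) g m - av (rel r c i) g m') := by
    intro m m'
    rw [Finset.sum_sub_distrib, hsum, hsum]; ring
  -- conclusion from a pair
  have concl : ∀ m m' : Mat3 r c, g m ≠ g m' →
      |∑ i, (av (rel r c i) g m - av (rel r c i) g m')| ≤ 2 * |g m - g m'| → κ ≤ κ ^ 2 := by
    intro m m' hne h
    rw [← hdiff, abs_mul] at h
    have hpos : 0 < |g m - g m'| := abs_pos.2 (sub_ne_zero.2 hne)
    have h1 : |3 - κ| ≤ 2 := le_of_mul_le_mul_right h hpos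
    have h2 : 1 ≤ κ := by have := (abs_le.1 h1).2; linarith
    nlinarith
  by_cases hX : ∀ (z₁ z₂ : N) (hz : c z₁ = c z₂) y, g (colswap z₁ z₂ hz y) = g y
  · by_cases hD : ∀ y y', D y y' → g y = g y'
    · -- constant on classes
      have hconst : ∀ i m, av (rel r c i) g m = g m := by
        intro q m
        obtain ⟨p, i, h⟩ := exists_dist q
        exact av_of_inv (rel_equiv q) g m fun y hy => class_const h g hX hD hy
      obtain ⟨m, hm⟩ := Function.ne_iff.1 hg0
      have := hg m
      simp only [hconst, sub_self, sum_const_zero] at this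
      have hκ : κ = 0 := by
        rcases mul_eq_zero.1 this.symm with h | h
        · exact h
        · exact absurd h hm
      rw [hκ]; norm_num
    · push Not at hD
      obtain ⟨y₀, y₀', hD0, hne0⟩ := hD
      -- maximal D pair
      let T := {t : Mat3 r c × Mat3 r c // D t.1 t.2}
      have hTne : Nonempty T := ⟨⟨(y₀, y₀'), hD0⟩⟩
      obtain ⟨⟨⟨m, m'⟩, hmm⟩, hmax⟩ := Finite.exists_max (fun t : T => |g t.1.1 - g t.1.2|)
      have hmax' : ∀ y y', D y y' → |g y - g y'| ≤ |g m - g m'| := fun y y' h => hmax ⟨(y, y'), h⟩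
      have hne : g m ≠ g m' := by
        intro h
        have := hmax' _ _ hD0
        rw [h, sub_self, abs_zero] at this
        exact hne0 (sub_eq_zero.1 (abs_nonpos_iff.1 this))
      refine concl m m' hne ?_
      obtain ⟨p, q, a, b, hpq, hDR⟩ := hmm
      obtain ⟨i, h⟩ := exists_third hpq
      rw [sum_three' h]
      have e1 : |av (rel r c q) g m - av (rel r c q) g m'| ≤ |g m - g m'| :=
        KEY h hDR g _ hX hmax'
      have hmaxs : ∀ y y', D y y' → |g y - g y'| ≤ |g m' - g m| := fun y y' h => by
        rw [abs_sub_comm (g m')]; exact hmax' y y' h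
      have e2 : |av (rel r c p) g m' - av (rel r c p) g m| ≤ |g m' - g m| :=
        KEY (p := q) (q := p) (i := i) h.rot hDR.symm g _ hX hmaxs
      have e3 : av (rel r c i) g m - av (rel r c i) g m' = 0 := by
        rw [av_congr_class (rel_equiv i) g (hDR.third h), sub_self]
      rw [e3, add_zero]
      rw [abs_sub_comm, abs_sub_comm (g m')] at e2
      calc |av (rel r c p) g m - av (rel r c p) g m' + (av (rel r c q) g m - av (rel r c q) g m')|
          ≤ |av (rel r c p) g m - av (rel r c p) g m'| +
            |av (rel r c q) g m - av (rel r c q) g m'| := abs_add_le _ _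
        _ ≤ |g m - g m'| + |g m - g m'| := add_le_add e2 e1
        _ = _ := by ring
  · push Not at hX
    obtain ⟨z₁, z₂, hz, y₀, hne0⟩ := hX
    let T := {t : (N × N) × Mat3 r c // c t.1.1 = c t.1.2}
    have hTne : Nonempty T := ⟨⟨((z₁, z₂), y₀), hz⟩⟩
    obtain ⟨⟨⟨⟨x₁, x₂⟩, m⟩, hx⟩, hmax⟩ :=
      Finite.exists_max (fun t : T => |g t.1.2 - g (colswap t.1.1.1 t.1.1.2 t.2 t.1.2)|)
    have hmax' : ∀ z₁ z₂ (hz : c z₁ = c z₂) y, |g y - g (colswap z₁ z₂ hz y)| ≤
        |g m - g (colswap x₁ x₂ hx m)| := fun z₁ z₂ hz y => hmax ⟨((z₁, z₂), y), hz⟩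
    have hne : g m ≠ g (colswap x₁ x₂ hx m) := by
      intro h
      have := hmax' z₁ z₂ hz y₀
      rw [← h, sub_self, abs_zero] at this
      exact hne0 (sub_eq_zero.1 (abs_nonpos_iff.1 this)).symm
    refine concl m (colswap x₁ x₂ hx m) hne ?_
    set M := |g m - g (colswap x₁ x₂ hx m)| with hM
    have hrow : ∀ j, |av (rel r c j) g m - av (rel r c j) g (colswap x₁ x₂ hx m)| ≤ M := by
      intro j
      have h1 : av (rel r c j) g (colswap x₁ x₂ hx m) =
          av (rel r c j) (fun y => g (colswap x₁ x₂ hx y)) m :=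
        av_comp g (colswapE x₁ x₂ hx) (colswap_rel x₁ x₂ hx j) m
      rw [h1]
      exact av_abs_sub_fun (rel_equiv j) _ _ m M fun y _ => hmax' x₁ x₂ hx y
    obtain ⟨i, hi⟩ := colswap_row x₁ x₂ hx m
    have hi0 : av (rel r c i) g m - av (rel r c i) g (colswap x₁ x₂ hx m) = 0 := by
      rw [av_congr_class (rel_equiv i) g hi, sub_self]
    obtain ⟨p, q, h⟩ := exists_dist i
    rw [sum_three' h, hi0, add_zero]
    calc |av (rel r c p) g m - av (rel r c p) g (colswap x₁ x₂ hx m) +
          (av (rel r c q) g m - av (rel r c q) g (colswap x₁ x₂ hx m))|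
        ≤ _ := abs_add_le _ _
      _ ≤ M + M := add_le_add (hrow p) (hrow q)
      _ = _ := by ring

/-- T1 -/
theorem triple_matrix {N : Type*} [Fintype N] [DecidableEq N] (r : Fin 3 → ℕ) (c : N → ℕ)
    (f : Mat3 r c → ℝ) :
    ∑ i, ∑ m, (f m - av (fun m m' : Mat3 r c => m.1 i = m'.1 i) f m) ^ 2 ≤
      ∑ m, (∑ i, (f m - av (fun m m' : Mat3 r c => m.1 i = m'.1 i) f m)) ^ 2 :=
  spectral (fun i : Fin 3 => rel r c i) (fun i => rel_equiv i) (fun κ g hg0 hg => eigen κ g hg0 hg) f

end Crest.Agent.H25.T1
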