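import Crest.Agent.H25.Avg

set_option autoImplicit false

namespace Crest.Agent.H25.T1

open Finset Crest.Agent.H25

section generic
variable {Ω : Type*} [Fintype Ω] {r : Ω → Ω → Prop}

theorem av_abs_sub_const (hr : Equivalence r) (f : Ω → ℝ) (x : Ω) (t M : ℝ)
    (h : ∀ y, r x y → |f y - t| ≤ M) : |av r f x - t| ≤ M := by
  classical
  unfold av
  have hc := class_card_pos hr x
  have h1 : (∑ y ∈ univ.filter (fun y => r x y), f y) /
      ((univ.filter (fun y => r x y)).card : ℝ) - t =
      (∑ y ∈ univ.filter (fun y => r x y), (f y - t)) /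
      ((univ.filter (fun y => r x y)).card : ℝ) := by
    rw [Finset.sum_sub_distrib, Finset.sum_const, nsmul_eq_mul]
    field_simp
  rw [h1, abs_div, abs_of_pos hc, div_le_iff₀ hc]
  calc |∑ y ∈ univ.filter (fun y => r x y), (f y - t)|
      ≤ ∑ y ∈ univ.filter (fun y => r x y), |f y - t| := Finset.abs_sum_le_sum_abs _ _
    _ ≤ ∑ y ∈ univ.filter (fun y => r x y), M := by
        refine Finset.sum_le_sum fun y hy => h y (by simpa using hy)
    _ = M * _ := by rw [Finset.sum_const, nsmul_eq_mul, mul_comm]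

theorem av_abs_sub (hr : Equivalence r) (f : Ω → ℝ) (x x' : Ω) (M : ℝ)
    (h : ∀ y y', r x y → r x' y' → |f y - f y'| ≤ M) : |av r f x - av r f x'| ≤ M := by
  rw [abs_sub_comm]
  refine av_abs_sub_const hr f x' _ M fun y' hy' => ?_
  rw [abs_sub_comm]
  exact av_abs_sub_const hr f x _ M fun y hy => h y y' hy hy'

theorem av_abs_sub_fun (hr : Equivalence r) (f g : Ω → ℝ) (x : Ω) (M : ℝ)
    (h : ∀ y, r x y → |f y - g y| ≤ M) : |av r f x - av r g x| ≤ M := by
  have h1 : av r f x - av r g x = av r (fun y => f y - g y) x - 0 := by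
    rw [av_sub, sub_zero]
  rw [h1]
  exact av_abs_sub_const hr _ x 0 M fun y hy => by rw [sub_zero]; exact h y hy

theorem av_comp (f : Ω → ℝ) (σ : Equiv.Perm Ω) (hσ : ∀ x y, r x y ↔ r (σ x) (σ y)) (x : Ω) :
    av r f (σ x) = av r (fun y => f (σ y)) x := by
  classical
  unfold av
  have h1 : (univ.filter (fun y => r (σ x) y)) = (univ.filter (fun y => r x y)).map σ.toEmbedding := by
    ext y
    simp only [mem_filter, mem_univ, true_and, mem_map, Equiv.coe_toEmbedding]
    constructor
    · intro hy
      refine ⟨σ.symm y, ?_, by simp⟩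
      rw [hσ]; simpa using hy
    · rintro ⟨z, hz, rfl⟩
      exact (hσ _ _).1 hz
  rw [h1, Finset.sum_map, Finset.card_map]
  rfl

end generic

section symm
variable {Ω : Type*} [Fintype Ω] {ι : Type*} [Fintype ι] (r : ι → Ω → Ω → Prop)

/-- the spectral reduction: if all eigenfunctions `∑ (g - E_i g) = κ g` have `κ ≤ κ²`, then the
quadratic form inequality holds. -/
theorem spectral (hr : ∀ i, Equivalence (r i))
    (h : ∀ (κ : ℝ) (g : Ω → ℝ), g ≠ 0 → (∀ m, ∑ i, (g m - av (r i) g m) = κ * g m) → κ ≤ κ ^ 2)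
    (f : Ω → ℝ) :
    ∑ i, ∑ m, (f m - av (r i) f m) ^ 2 ≤ ∑ m, (∑ i, (f m - av (r i) f m)) ^ 2 := by
  classical
  let T : EuclideanSpace ℝ Ω →ₗ[ℝ] EuclideanSpace ℝ Ω :=
    { toFun := fun f => WithLp.toLp 2 (fun m => ∑ i, (f m - av (r i) f m))
      map_add' := by
        intro f g
        ext m
        simp only [PiLp.add_apply]
        rw [← Finset.sum_add_distrib]
        refine Finset.sum_congr rfl fun i _ => ?_
        have : av (r i) (fun y => f y + g y) m = av (r i) f m + av (r i) g m := av_add _ _ _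
        change f m + g m - av (r i) (fun y => f y + g y) m = _
        rw [this]; ring
      map_smul' := by
        intro a f
        ext m
        simp only [PiLp.smul_apply, smul_eq_mul, RingHom.id_apply]
        rw [Finset.mul_sum]
        refine Finset.sum_congr rfl fun i _ => ?_
        have : av (r i) (fun y => a * f y) m = a * av (r i) f m := av_smul _ _ _
        change a * f m - av (r i) (fun y => a * f y) m = _
        rw [this]; ring }
  have hT : ∀ f m, (T f) m = ∑ i, (f m - av (r i) f m) := fun f m => rfl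
  have hsymm : T.IsSymmetric := by
    intro f g
    simp only [PiLp.inner_apply, RCLike.inner_apply, conj_trivial, hT]
    -- ∑ m, g m * (∑ i (f m - E f m)) = ∑ m, (∑ i (g m - E g m)) * f m
    have : ∀ i, ∑ m, g m * av (r i) f m = ∑ m, av (r i) g m * f m := fun i =>
      (sum_av_mul (hr i) g f).symm
    have e1 : ∑ m, g m * ∑ i, (f m - av (r i) f m) =
        ∑ i, (∑ m, g m * f m - ∑ m, g m * av (r i) f m) := by
      simp_rw [Finset.mul_sum]
      rw [Finset.sum_comm]
      refine Finset.sum_congr rfl fun i _ => ?_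
      rw [← Finset.sum_sub_distrib]
      exact Finset.sum_congr rfl fun m _ => by ring
    have e2 : ∑ m, (∑ i, (g m - av (r i) g m)) * f m =
        ∑ i, (∑ m, g m * f m - ∑ m, av (r i) g m * f m) := by
      simp_rw [Finset.sum_mul]
      rw [Finset.sum_comm]
      refine Finset.sum_congr rfl fun i _ => ?_
      rw [← Finset.sum_sub_distrib]
      exact Finset.sum_congr rfl fun m _ => by ring
    rw [e1, e2]
    exact Finset.sum_congr rfl fun i _ => by rw [this i]
  -- eigenbasis
  let b := hsymm.eigenvectorBasis rfl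
  let ev := hsymm.eigenvalues rfl
  have hev : ∀ j, ev j ≤ ev j ^ 2 := by
    intro j
    refine h (ev j) (b j) ?_ ?_
    · intro h0
      have h1 : b j ≠ 0 := by
        have := b.orthonormal.ne_zero j
        exact this
      apply h1
      ext m
      exact congrFun h0 m
    · intro m
      have h1 : T (b j) = (ev j : ℝ) • b j := hsymm.apply_eigenvectorBasis rfl j
      have h2 := congrArg (fun v : EuclideanSpace ℝ Ω => v m) h1
      simp only [hT, PiLp.smul_apply, smul_eq_mul] at h2
      exact h2
  -- the two forms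
  let F : EuclideanSpace ℝ Ω := WithLp.toLp 2 f
  have hF : ∀ m, F m = f m := fun m => rfl
  have q1 : ∑ m, (∑ i, (f m - av (r i) f m)) ^ 2 = inner ℝ (T F) (T F) := by
    rw [real_inner_self_eq_norm_sq, EuclideanSpace.norm_sq_eq]
    refine Finset.sum_congr rfl fun m _ => ?_
    rw [Real.norm_eq_abs, sq_abs]
    rfl
  have q2 : ∑ i, ∑ m, (f m - av (r i) f m) ^ 2 = inner ℝ F (T F) := by
    simp only [PiLp.inner_apply, RCLike.inner_apply, conj_trivial, hT]
    have e1 : ∑ m, (∑ i, (F m - av (r i) F m)) * F m =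
        ∑ i, ∑ m, (f m - av (r i) f m) * f m := by
      simp_rw [Finset.sum_mul]
      rw [Finset.sum_comm]
    rw [e1]
    refine Finset.sum_congr rfl fun i _ => ?_
    have h1 : ∑ m, av (r i) f m * av (r i) f m = ∑ m, f m * av (r i) f m := by
      rw [sum_av_mul (hr i), av_av (hr i)]
    have h2 : ∑ m, (f m - av (r i) f m) ^ 2 - ∑ m, (f m - av (r i) f m) * f m =
        ∑ m, av (r i) f m * av (r i) f m - ∑ m, f m * av (r i) f m := by
      rw [← Finset.sum_sub_distrib, ← Finset.sum_sub_distrib]
      exact Finset.sum_congr rfl fun m _ => by ring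
    linarith
  rw [q1, q2]
  have hTb : ∀ j, inner ℝ (b j) (T F) = ev j * inner ℝ (b j) F := by
    intro j
    rw [← hsymm (b j) F]
    have h1 : T (b j) = (ev j : ℝ) • b j := hsymm.apply_eigenvectorBasis rfl j
    rw [h1, real_inner_smul_left]
  have s1 : inner ℝ (T F) (T F) = ∑ j, (ev j * inner ℝ (b j) F) ^ 2 := by
    rw [← b.sum_inner_mul_inner (T F) (T F)]
    refine Finset.sum_congr rfl fun j _ => ?_
    rw [real_inner_comm, hTb, sq]
  have s2 : inner ℝ F (T F) = ∑ j, ev j * (inner ℝ (b j) F) ^ 2 := by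
    rw [← b.sum_inner_mul_inner F (T F)]
    refine Finset.sum_congr rfl fun j _ => ?_
    rw [real_inner_comm, hTb, sq]; ring
  rw [s1, s2]
  refine Finset.sum_le_sum fun j _ => ?_
  rw [mul_pow]
  exact mul_le_mul_of_nonneg_right (hev j) (sq_nonneg _)

end symm

end Crest.Agent.H25.T1
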