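import Crest.Agent.H25.T1a

set_option autoImplicit false

namespace Crest.Agent.H25.T1

open Finset Crest.Agent.H25

variable {N : Type*} [Fintype N] [DecidableEq N] {r : Fin 3 → ℕ} {c : N → ℕ}

/-- three distinct rows -/
def Dist (p q i : Fin 3) : Prop := p ≠ q ∧ i ≠ q ∧ p ≠ i

theorem exists_dist (q : Fin 3) : ∃ p i, Dist p q i := by
  unfold Dist; revert q; decide

theorem exists_third {p q : Fin 3} (h : p ≠ q) : ∃ i, Dist p q i := by
  unfold Dist; revert p q; decide

theorem sum_three {p q i : Fin 3} (h : Dist p q i) (F : Fin 3 → ℕ) :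
    ∑ j, F j = F p + F q + F i := by
  have h1 : (univ : Finset (Fin 3)) = {p, q, i} := by
    unfold Dist at h; revert p q i; decide
  obtain ⟨h2, h3, h4⟩ := h
  rw [h1, sum_insert (by simp [h2, h4]), sum_insert (by simp [h3.symm]), sum_singleton]
  ring

theorem sum_three' {p q i : Fin 3} (h : Dist p q i) (F : Fin 3 → ℝ) :
    ∑ j, F j = F p + F q + F i := by
  have h1 : (univ : Finset (Fin 3)) = {p, q, i} := by
    unfold Dist at h; revert p q i; decide
  obtain ⟨h2, h3, h4⟩ := h
  rw [h1, sum_insert (by simp [h2, h4]), sum_insert (by simp [h3.symm]), sum_singleton]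
  ring

theorem eq_or {p q i : Fin 3} (h : Dist p q i) (j : Fin 3) : j = p ∨ j = q ∨ j = i := by
  unfold Dist at h; revert p q i j; decide

theorem Dist.swap {p q i : Fin 3} (h : Dist p q i) : Dist i q p := ⟨h.2.1, h.1, h.2.2.symm⟩

theorem Dist.rot {p q i : Fin 3} (h : Dist p q i) : Dist q p i :=
  ⟨h.1.symm, h.2.2.symm, h.2.1.symm⟩

theorem col_card (F : Fin 3 → Bool) : (univ.filter fun i => F i = true).card = ∑ i, (F i).toNat := by
  rw [card_filter]
  refine sum_congr rfl fun i _ => ?_
  cases F i <;> simp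

theorem col_sum (m : Mat3 r c) (z : N) {p q i : Fin 3} (h : Dist p q i) :
    (m.1 p z).toNat + (m.1 q z).toNat + (m.1 i z).toNat = c z := by
  rw [← m.2.2 z, col_card (fun i => m.1 i z), sum_three h]

/-- Row equality relation. -/
abbrev rel (r : Fin 3 → ℕ) (c : N → ℕ) (i : Fin 3) (m m' : Mat3 r c) : Prop := m.1 i = m'.1 i

theorem rel_equiv (i : Fin 3) : Equivalence (rel r c i) :=
  ⟨fun _ => rfl, fun h => h.symm, fun h h' => h.trans h'⟩

/-- two rows determine a matrix -/
theorem ext_two {p q i : Fin 3} (h : Dist p q i) {m m' : Mat3 r c} (h1 : m.1 p = m'.1 p)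
    (h2 : m.1 q = m'.1 q) : m = m' := by
  apply Subtype.ext
  funext j z
  have e1 := col_sum m z h
  have e2 := col_sum m' z h
  rw [h1, h2] at e1
  rcases eq_or h j with rfl | rfl | rfl
  · rw [h1]
  · rw [h2]
  · cases h3 : m.1 j z <;> cases h4 : m'.1 j z <;> simp [h3, h4] at e1 e2 ⊢ <;> omega

/-- exchange columns -/
def colswap (a b : N) (hab : c a = c b) (m : Mat3 r c) : Mat3 r c :=
  ⟨fun j z => m.1 j (Equiv.swap a b z), by
    constructor
    · intro i
      rw [← m.2.1 i]
      refine card_bij (fun z _ => Equiv.swap a b z) ?_ ?_ ?_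
      · intro z hz; simpa using hz
      · intro z _ z' _ h; exact (Equiv.swap a b).injective h
      · intro z hz; exact ⟨Equiv.swap a b z, by simpa using hz, by simp⟩
    · intro z
      rw [m.2.2]
      by_cases h1 : z = a
      · rw [h1, Equiv.swap_apply_left, hab]
      · by_cases h2 : z = b
        · rw [h2, Equiv.swap_apply_right, hab]
        · rw [Equiv.swap_apply_of_ne_of_ne h1 h2]⟩

theorem colswap_invol (a b : N) (hab : c a = c b) (m : Mat3 r c) :
    colswap a b hab (colswap a b hab m) = m := by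
  apply Subtype.ext
  funext j z
  simp [colswap]

/-- as a permutation -/
def colswapE (a b : N) (hab : c a = c b) : Equiv.Perm (Mat3 r c) :=
  ⟨colswap a b hab, colswap a b hab, colswap_invol a b hab, colswap_invol a b hab⟩

theorem colswap_rel (a b : N) (hab : c a = c b) (i : Fin 3) (m m' : Mat3 r c) :
    rel r c i m m' ↔ rel r c i (colswapE a b hab m) (colswapE a b hab m') := by
  constructor
  · intro h
    funext z
    exact congrFun h (Equiv.swap a b z)
  · intro h
    funext z
    have := congrFun h (Equiv.swap a b z)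
    simpa [colswapE, colswap] using this

/-- some row is unchanged by a column exchange -/
theorem colswap_row (a b : N) (hab : c a = c b) (m : Mat3 r c) :
    ∃ i, rel r c i m (colswap a b hab m) := by
  have h1 := m.2.2 a
  have h2 := m.2.2 b
  have h3 : ∀ x y : Fin 3 → Bool, (univ.filter fun i => x i = true).card =
      (univ.filter fun i => y i = true).card → ∃ i, x i = y i := by decide
  obtain ⟨i, hi⟩ := h3 (fun i => m.1 i a) (fun i => m.1 i b) (by
    rw [h1, h2, hab])
  refine ⟨i, ?_⟩
  funext z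
  change m.1 i z = m.1 i (Equiv.swap a b z)
  by_cases h1 : z = a
  · rw [h1, Equiv.swap_apply_left]; exact hi
  · by_cases h2 : z = b
    · rw [h2, Equiv.swap_apply_right]; exact hi.symm
    · rw [Equiv.swap_apply_of_ne_of_ne h1 h2]

/-- D-adjacency: switch in rows `p,q`, columns `b` (sum 1), `a` (sum 2). -/
def DR (m m' : Mat3 r c) (p q : Fin 3) (a b : N) : Prop :=
  c b = 1 ∧ c a = 2 ∧ m.1 p b = true ∧ m.1 q b = false ∧ m.1 p a = false ∧ m.1 q a = true ∧
  m'.1 p b = false ∧ m'.1 q b = true ∧ m'.1 p a = true ∧ m'.1 q a = false ∧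
  ∀ z, z ≠ a → z ≠ b → ∀ j, m'.1 j z = m.1 j z

theorem DR.symm {m m' : Mat3 r c} {p q : Fin 3} {a b : N} (h : DR m m' p q a b) :
    DR m' m q p a b := by
  obtain ⟨h1, h2, h3, h4, h5, h6, h7, h8, h9, h10, h11⟩ := h
  exact ⟨h1, h2, h8, h7, h10, h9, h4, h3, h6, h5, fun z hz hz' j => (h11 z hz hz' j).symm⟩

def D (m m' : Mat3 r c) : Prop := ∃ p q a b, p ≠ q ∧ DR m m' p q a b

theorem DR.third {m m' : Mat3 r c} {p q i : Fin 3} {a b : N} (hd : Dist p q i)
    (h : DR m m' p q a b) : m.1 i = m'.1 i := by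
  obtain ⟨h1, h2, h3, h4, h5, h6, h7, h8, h9, h10, h11⟩ := h
  funext z
  by_cases hza : z = a
  · subst hza
    have e1 := col_sum m z hd
    have e2 := col_sum m' z hd
    rw [h5, h6, h2] at e1
    rw [h9, h10, h2] at e2
    cases h12 : m.1 i z <;> cases h13 : m'.1 i z <;> simp [h12, h13] at e1 e2 ⊢
  · by_cases hzb : z = b
    · subst hzb
      have e1 := col_sum m z hd
      have e2 := col_sum m' z hd
      rw [h3, h4, h1] at e1
      rw [h7, h8, h1] at e2
      cases h12 : m.1 i z <;> cases h13 : m'.1 i z <;> simp [h12, h13] at e1 e2 ⊢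
    · exact (h11 z hza hzb i).symm

end Crest.Agent.H25.T1
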