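import Crest.Agent.H25.T1b

set_option autoImplicit false

namespace Crest.Agent.H25.T1

open Finset Crest.Agent.H25

variable {N : Type*} [Fintype N] [DecidableEq N] {r : Fin 3 → ℕ} {c : N → ℕ}

theorem res0 {y : Mat3 r c} {z : N} {p q i : Fin 3} (h : Dist p q i)
    (hz : c z = (y.1 q z).toNat) : y.1 p z = false ∧ y.1 i z = false := by
  have := col_sum y z h
  cases h1 : y.1 p z <;> cases h2 : y.1 i z <;> simp [h1, h2] at this ⊢ <;> omega

theorem res1 {y : Mat3 r c} {z : N} {p q i : Fin 3} (h : Dist p q i)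
    (hz : c z = (y.1 q z).toNat + 1) : y.1 i z = !y.1 p z := by
  have := col_sum y z h
  cases h1 : y.1 p z <;> cases h2 : y.1 i z <;> simp [h1, h2] at this ⊢ <;> omega

theorem res2 {y : Mat3 r c} {z : N} {p q i : Fin 3} (h : Dist p q i)
    (hz : c z = (y.1 q z).toNat + 2) : y.1 p z = true ∧ y.1 i z = true := by
  have := col_sum y z h
  cases h1 : y.1 p z <;> cases h2 : y.1 i z <;> simp [h1, h2] at this ⊢ <;> omega

theorem row_of {y y' : Mat3 r c} {z : N} {p q i : Fin 3} (h : Dist p q i)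
    (h1 : y.1 q z = y'.1 q z) (h2 : y.1 p z = y'.1 p z) : y.1 i z = y'.1 i z := by
  have e1 := col_sum y z h
  have e2 := col_sum y' z h
  rw [h1, h2] at e1
  cases h3 : y.1 i z <;> cases h4 : y'.1 i z <;> simp [h3, h4] at e1 e2 ⊢ <;> omega

/-- off the free columns the rows agree -/
theorem off_free {y y' : Mat3 r c} {z : N} {p q i : Fin 3} (h : Dist p q i)
    (h1 : y.1 q z = y'.1 q z) (hz : ¬ (c z = (y'.1 q z).toNat + 1)) : y.1 p z = y'.1 p z := by
  have e1 := col_sum y z h
  have e2 := col_sum y' z h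
  rw [h1] at e1
  cases h3 : y.1 p z <;> cases h4 : y'.1 p z <;> cases h5 : y.1 i z <;> cases h6 : y'.1 i z <;>
    simp [h3, h4, h5, h6] at e1 e2 hz ⊢ <;> omega

/-- The situation of two classes. -/
structure Sit (ρ ρ' : N → Bool) (c : N → ℕ) (a b : N) : Prop where
  cb : c b = 1
  ca : c a = 2
  ρb : ρ b = false
  ρa : ρ a = true
  ρb' : ρ' b = true
  ρa' : ρ' a = false
  eq : ∀ z, z ≠ a → z ≠ b → ρ' z = ρ z

theorem all_eq {y y' : Mat3 r c} {p q i : Fin 3} (h : Dist p q i) {z : N}
    (h1 : y.1 q z = y'.1 q z) (h2 : y.1 p z = y'.1 p z) : ∀ j, y'.1 j z = y.1 j z := by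
  intro j
  rcases eq_or h j with rfl | rfl | rfl
  · exact h2.symm
  · exact h1.symm
  · exact (row_of h h1 h2).symm

theorem K1one {ρ ρ' : N → Bool} {a b : N} (S : Sit ρ ρ' c a b) {p q i : Fin 3} (h : Dist p q i)
    {y y' : Mat3 r c} (hy : y.1 q = ρ) (hy' : y'.1 q = ρ') (hpb : y.1 p b = true)
    (hpa : y.1 p a = false)
    (hc : (∀ z, c z = (ρ' z).toNat + 1 → y.1 p z = true → y'.1 p z = true) ∨
      (∀ z, c z = (ρ' z).toNat + 1 → y'.1 p z = true → y.1 p z = true)) :
    DR y y' p q a b := by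
  have hab : a ≠ b := by
    rintro rfl
    have := S.cb; have := S.ca; omega
  have hy'b : y'.1 p b = false := (res0 h (by rw [hy', S.cb, S.ρb']; rfl)).1
  have hy'a : y'.1 p a = true := (res2 h (by rw [hy', S.ca, S.ρa']; rfl)).1
  have off : ∀ z, z ≠ a → z ≠ b → ¬ (c z = (ρ' z).toNat + 1) → y.1 p z = y'.1 p z := by
    intro z hza hzb hz
    refine off_free h ?_ (by rw [hy']; exact hz)
    rw [hy, hy', S.eq z hza hzb]
  set U := univ.filter fun z => y.1 p z = true with hU
  set U' := univ.filter fun z => y'.1 p z = true with hU'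
  have cU : U.card = r p := y.2.1 p
  have cU' : U'.card = r p := y'.2.1 p
  have bU : b ∈ U := by simp [hU, hpb]
  have aU' : a ∈ U' := by simp [hU', hy'a]
  have c1 : (U.erase b).card = r p - 1 := by rw [card_erase_of_mem bU, cU]
  have c2 : (U'.erase a).card = r p - 1 := by rw [card_erase_of_mem aU', cU']
  have heq : U.erase b = U'.erase a := by
    rcases hc with hc | hc
    · refine eq_of_subset_of_card_le ?_ (by rw [c1, c2])
      intro z hz
      rw [mem_erase] at hz ⊢
      obtain ⟨hzb, hz⟩ := hz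
      have hz' : y.1 p z = true := by simpa [hU] using hz
      have hza : z ≠ a := by rintro rfl; rw [hpa] at hz'; exact absurd hz' (by decide)
      refine ⟨hza, ?_⟩
      by_cases hR : c z = (ρ' z).toNat + 1
      · simpa [hU'] using hc z hR hz'
      · have := off z hza hzb hR
        simpa [hU', ← this] using hz'
    · refine (eq_of_subset_of_card_le ?_ (by rw [c1, c2])).symm
      intro z hz
      rw [mem_erase] at hz ⊢
      obtain ⟨hza, hz⟩ := hz
      have hz' : y'.1 p z = true := by simpa [hU'] using hz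
      have hzb : z ≠ b := by rintro rfl; rw [hy'b] at hz'; exact absurd hz' (by decide)
      refine ⟨hzb, ?_⟩
      by_cases hR : c z = (ρ' z).toNat + 1
      · simpa [hU] using hc z hR hz'
      · have := off z hza hzb hR
        simpa [hU, this] using hz'
  refine ⟨S.cb, S.ca, hpb, by rw [hy, S.ρb], hpa, by rw [hy, S.ρa], hy'b, by rw [hy', S.ρb'], hy'a,
    by rw [hy', S.ρa'], ?_⟩
  intro z hza hzb
  refine all_eq h ?_ ?_
  · rw [hy, hy', S.eq z hza hzb]
  · have : z ∈ U.erase b ↔ z ∈ U'.erase a := by rw [heq]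
    rw [mem_erase, mem_erase] at this
    simp only [hU, hU', mem_filter, mem_univ, true_and, ne_eq, hza, hzb, not_false_eq_true] at this
    cases h1 : y.1 p z <;> cases h2 : y'.1 p z <;> simp [h1, h2] at this ⊢

theorem K1both {ρ ρ' : N → Bool} {a b : N} (S : Sit ρ ρ' c a b) {p q i : Fin 3} (h : Dist p q i)
    {y y' : Mat3 r c} (hy : y.1 q = ρ) (hy' : y'.1 q = ρ') (hpb : y.1 p b = true)
    (hpa : y.1 p a = true)
    (hc : (∀ z, c z = (ρ' z).toNat + 1 → y.1 p z = true → y'.1 p z = true) ∨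
      (∀ z, c z = (ρ' z).toNat + 1 → y'.1 p z = true → y.1 p z = true)) :
    ∃ (z₁ z₂ : N) (hz : c z₁ = c z₂), D (colswap z₁ z₂ hz y) y' := by
  have hab : a ≠ b := by
    rintro rfl
    have := S.cb; have := S.ca; omega
  have hy'b : y'.1 p b = false := (res0 h (by rw [hy', S.cb, S.ρb']; rfl)).1
  have hy'a : y'.1 p a = true := (res2 h (by rw [hy', S.ca, S.ρa']; rfl)).1
  have hy'ib : y'.1 i b = false := (res0 h (by rw [hy', S.cb, S.ρb']; rfl)).2
  have hy'ia : y'.1 i a = true := (res2 h (by rw [hy', S.ca, S.ρa']; rfl)).2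
  have hyia : y.1 i a = false := by
    have := res1 (y := y) (z := a) h (by rw [hy, S.ca, S.ρa]; rfl)
    rw [this, hpa]; rfl
  have hyib : y.1 i b = false := by
    have := res1 (y := y) (z := b) h (by rw [hy, S.cb, S.ρb]; rfl)
    rw [this, hpb]; rfl
  have off : ∀ z, z ≠ a → z ≠ b → ¬ (c z = (ρ' z).toNat + 1) → y.1 p z = y'.1 p z := by
    intro z hza hzb hz
    refine off_free h ?_ (by rw [hy']; exact hz)
    rw [hy, hy', S.eq z hza hzb]
  set U := univ.filter fun z => y.1 p z = true with hU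
  set U' := univ.filter fun z => y'.1 p z = true with hU'
  have cU : U.card = r p := y.2.1 p
  have cU' : U'.card = r p := y'.2.1 p
  have bU : b ∈ U := by simp [hU, hpb]
  have rp : 0 < r p := by rw [← cU]; exact card_pos.2 ⟨b, bU⟩
  have c1 : (U.erase b).card = r p - 1 := by rw [card_erase_of_mem bU, cU]
  have hsub : U.erase b ⊆ U' := by
    rcases hc with hc | hc
    · intro z hz
      rw [mem_erase] at hz
      obtain ⟨hzb, hz⟩ := hz
      have hz' : y.1 p z = true := by simpa [hU] using hz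
      by_cases hza : z = a
      · rw [hza]; simp [hU', hy'a]
      by_cases hR : c z = (ρ' z).toNat + 1
      · simpa [hU'] using hc z hR hz'
      · have := off z hza hzb hR
        simpa [hU', ← this] using hz'
    · exfalso
      have : U' ⊆ U.erase b := by
        intro z hz
        have hz' : y'.1 p z = true := by simpa [hU'] using hz
        have hzb : z ≠ b := by rintro rfl; rw [hy'b] at hz'; exact absurd hz' (by decide)
        rw [mem_erase]
        refine ⟨hzb, ?_⟩
        by_cases hza : z = a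
        · rw [hza]; simp [hU, hpa]
        by_cases hR : c z = (ρ' z).toNat + 1
        · simpa [hU] using hc z hR hz'
        · have := off z hza hzb hR
          simpa [hU, this] using hz'
      have := card_le_card this
      rw [c1, cU'] at this
      omega
  obtain ⟨z₀, hz₀, hins⟩ := exists_eq_insert_iff.2 ⟨hsub, by rw [c1, cU']; omega⟩
  have hz₀' : z₀ ∈ U' := by rw [← hins]; exact mem_insert_self _ _
  have hyz₀' : y'.1 p z₀ = true := by simpa [hU'] using hz₀'
  have hz₀b : z₀ ≠ b := by rintro rfl; rw [hy'b] at hyz₀'; exact absurd hyz₀' (by decide)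
  have hz₀a : z₀ ≠ a := by
    rintro rfl
    exact hz₀ (by rw [mem_erase]; exact ⟨hab, by simp [hU, hpa]⟩)
  have hyz₀ : y.1 p z₀ = false := by
    cases h1 : y.1 p z₀
    · rfl
    · exfalso; exact hz₀ (by rw [mem_erase]; exact ⟨hz₀b, by simp [hU, h1]⟩)
  have hR : c z₀ = (ρ' z₀).toNat + 1 := by
    by_contra hR
    have := off z₀ hz₀a hz₀b hR
    rw [hyz₀, hyz₀'] at this
    exact absurd this (by decide)
  have hρz : ρ' z₀ = ρ z₀ := S.eq z₀ hz₀a hz₀b
  have hyiz₀ : y.1 i z₀ = true := by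
    have := res1 (y := y) (z := z₀) h (by rw [hy, ← hρz]; exact hR)
    rw [this, hyz₀]; rfl
  have hyiz₀' : y'.1 i z₀ = false := by
    have := res1 (y := y') (z := z₀) h (by rw [hy']; exact hR)
    rw [this, hyz₀']; rfl
  -- other columns
  have oth : ∀ z, z ≠ a → z ≠ b → z ≠ z₀ → ∀ j, y'.1 j z = y.1 j z := by
    intro z hza hzb hzz
    refine all_eq h ?_ ?_
    · rw [hy, hy', S.eq z hza hzb]
    · have : z ∈ U' ↔ z ∈ insert z₀ (U.erase b) := by rw [hins]
      rw [mem_insert, mem_erase] at this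
      simp only [hU, hU', mem_filter, mem_univ, true_and, ne_eq, hzz, hzb, not_false_eq_true,
        false_or] at this
      cases h1 : y.1 p z <;> cases h2 : y'.1 p z <;> simp [h1, h2] at this ⊢
  cases hρ : ρ' z₀
  · -- c z₀ = 1
    rw [hρ] at hR
    have hcz : c z₀ = c b := by rw [hR, S.cb]; rfl
    refine ⟨z₀, b, hcz, i, q, a, b, h.2.1, S.cb, S.ca, ?_, ?_, ?_, ?_, hy'ib, ?_, hy'ia, ?_, ?_⟩
    · change y.1 i (Equiv.swap z₀ b b) = true
      rw [Equiv.swap_apply_right]; exact hyiz₀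
    · change y.1 q (Equiv.swap z₀ b b) = false
      rw [Equiv.swap_apply_right, hy, ← hρz, hρ]
    · change y.1 i (Equiv.swap z₀ b a) = false
      rw [Equiv.swap_apply_of_ne_of_ne hz₀a.symm hab]; exact hyia
    · change y.1 q (Equiv.swap z₀ b a) = true
      rw [Equiv.swap_apply_of_ne_of_ne hz₀a.symm hab, hy, S.ρa]
    · rw [hy', S.ρb']
    · rw [hy', S.ρa']
    · intro z hza hzb j
      change y'.1 j z = y.1 j (Equiv.swap z₀ b z)
      by_cases hzz : z = z₀
      · rw [hzz, Equiv.swap_apply_left]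
        rcases eq_or h j with rfl | rfl | rfl
        · rw [hyz₀', hpb]
        · rw [hy', hy, hρ, S.ρb]
        · rw [hyiz₀', hyib]
      · rw [Equiv.swap_apply_of_ne_of_ne hzz hzb]
        exact oth z hza hzb hzz j
  · -- c z₀ = 2
    rw [hρ] at hR
    have hcz : c z₀ = c a := by rw [hR, S.ca]; rfl
    refine ⟨z₀, a, hcz, p, q, a, b, h.1, S.cb, S.ca, ?_, ?_, ?_, ?_, hy'b, ?_, hy'a, ?_, ?_⟩
    · change y.1 p (Equiv.swap z₀ a b) = true
      rw [Equiv.swap_apply_of_ne_of_ne hz₀b.symm hab.symm]; exact hpb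
    · change y.1 q (Equiv.swap z₀ a b) = false
      rw [Equiv.swap_apply_of_ne_of_ne hz₀b.symm hab.symm, hy, S.ρb]
    · change y.1 p (Equiv.swap z₀ a a) = false
      rw [Equiv.swap_apply_right]; exact hyz₀
    · change y.1 q (Equiv.swap z₀ a a) = true
      rw [Equiv.swap_apply_right, hy, ← hρz, hρ]
    · rw [hy', S.ρb']
    · rw [hy', S.ρa']
    · intro z hza hzb j
      change y'.1 j z = y.1 j (Equiv.swap z₀ a z)
      by_cases hzz : z = z₀
      · rw [hzz, Equiv.swap_apply_left]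
        rcases eq_or h j with rfl | rfl | rfl
        · rw [hyz₀', hpa]
        · rw [hy', hy, hρ, S.ρa]
        · rw [hyiz₀', hyia]
      · rw [Equiv.swap_apply_of_ne_of_ne hzz hza]
        exact oth z hza hzb hzz j

/-- compatible pairs have close values -/
theorem K1 {ρ ρ' : N → Bool} {a b : N} (S : Sit ρ ρ' c a b) {p q i : Fin 3} (h : Dist p q i)
    {y y' : Mat3 r c} (hy : y.1 q = ρ) (hy' : y'.1 q = ρ')
    (hc : (∀ z, c z = (ρ' z).toNat + 1 → y.1 p z = true → y'.1 p z = true) ∨
      (∀ z, c z = (ρ' z).toNat + 1 → y'.1 p z = true → y.1 p z = true))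
    (g : Mat3 r c → ℝ) (M : ℝ) (hX : ∀ (z₁ z₂ : N) (hz : c z₁ = c z₂) y, g (colswap z₁ z₂ hz y) = g y)
    (hD : ∀ y y', D y y' → |g y - g y'| ≤ M) : |g y - g y'| ≤ M := by
  have flipc : (∀ z, c z = (ρ' z).toNat + 1 → y.1 i z = true → y'.1 i z = true) ∨
      (∀ z, c z = (ρ' z).toNat + 1 → y'.1 i z = true → y.1 i z = true) := by
    have hne : ∀ z, c z = (ρ' z).toNat + 1 → z ≠ a ∧ z ≠ b := by
      intro z hz
      constructor
      · rintro rfl; rw [S.ca, S.ρa'] at hz; simp at hz
      · rintro rfl; rw [S.cb, S.ρb'] at hz; simp at hz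
    have r1 : ∀ z, c z = (ρ' z).toNat + 1 → y.1 i z = !y.1 p z := by
      intro z hz
      obtain ⟨h1, h2⟩ := hne z hz
      exact res1 h (by rw [hy, ← S.eq z h1 h2]; exact hz)
    have r2 : ∀ z, c z = (ρ' z).toNat + 1 → y'.1 i z = !y'.1 p z := by
      intro z hz
      exact res1 h (by rw [hy']; exact hz)
    rcases hc with hc | hc
    · right
      intro z hz
      have := hc z hz
      rw [r1 z hz, r2 z hz]
      cases h1 : y.1 p z <;> cases h2 : y'.1 p z <;> simp [h1, h2] at this ⊢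
    · left
      intro z hz
      have := hc z hz
      rw [r1 z hz, r2 z hz]
      cases h1 : y.1 p z <;> cases h2 : y'.1 p z <;> simp [h1, h2] at this ⊢
  have ib : y.1 i b = !y.1 p b := res1 h (by rw [hy, S.cb, S.ρb]; rfl)
  have ia : y.1 i a = !y.1 p a := res1 h (by rw [hy, S.ca, S.ρa]; rfl)
  cases hpb : y.1 p b <;> cases hpa : y.1 p a
  · rw [hpb] at ib; rw [hpa] at ia
    obtain ⟨z₁, z₂, hz, hDD⟩ := K1both S h.swap hy hy' (by rw [ib]; rfl) (by rw [ia]; rfl) flipc
    have := hD _ _ hDD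
    rwa [hX] at this
  · rw [hpb] at ib; rw [hpa] at ia
    exact hD _ _ ⟨i, q, a, b, h.2.1, K1one S h.swap hy hy' (by rw [ib]; rfl) (by rw [ia]; rfl) flipc⟩
  · exact hD _ _ ⟨p, q, a, b, h.1, K1one S h hy hy' hpb hpa hc⟩
  · obtain ⟨z₁, z₂, hz, hDD⟩ := K1both S h hy hy' hpb hpa hc
    have := hD _ _ hDD
    rwa [hX] at this

end Crest.Agent.H25.T1
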