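import Crest.Agent.H25.T1c

set_option autoImplicit false
set_option linter.unusedSectionVars false
set_option linter.unusedVariables false

namespace Crest.Agent.H25.T1

open Finset Crest.Agent.H25

variable {N : Type*} [Fintype N] [DecidableEq N] {r : Fin 3 → ℕ} {c : N → ℕ}

/-- permute the entries of the rows different from `q` -/
def actF (q : Fin 3) (π : Equiv.Perm N) (y : Fin 3 → N → Bool) : Fin 3 → N → Bool :=
  fun j z => if j = q then y q z else y j (π z)

/-- `π` preserves residual column sums w.r.t. row `ρ`. -/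
def Ok (c : N → ℕ) (ρ : N → Bool) (R : Finset N) : Prop := ∀ z ∈ R, c z = (ρ z).toNat + 1

def Supp (R : Finset N) (π : Equiv.Perm N) : Prop := ∀ z, z ∉ R → π z = z

theorem Supp.mem {R : Finset N} {π : Equiv.Perm N} (h : Supp R π) {z : N} : π z ∈ R ↔ z ∈ R := by
  constructor
  · intro hz
    by_contra h'
    rw [h z h'] at hz
    exact h' hz
  · intro hz
    by_contra h'
    have := h _ h'
    have := π.injective this
    rw [this] at h'
    exact h' hz

theorem Supp.mul {R : Finset N} {π π' : Equiv.Perm N} (h : Supp R π) (h' : Supp R π') :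
    Supp R (π * π') := by
  intro z hz
  rw [Equiv.Perm.mul_apply, h' z hz, h z hz]

theorem Supp.inv {R : Finset N} {π : Equiv.Perm N} (h : Supp R π) : Supp R π⁻¹ := by
  intro z hz
  rw [Equiv.Perm.inv_eq_iff_eq, h z hz]

theorem act_mem (q : Fin 3) {R : Finset N} {π : Equiv.Perm N} (hπ : Supp R π) (y : Mat3 r c)
    (hok : Ok c (y.1 q) R) :
    (∀ i, (univ.filter fun z => actF q π y.1 i z = true).card = r i) ∧
    ∀ z, (univ.filter fun i => actF q π y.1 i z = true).card = c z := by
  constructor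
  · intro i
    unfold actF
    by_cases hi : i = q
    · subst hi
      simp only [if_true]
      exact y.2.1 i
    · simp only [if_neg hi]
      rw [← y.2.1 i]
      refine card_bij (fun z _ => π z) ?_ ?_ ?_
      · intro z hz; simpa using hz
      · intro z _ z' _ h; exact π.injective h
      · intro z hz; exact ⟨π⁻¹ z, by simpa using hz, by simp⟩
  · intro z
    by_cases hz : z ∈ R
    · obtain ⟨p, i, h⟩ := exists_dist q
      rw [col_card (fun i => actF q π y.1 i z), sum_three h]
      unfold actF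
      simp only [if_neg h.1, if_true, if_neg h.2.1]
      have h1 := hok z hz
      have h2 := hok (π z) (hπ.mem.2 hz)
      have h3 := col_sum y (π z) h
      omega
    · have : (fun i => actF q π y.1 i z) = fun i => y.1 i z := by
        funext i
        unfold actF
        rw [hπ z hz]
        split_ifs with h
        · rw [h]
        · rfl
      have h2 := y.2.2 z
      simp only [funext_iff] at this
      simp only [this]
      exact h2

open Classical in
/-- the action of `Perm R` on matrices, identity if not allowed -/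
noncomputable def act (q : Fin 3) (R : Finset N) (π : Equiv.Perm {z // z ∈ R}) (y : Mat3 r c) :
    Mat3 r c :=
  if h : Ok c (y.1 q) R then
    ⟨actF q (Equiv.Perm.ofSubtype π) y.1, act_mem q (R := R)
      (fun z hz => Equiv.Perm.ofSubtype_apply_of_not_mem π hz) y h⟩
  else y

theorem act_val {q : Fin 3} {R : Finset N} (π : Equiv.Perm {z // z ∈ R}) {y : Mat3 r c}
    (h : Ok c (y.1 q) R) : (act q R π y).1 = actF q (Equiv.Perm.ofSubtype π) y.1 := by
  unfold act; rw [dif_pos h]

theorem act_q (q : Fin 3) (R : Finset N) (π : Equiv.Perm {z // z ∈ R}) (y : Mat3 r c) :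
    (act q R π y).1 q = y.1 q := by
  classical
  by_cases h : Ok c (y.1 q) R
  · rw [act_val π h]; funext z; simp [actF]
  · unfold act; rw [dif_neg h]

theorem act_p {p q : Fin 3} (hpq : p ≠ q) {R : Finset N} (π : Equiv.Perm {z // z ∈ R})
    {y : Mat3 r c} (h : Ok c (y.1 q) R) (z : N) :
    (act q R π y).1 p z = y.1 p (Equiv.Perm.ofSubtype π z) := by
  rw [act_val π h]; simp [actF, hpq]

theorem act_act (q : Fin 3) (R : Finset N) (π π' : Equiv.Perm {z // z ∈ R}) {y : Mat3 r c}
    (h : Ok c (y.1 q) R) : act q R π (act q R π' y) = act q R (π' * π) y := by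
  apply Subtype.ext
  have h' : Ok c ((act q R π' y).1 q) R := by rw [act_q]; exact h
  rw [act_val π h', act_val π' h, act_val _ h]
  funext j z
  unfold actF
  by_cases hj : j = q
  · simp [hj]
  · simp only [if_neg hj, map_mul, Equiv.Perm.mul_apply]

theorem act_one (q : Fin 3) (R : Finset N) (y : Mat3 r c) : act q R 1 y = y := by
  classical
  by_cases h : Ok c (y.1 q) R
  · apply Subtype.ext
    rw [act_val _ h]
    funext j z
    unfold actF
    by_cases hj : j = q
    · simp [hj]
    · simp [hj]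
  · unfold act; rw [dif_neg h]

/-- symmetrized function -/
noncomputable def sy (q : Fin 3) (R : Finset N) (g : Mat3 r c → ℝ) (y : Mat3 r c) : ℝ :=
  (∑ π : Equiv.Perm {z // z ∈ R}, g (act q R π y)) / (Fintype.card (Equiv.Perm {z // z ∈ R}) : ℝ)

theorem sy_act (q : Fin 3) (R : Finset N) (g : Mat3 r c → ℝ) (π₀ : Equiv.Perm {z // z ∈ R})
    {y : Mat3 r c} (h : Ok c (y.1 q) R) : sy q R g (act q R π₀ y) = sy q R g y := by
  unfold sy
  congr 1
  simp only [act_act q R _ π₀ h]
  exact Fintype.sum_equiv (Equiv.mulLeft π₀) _ _ (fun π => rfl)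

theorem av_avg {Ω Γ : Type*} [Fintype Ω] [Fintype Γ] [Nonempty Γ] (r : Ω → Ω → Prop) (f : Ω → ℝ)
    (φ ψ : Γ → Ω → Ω) (x : Ω) (hφ : ∀ π y, r x y → r x (φ π y)) (hψ : ∀ π y, r x y → r x (ψ π y))
    (h1 : ∀ π y, r x y → ψ π (φ π y) = y) (h2 : ∀ π y, r x y → φ π (ψ π y) = y) :
    av r (fun y => (∑ π, f (φ π y)) / (Fintype.card Γ : ℝ)) x = av r f x := by
  classical
  unfold av
  congr 1
  rw [← Finset.sum_div, Finset.sum_comm]
  have hs : ∀ π : Γ, (∑ y ∈ univ.filter (fun y => r x y), f (φ π y)) =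
      ∑ y ∈ univ.filter (fun y => r x y), f y := by
    intro π
    refine sum_bij (fun y _ => φ π y) ?_ ?_ ?_ ?_
    · intro y hy
      simp only [mem_filter, mem_univ, true_and] at hy ⊢
      exact hφ π y hy
    · intro y hy y' hy' heq
      simp only [mem_filter, mem_univ, true_and] at hy hy'
      rw [← h1 π y hy, heq, h1 π y' hy']
    · intro y hy
      simp only [mem_filter, mem_univ, true_and] at hy
      refine ⟨ψ π y, ?_, h2 π y hy⟩
      simp only [mem_filter, mem_univ, true_and]
      exact hψ π y hy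
    · intro y _; rfl
  rw [Finset.sum_congr rfl (fun π _ => hs π), Finset.sum_const, nsmul_eq_mul, Finset.card_univ]
  have : (0 : ℝ) < (Fintype.card Γ : ℝ) := by
    exact_mod_cast Fintype.card_pos
  field_simp

theorem av_sy (q : Fin 3) (R : Finset N) (g : Mat3 r c → ℝ) {x : Mat3 r c}
    (h : Ok c (x.1 q) R) : av (rel r c q) (sy q R g) x = av (rel r c q) g x := by
  have hok : ∀ y, rel r c q x y → Ok c (y.1 q) R := fun y hy => by
    rw [← show x.1 q = y.1 q from hy]; exact h
  refine av_avg (rel r c q) g (fun π y => act q R π y) (fun π y => act q R π⁻¹ y) x ?_ ?_ ?_ ?_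
  · intro π y hy
    change x.1 q = (act q R π y).1 q
    rw [act_q]; exact hy
  · intro π y hy
    change x.1 q = (act q R π⁻¹ y).1 q
    rw [act_q]; exact hy
  · intro π y hy
    rw [act_act q R _ _ (hok y hy), mul_inv_cancel, act_one]
  · intro π y hy
    rw [act_act q R _ _ (hok y hy), inv_mul_cancel, act_one]

/-- alignment -/
theorem exists_align {α : Type*} [Fintype α] [DecidableEq α] (A A' : Finset α) :
    ∃ π : Equiv.Perm α, (∀ x, x ∈ A → π x ∈ A') ∨ (∀ x, π x ∈ A' → x ∈ A) := by
  obtain ⟨T, hT, hTA⟩ : ∃ T : Finset α, T.card = A'.card ∧ (T ⊆ A ∨ A ⊆ T) := by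
    rcases le_total A'.card A.card with h | h
    · obtain ⟨T, hT, hc⟩ := exists_subset_card_eq h
      exact ⟨T, hc, Or.inl hT⟩
    · obtain ⟨T, hT, hc⟩ := exists_superset_card_eq h (card_le_univ A')
      exact ⟨T, hc, Or.inr hT⟩
  -- a permutation mapping T onto A'
  have hcard : Fintype.card {x // x ∈ T} = Fintype.card {x // x ∈ A'} := by
    rw [Fintype.card_coe, Fintype.card_coe, hT]
  let e : {x // x ∈ T} ≃ {x // x ∈ A'} := Fintype.equivOfCardEq hcard
  let π : Equiv.Perm α := e.extendSubtype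
  have h1 : ∀ x, π x ∈ A' ↔ x ∈ T := by
    intro x
    constructor
    · intro hx
      by_contra hxT
      exact e.extendSubtype_not_mem x hxT hx
    · intro hx
      exact e.extendSubtype_mem x hx
  refine ⟨π, ?_⟩
  rcases hTA with h | h
  · right; intro x hx; exact h ((h1 x).1 hx)
  · left; intro x hx; exact (h1 x).2 (h hx)

theorem sy_close {ρ ρ' : N → Bool} {a b : N} (S : Sit ρ ρ' c a b) {p q i : Fin 3} (h : Dist p q i)
    {y y' : Mat3 r c} (hy : y.1 q = ρ) (hy' : y'.1 q = ρ')
    (g : Mat3 r c → ℝ) (M : ℝ) (hX : ∀ (z₁ z₂ : N) (hz : c z₁ = c z₂) y, g (colswap z₁ z₂ hz y) = g y)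
    (hD : ∀ y y', D y y' → |g y - g y'| ≤ M) (R : Finset N)
    (hR : ∀ z, z ∈ R ↔ c z = (ρ' z).toNat + 1) :
    |sy q R g y - sy q R g y'| ≤ M := by
  have hok' : Ok c (y'.1 q) R := fun z hz => by rw [hy']; exact (hR z).1 hz
  have hne : ∀ z ∈ R, z ≠ a ∧ z ≠ b := by
    intro z hz
    rw [hR] at hz
    constructor
    · rintro rfl; rw [S.ca, S.ρa'] at hz; simp at hz
    · rintro rfl; rw [S.cb, S.ρb'] at hz; simp at hz
  have hok : Ok c (y.1 q) R := fun z hz => by
    obtain ⟨h1, h2⟩ := hne z hz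
    rw [hy, ← S.eq z h1 h2]; exact (hR z).1 hz
  obtain ⟨π₀, hπ₀⟩ := exists_align (α := {z // z ∈ R})
    (univ.filter fun z => y.1 p z = true) (univ.filter fun z => y'.1 p z = true)
  rw [← sy_act q R g π₀ hok']
  -- pointwise
  have hpt : ∀ π : Equiv.Perm {z // z ∈ R},
      |g (act q R π y) - g (act q R π (act q R π₀ y'))| ≤ M := by
    intro π
    have hok'' : Ok c ((act q R π₀ y').1 q) R := by rw [act_q]; exact hok'
    refine K1 S h (y := act q R π y) (y' := act q R π (act q R π₀ y')) (by rw [act_q, hy])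
      (by rw [act_q, act_q, hy']) ?_ g M hX hD
    have ap : ∀ (z : N) (hz : z ∈ R), (act q R π y).1 p z = y.1 p (π ⟨z, hz⟩) := by
      intro z hz
      rw [act_p h.1 π hok, Equiv.Perm.ofSubtype_apply_of_mem π hz]
    have ap' : ∀ (z : N) (hz : z ∈ R), (act q R π (act q R π₀ y')).1 p z =
        y'.1 p (π₀ (π ⟨z, hz⟩)) := by
      intro z hz
      rw [act_p h.1 π hok'', Equiv.Perm.ofSubtype_apply_of_mem π hz, act_p h.1 π₀ hok',
        Equiv.Perm.ofSubtype_apply_of_mem π₀ (π ⟨z, hz⟩).2]
    rcases hπ₀ with hπ₀ | hπ₀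
    · left
      intro z hz
      rw [← hR] at hz
      rw [ap z hz, ap' z hz]
      intro h1
      have := hπ₀ (π ⟨z, hz⟩) (by simpa using h1)
      simpa using this
    · right
      intro z hz
      rw [← hR] at hz
      rw [ap z hz, ap' z hz]
      intro h1
      have := hπ₀ (π ⟨z, hz⟩) (by simpa using h1)
      simpa using this
  unfold sy
  have hc : (0 : ℝ) < (Fintype.card (Equiv.Perm {z // z ∈ R}) : ℝ) := by
    exact_mod_cast Fintype.card_pos
  rw [← sub_div, ← Finset.sum_sub_distrib, abs_div, abs_of_pos hc, div_le_iff₀ hc]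
  calc |∑ π : Equiv.Perm {z // z ∈ R}, (g (act q R π y) - g (act q R π (act q R π₀ y')))|
      ≤ ∑ π : Equiv.Perm {z // z ∈ R}, |g (act q R π y) - g (act q R π (act q R π₀ y'))| :=
        Finset.abs_sum_le_sum_abs _ _
    _ ≤ ∑ _π : Equiv.Perm {z // z ∈ R}, M := Finset.sum_le_sum fun π _ => hpt π
    _ = M * _ := by rw [Finset.sum_const, nsmul_eq_mul, Finset.card_univ, mul_comm]

theorem KEY {m m' : Mat3 r c} {p q i : Fin 3} {a b : N} (h : Dist p q i) (hDR : DR m m' p q a b)
    (g : Mat3 r c → ℝ) (M : ℝ) (hX : ∀ (z₁ z₂ : N) (hz : c z₁ = c z₂) y, g (colswap z₁ z₂ hz y) = g y)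
    (hD : ∀ y y', D y y' → |g y - g y'| ≤ M) :
    |av (rel r c q) g m - av (rel r c q) g m'| ≤ M := by
  have S : Sit (m.1 q) (m'.1 q) c a b := by
    obtain ⟨h1, h2, h3, h4, h5, h6, h7, h8, h9, h10, h11⟩ := hDR
    exact ⟨h1, h2, h4, h6, h8, h10, fun z hz hz' => h11 z hz hz' q⟩
  set R : Finset N := univ.filter fun z => c z = (m'.1 q z).toNat + 1 with hRdef
  have hR : ∀ z, z ∈ R ↔ c z = (m'.1 q z).toNat + 1 := fun z => by simp [hRdef]
  have hok' : Ok c (m'.1 q) R := fun z hz => (hR z).1 hz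
  have hok : Ok c (m.1 q) R := fun z hz => by
    have hz' := (hR z).1 hz
    have h1 : z ≠ a := by rintro rfl; rw [S.ca, S.ρa'] at hz'; simp at hz'
    have h2 : z ≠ b := by rintro rfl; rw [S.cb, S.ρb'] at hz'; simp at hz'
    rw [← S.eq z h1 h2]; exact hz'
  rw [← av_sy q R g hok, ← av_sy q R g hok']
  -- two different base points: use the two-step bound
  refine av_abs_sub (rel_equiv q) _ _ _ _ fun y y' hy hy' => ?_
  exact sy_close S h (show y.1 q = m.1 q from Eq.symm hy) (show y'.1 q = m'.1 q from Eq.symm hy')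
    g M hX hD R hR

end Crest.Agent.H25.T1
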