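import Mathlib

/-!
# H25/T2: the star (Johnson scheme) inequality
-/

set_option autoImplicit false
set_option linter.unusedSectionVars false
set_option linter.unusedVariables false

namespace Crest.Agent.H25.T2

open Finset

variable {N : Type*} [DecidableEq N]

/-- decomposition of `D_l`. -/
theorem sum_D {R : Finset N} {k l : N} (hk : k ∈ R) (hl : l ∈ R.erase k) (t : ℕ)
    (F : Finset N → ℝ) :
    ∑ S ∈ (R.powersetCard (t + 1)).filter (fun S => ¬ (k ∈ S ↔ l ∈ S)), F S =
      ∑ A ∈ ((R.erase k).erase l).powersetCard t, (F (insert k A) + F (insert l A)) := by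
  classical
  rw [Finset.sum_add_distrib]
  have hkl : l ≠ k := Finset.ne_of_mem_erase hl
  have hlR : l ∈ R := Finset.mem_of_mem_erase hl
  rw [← Finset.sum_filter_add_sum_filter_not
    ((R.powersetCard (t + 1)).filter (fun S => ¬ (k ∈ S ↔ l ∈ S))) (fun S => k ∈ S)]
  congr 1
  · refine Finset.sum_nbij' (fun S => S.erase k) (fun A => insert k A) ?_ ?_ ?_ ?_ ?_
    · intro S hS
      simp only [mem_filter, mem_powersetCard] at hS ⊢
      obtain ⟨⟨⟨hSR, hc⟩, hiff⟩, hkS⟩ := hS
      have hlS : l ∉ S := by tauto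
      refine ⟨?_, ?_⟩
      · intro x hx
        have hx1 := Finset.ne_of_mem_erase hx
        have hx2 := Finset.mem_of_mem_erase hx
        refine Finset.mem_erase.2 ⟨?_, Finset.mem_erase.2 ⟨hx1, hSR hx2⟩⟩
        rintro rfl
        exact hlS hx2
      · rw [Finset.card_erase_of_mem hkS, hc]; rfl
    · intro A hA
      simp only [mem_filter, mem_powersetCard] at hA ⊢
      obtain ⟨hAR, hc⟩ := hA
      have hkA : k ∉ A := fun h => by
        have := hAR h
        simp at this
      have hlA : l ∉ A := fun h => by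
        have := hAR h
        simp at this
      refine ⟨⟨⟨?_, ?_⟩, ?_⟩, ?_⟩
      · intro x hx
        rcases Finset.mem_insert.1 hx with rfl | hx
        · exact hk
        · exact Finset.mem_of_mem_erase (Finset.mem_of_mem_erase (hAR hx))
      · rw [Finset.card_insert_of_notMem hkA, hc]
      · simp [hkl, hlA]
      · simp
    · intro S hS
      simp only [mem_filter, mem_powersetCard] at hS
      exact Finset.insert_erase hS.2
    · intro A hA
      simp only [mem_powersetCard] at hA
      have hkA : k ∉ A := fun h => by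
        have := hA.1 h
        simp at this
      exact Finset.erase_insert hkA
    · intro S hS
      simp only [mem_filter, mem_powersetCard] at hS
      rw [Finset.insert_erase hS.2]
  · refine Finset.sum_nbij' (fun S => S.erase l) (fun A => insert l A) ?_ ?_ ?_ ?_ ?_
    · intro S hS
      simp only [mem_filter, mem_powersetCard] at hS ⊢
      obtain ⟨⟨⟨hSR, hc⟩, hiff⟩, hkS⟩ := hS
      have hlS : l ∈ S := by tauto
      refine ⟨?_, ?_⟩
      · intro x hx
        have hx1 := Finset.ne_of_mem_erase hx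
        have hx2 := Finset.mem_of_mem_erase hx
        refine Finset.mem_erase.2 ⟨hx1, Finset.mem_erase.2 ⟨?_, hSR hx2⟩⟩
        rintro rfl
        exact hkS hx2
      · rw [Finset.card_erase_of_mem hlS, hc]; rfl
    · intro A hA
      simp only [mem_filter, mem_powersetCard] at hA ⊢
      obtain ⟨hAR, hc⟩ := hA
      have hkA : k ∉ A := fun h => by
        have := hAR h
        simp at this
      have hlA : l ∉ A := fun h => by
        have := hAR h
        simp at this
      refine ⟨⟨⟨?_, ?_⟩, ?_⟩, ?_⟩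
      · intro x hx
        rcases Finset.mem_insert.1 hx with rfl | hx
        · exact hlR
        · exact Finset.mem_of_mem_erase (Finset.mem_of_mem_erase (hAR hx))
      · rw [Finset.card_insert_of_notMem hlA, hc]
      · simp [hkl.symm, hkA]
      · simp [hkl.symm, hkA]
    · intro S hS
      simp only [mem_filter, mem_powersetCard] at hS
      obtain ⟨⟨⟨hSR, hc⟩, hiff⟩, hkS⟩ := hS
      have hlS : l ∈ S := by tauto
      exact Finset.insert_erase hlS
    · intro A hA
      simp only [mem_powersetCard] at hA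
      have hlA : l ∉ A := fun h => by
        have := hA.1 h
        simp at this
      exact Finset.erase_insert hlA
    · intro S hS
      simp only [mem_filter, mem_powersetCard] at hS
      obtain ⟨⟨⟨hSR, hc⟩, hiff⟩, hkS⟩ := hS
      have hlS : l ∈ S := by tauto
      show F S = F (insert l (S.erase l))
      rw [Finset.insert_erase hlS]

/-- double counting 1 -/
theorem sum_out (M : Finset N) (t : ℕ) (F : Finset N → N → ℝ) :
    ∑ l ∈ M, ∑ A ∈ (M.erase l).powersetCard t, F A l =
      ∑ A ∈ M.powersetCard t, ∑ l ∈ M \ A, F A l := by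
  classical
  refine Finset.sum_comm' ?_
  intro l A
  simp only [mem_powersetCard, mem_sdiff]
  constructor
  · rintro ⟨hl, hA, hc⟩
    refine ⟨⟨hl, fun h => ?_⟩, fun x hx => Finset.mem_of_mem_erase (hA hx), hc⟩
    have := hA h
    simp at this
  · rintro ⟨⟨hl, hlA⟩, hA, hc⟩
    refine ⟨hl, fun x hx => Finset.mem_erase.2 ⟨?_, hA hx⟩, hc⟩
    rintro rfl
    exact hlA hx

/-- double counting 2 -/
theorem sum_in (M : Finset N) (t : ℕ) (F : Finset N → N → ℝ) :
    ∑ l ∈ M, ∑ A ∈ (M.erase l).powersetCard t, F (insert l A) l =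
      ∑ B ∈ M.powersetCard (t + 1), ∑ l ∈ B, F B l := by
  classical
  have h1 : ∀ l ∈ M, ∑ A ∈ (M.erase l).powersetCard t, F (insert l A) l =
      ∑ B ∈ (M.powersetCard (t + 1)).filter (fun B => l ∈ B), F B l := by
    intro l hl
    refine Finset.sum_nbij' (fun A => insert l A) (fun B => B.erase l) ?_ ?_ ?_ ?_ ?_
    · intro A hA
      simp only [mem_filter, mem_powersetCard] at hA ⊢
      obtain ⟨hAR, hc⟩ := hA
      have hlA : l ∉ A := fun h => by
        have := hAR h
        simp at this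
      refine ⟨⟨?_, ?_⟩, by simp⟩
      · intro x hx
        rcases Finset.mem_insert.1 hx with rfl | hx
        · exact hl
        · exact Finset.mem_of_mem_erase (hAR hx)
      · rw [Finset.card_insert_of_notMem hlA, hc]
    · intro B hB
      simp only [mem_filter, mem_powersetCard] at hB ⊢
      obtain ⟨⟨hBM, hc⟩, hlB⟩ := hB
      refine ⟨Finset.erase_subset_erase l hBM, ?_⟩
      rw [Finset.card_erase_of_mem hlB, hc]; rfl
    · intro A hA
      simp only [mem_powersetCard] at hA
      have hlA : l ∉ A := fun h => by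
        have := hA.1 h
        simp at this
      exact Finset.erase_insert hlA
    · intro B hB
      simp only [mem_filter, mem_powersetCard] at hB
      exact Finset.insert_erase hB.2
    · intro A hA
      rfl
  rw [Finset.sum_congr rfl h1]
  refine Finset.sum_comm' ?_
  intro l B
  simp only [mem_filter, mem_powersetCard]
  constructor
  · rintro ⟨hl, ⟨hB, hc⟩, hlB⟩
    exact ⟨hlB, hB, hc⟩
  · rintro ⟨hlB, hB, hc⟩
    exact ⟨hB hlB, ⟨hB, hc⟩, hlB⟩

/-- sum over `J` of `g`. -/
theorem sum_J {R : Finset N} {k : N} (hk : k ∈ R) (t : ℕ) (F : Finset N → ℝ) :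
    ∑ S ∈ R.powersetCard (t + 1), F S =
      ∑ A ∈ (R.erase k).powersetCard t, F (insert k A) +
        ∑ B ∈ (R.erase k).powersetCard (t + 1), F B := by
  classical
  rw [← Finset.sum_filter_add_sum_filter_not (R.powersetCard (t + 1)) (fun S => k ∈ S)]
  congr 1
  · refine Finset.sum_nbij' (fun S => S.erase k) (fun A => insert k A) ?_ ?_ ?_ ?_ ?_
    · intro B hB
      simp only [mem_filter, mem_powersetCard] at hB ⊢
      obtain ⟨⟨hBM, hc⟩, hlB⟩ := hB
      refine ⟨Finset.erase_subset_erase k hBM, ?_⟩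
      rw [Finset.card_erase_of_mem hlB, hc]; rfl
    · intro A hA
      simp only [mem_filter, mem_powersetCard] at hA ⊢
      obtain ⟨hAR, hc⟩ := hA
      have hlA : k ∉ A := fun h => by
        have := hAR h
        simp at this
      refine ⟨⟨?_, ?_⟩, by simp⟩
      · intro x hx
        rcases Finset.mem_insert.1 hx with rfl | hx
        · exact hk
        · exact Finset.mem_of_mem_erase (hAR hx)
      · rw [Finset.card_insert_of_notMem hlA, hc]
    · intro B hB
      simp only [mem_filter, mem_powersetCard] at hB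
      exact Finset.insert_erase hB.2
    · intro A hA
      simp only [mem_powersetCard] at hA
      have hlA : k ∉ A := fun h => by
        have := hA.1 h
        simp at this
      exact Finset.erase_insert hlA
    · intro B hB
      simp only [mem_filter, mem_powersetCard] at hB
      show F B = F (insert k (B.erase k))
      rw [Finset.insert_erase hB.2]
  · refine Finset.sum_congr ?_ (fun _ _ => rfl)
    ext B
    simp only [mem_filter, mem_powersetCard]
    constructor
    · rintro ⟨⟨hB, hc⟩, hkB⟩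
      refine ⟨fun x hx => Finset.mem_erase.2 ⟨?_, hB hx⟩, hc⟩
      rintro rfl
      exact hkB hx
    · rintro ⟨hB, hc⟩
      refine ⟨⟨fun x hx => Finset.mem_of_mem_erase (hB hx), hc⟩, fun h => ?_⟩
      have := hB h
      simp at this

theorem card_E {M : Finset N} {l : N} (hl : l ∈ M) (t : ℕ) :
    (((M.erase l).powersetCard t).card : ℝ) = ((M.card - 1).choose t : ℝ) := by
  rw [Finset.card_powersetCard, Finset.card_erase_of_mem hl]

/-- first moment -/
theorem m1 (M : Finset N) (t : ℕ) (c : N → ℝ) :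
    ∑ B ∈ M.powersetCard (t + 1), ∑ j ∈ B, c j = ((M.card - 1).choose t : ℝ) * ∑ j ∈ M, c j := by
  rw [← sum_in M t (fun _ l => c l), Finset.mul_sum]
  refine Finset.sum_congr rfl fun l hl => ?_
  rw [Finset.sum_const, nsmul_eq_mul, card_E hl]

theorem m4 (M : Finset N) (t : ℕ) (c : N → ℝ) :
    ∃ w : ℝ, 0 ≤ w ∧ ((M.card : ℝ) - 1) * w = t * ((M.card - 1).choose t : ℝ) ∧
      ∀ l ∈ M, ∑ A ∈ (M.erase l).powersetCard t, ∑ j ∈ A, c j = w * (∑ j ∈ M, c j - c l) := by
  rcases Nat.eq_zero_or_pos t with rfl | ht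
  · exact ⟨0, le_refl _, by simp, fun l hl => by simp⟩
  obtain ⟨t', rfl⟩ : ∃ t', t = t' + 1 := ⟨t - 1, by omega⟩
  rcases Nat.lt_or_ge M.card 2 with hM | hM
  · refine ⟨0, le_refl _, ?_, ?_⟩
    · have : M.card - 1 = 0 := by omega
      rw [this]
      simp
    · intro l hl
      have : (M.erase l).card = 0 := by
        rw [Finset.card_erase_of_mem hl]; omega
      rw [Finset.card_eq_zero] at this
      rw [this, Finset.powersetCard_eq_empty.2 (by simp)]
      simp
  · refine ⟨((M.card - 2).choose t' : ℝ), by positivity, ?_, ?_⟩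
    · obtain ⟨n, hn⟩ : ∃ n, M.card = n + 2 := ⟨M.card - 2, by omega⟩
      rw [hn]
      have h := Nat.add_one_mul_choose_eq n t'
      have e1 : n + 2 - 2 = n := by omega
      have e2 : n + 2 - 1 = n + 1 := by omega
      rw [e1, e2]
      have h' : ((n : ℝ) + 1) * (n.choose t' : ℝ) = ((n + 1).choose (t' + 1) : ℝ) * (t' + 1) := by
        exact_mod_cast h
      push_cast
      linarith
    · intro l hl
      rw [m1, Finset.card_erase_of_mem hl, ← Finset.add_sum_erase M c hl]
      have : M.card - 1 - 1 = M.card - 2 := by omega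
      rw [this]
      ring

/-- second moment -/
theorem m3 (M : Finset N) (t : ℕ) (c : N → ℝ) :
    ∃ w : ℝ, 0 ≤ w ∧ ((M.card : ℝ) - 1) * w = t * ((M.card - 1).choose t : ℝ) ∧
      ∑ B ∈ M.powersetCard (t + 1), (∑ j ∈ B, c j) ^ 2 =
        ((M.card - 1).choose t : ℝ) * ∑ j ∈ M, c j ^ 2 +
          w * ((∑ j ∈ M, c j) ^ 2 - ∑ j ∈ M, c j ^ 2) := by
  obtain ⟨w, hw, hw1, hw2⟩ := m4 M t c
  refine ⟨w, hw, hw1, ?_⟩
  have h1 : ∑ B ∈ M.powersetCard (t + 1), (∑ j ∈ B, c j) ^ 2 =
      ∑ B ∈ M.powersetCard (t + 1), ∑ l ∈ B, c l * (∑ j ∈ B, c j) := by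
    refine Finset.sum_congr rfl fun B hB => ?_
    rw [← Finset.sum_mul]; ring
  rw [h1, ← sum_in M t (fun B l => c l * ∑ j ∈ B, c j)]
  have h2 : ∀ l ∈ M, ∑ A ∈ (M.erase l).powersetCard t, c l * (∑ j ∈ insert l A, c j) =
      ((M.card - 1).choose t : ℝ) * c l ^ 2 + w * (c l * (∑ j ∈ M, c j) - c l ^ 2) := by
    intro l hl
    have h3 : ∀ A ∈ (M.erase l).powersetCard t, c l * (∑ j ∈ insert l A, c j) =
        c l ^ 2 + c l * ∑ j ∈ A, c j := by
      intro A hA
      have hlA : l ∉ A := fun h => by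
        have := (mem_powersetCard.1 hA).1 h
        simp at this
      rw [Finset.sum_insert hlA]; ring
    rw [Finset.sum_congr rfl h3, Finset.sum_add_distrib, ← Finset.mul_sum, hw2 l hl,
      Finset.sum_const, nsmul_eq_mul, card_E hl]
    ring
  rw [Finset.sum_congr rfl h2, Finset.sum_add_distrib, ← Finset.mul_sum, ← Finset.mul_sum,
    Finset.sum_sub_distrib, ← Finset.sum_mul]
  ring

theorem key_id (n τ q S2 C : ℝ) (hn : n ≠ 0) (h1 : n - 1 ≠ 0) (h2 : n + 1 ≠ 0) (a b e w : ℝ)
    (ha : a = -1 + 2 * τ / n) (hb : b = -2 / n) (he : e = 2 * (n - τ) / (n * (n + 1)))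
    (hw : w = τ * q / (n - 1)) :
    (a - b) ^ 2 * (q * S2) +
        ((2 * (a - b) * b + (τ + 1) * b ^ 2) * (q * S2 + w * (C ^ 2 - S2)) +
        ((2 * (a - b) * e * C + 2 * (τ + 1) * b * e * C) * (q * C) + n * q * (e * C) ^ 2)) =
        q * S2 - q * (4 * τ * ((n - 1) * (n - τ) - τ) / (n ^ 2 * (n - 1))) * ((n * S2 - C ^ 2) / n)
          - q * (1 - (n - 1 - 2 * τ) ^ 2 / (n + 1) ^ 2) * (C ^ 2 / n) := by
  subst hw
  subst ha
  subst hb
  subst he
  field_simp
  ring

theorem key_ineq (n τ q S2 C : ℝ) (hn : 0 < n) (h1 : 0 < n - 1) (ht : τ + 1 ≤ n) (ht0 : 0 ≤ τ)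
    (hq0 : 0 ≤ q) (hCS : C ^ 2 ≤ n * S2) :
    q * S2 - q * (4 * τ * ((n - 1) * (n - τ) - τ) / (n ^ 2 * (n - 1))) * ((n * S2 - C ^ 2) / n)
      - q * (1 - (n - 1 - 2 * τ) ^ 2 / (n + 1) ^ 2) * (C ^ 2 / n) ≤ q * S2 := by
  have p1 : 0 ≤ (n - 1) * (n - τ) - τ := by nlinarith
  have p0 : 0 ≤ n * S2 - C ^ 2 := by linarith
  have p2 : 0 ≤ q * (4 * τ * ((n - 1) * (n - τ) - τ) / (n ^ 2 * (n - 1))) *
      ((n * S2 - C ^ 2) / n) := by
    apply mul_nonneg
    · apply mul_nonneg hq0
      apply div_nonneg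
      · positivity
      · positivity
    · positivity
  have p3 : 0 ≤ 1 - (n - 1 - 2 * τ) ^ 2 / (n + 1) ^ 2 := by
    rw [sub_nonneg, div_le_one (by positivity)]
    nlinarith
  have p4 : 0 ≤ q * (1 - (n - 1 - 2 * τ) ^ 2 / (n + 1) ^ 2) * (C ^ 2 / n) := by
    apply mul_nonneg
    · exact mul_nonneg hq0 p3
    · positivity
  linarith

/-- the norm of the flow. -/
theorem flow_norm (M : Finset N) (t : ℕ) (htn : t < M.card) (c : N → ℝ) (a b e : ℝ)
    (ha : a = -1 + 2 * t / M.card) (hb : b = -2 / M.card)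
    (he : e = 2 * (M.card - t) / (M.card * (M.card + 1))) :
    ∑ l ∈ M, ∑ A ∈ (M.erase l).powersetCard t,
      (a * c l + b * (∑ j ∈ A, c j) + e * ∑ j ∈ M, c j) ^ 2 ≤
      ((M.card - 1).choose t : ℝ) * ∑ j ∈ M, c j ^ 2 := by
  classical
  obtain ⟨w, hw, hw1, hw2⟩ := m3 M t c
  set q : ℝ := ((M.card - 1).choose t : ℝ) with hq
  set C : ℝ := ∑ j ∈ M, c j with hC
  set S2 : ℝ := ∑ j ∈ M, c j ^ 2 with hS2
  set Q : ℝ := ∑ B ∈ M.powersetCard (t + 1), (∑ j ∈ B, c j) ^ 2 with hQ
  have hCS : C ^ 2 ≤ M.card * S2 := by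
    have := sq_sum_le_card_mul_sum_sq (s := M) (f := c)
    simpa using this
  have hq0 : 0 ≤ q := by positivity
  -- rewrite as a sum over `B`
  have e1 : ∑ l ∈ M, ∑ A ∈ (M.erase l).powersetCard t,
      (a * c l + b * (∑ j ∈ A, c j) + e * C) ^ 2 =
      ∑ l ∈ M, ∑ A ∈ (M.erase l).powersetCard t,
        ((a - b) * c l + (b * (∑ j ∈ insert l A, c j) + e * C)) ^ 2 := by
    refine Finset.sum_congr rfl fun l hl => Finset.sum_congr rfl fun A hA => ?_
    have hlA : l ∉ A := fun h => by
      have := (mem_powersetCard.1 hA).1 h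
      simp at this
    rw [Finset.sum_insert hlA]; ring
  have e2 : ∑ l ∈ M, ∑ A ∈ (M.erase l).powersetCard t,
        ((a - b) * c l + (b * (∑ j ∈ insert l A, c j) + e * C)) ^ 2 =
      ∑ B ∈ M.powersetCard (t + 1), ∑ l ∈ B,
        ((a - b) * c l + (b * (∑ j ∈ B, c j) + e * C)) ^ 2 :=
    sum_in M t (fun B l => ((a - b) * c l + (b * (∑ j ∈ B, c j) + e * C)) ^ 2)
  have e3 : ∀ B ∈ M.powersetCard (t + 1), ∑ l ∈ B,
        ((a - b) * c l + (b * (∑ j ∈ B, c j) + e * C)) ^ 2 =
      (a - b) ^ 2 * (∑ l ∈ B, c l ^ 2) +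
        ((2 * (a - b) * b + (t + 1) * b ^ 2) * (∑ j ∈ B, c j) ^ 2 +
        ((2 * (a - b) * e * C + 2 * (t + 1) * b * e * C) * (∑ j ∈ B, c j) +
        (t + 1) * (e * C) ^ 2)) := by
    intro B hB
    have hc : B.card = t + 1 := (mem_powersetCard.1 hB).2
    have : ∀ l ∈ B, ((a - b) * c l + (b * (∑ j ∈ B, c j) + e * C)) ^ 2 =
        (a - b) ^ 2 * c l ^ 2 + (2 * (a - b) * (b * (∑ j ∈ B, c j) + e * C)) * c l +
          (b * (∑ j ∈ B, c j) + e * C) ^ 2 := fun l _ => by ring
    rw [Finset.sum_congr rfl this, Finset.sum_add_distrib, Finset.sum_add_distrib,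
      ← Finset.mul_sum, ← Finset.mul_sum, Finset.sum_const, hc, nsmul_eq_mul]
    push_cast
    ring
  have e4 : ((M.powersetCard (t + 1)).card : ℝ) * (t + 1) = M.card * q := by
    rw [Finset.card_powersetCard, hq]
    obtain ⟨n, hn⟩ : ∃ n, M.card = n + 1 := ⟨M.card - 1, by omega⟩
    rw [hn]
    have h := Nat.add_one_mul_choose_eq n t
    have e2 : n + 1 - 1 = n := by omega
    rw [e2]
    have h' : ((n : ℝ) + 1) * (n.choose t : ℝ) = ((n + 1).choose (t + 1) : ℝ) * (t + 1) := by
      exact_mod_cast h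
    push_cast
    linarith
  rw [e1, e2, Finset.sum_congr rfl e3, Finset.sum_add_distrib, Finset.sum_add_distrib,
    Finset.sum_add_distrib, ← Finset.mul_sum, ← Finset.mul_sum, ← Finset.mul_sum, m1, m1,
    Finset.sum_const, nsmul_eq_mul, ← hq, ← hC, ← hS2, ← hQ, hw2]
  have hn : (0 : ℝ) < M.card := by
    have : 0 < M.card := by omega
    exact_mod_cast this
  have ht : (t : ℝ) + 1 ≤ M.card := by exact_mod_cast htn
  have ht0 : (0 : ℝ) ≤ t := by positivity
  generalize hnn : (M.card : ℝ) = n at *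
  generalize htt : (t : ℝ) = τ at *
  have e5 : ((M.powersetCard (t + 1)).card : ℝ) * ((τ + 1) * (e * C) ^ 2) =
      n * q * (e * C) ^ 2 := by
    rw [← e4]; ring
  rw [e5]
  -- the final polynomial inequality
  by_cases hn1 : n = 1
  · have hτ : τ = 0 := by linarith
    subst hτ
    subst hn1
    have hb' : b = -2 := by rw [hb]; norm_num
    have ha' : a = -1 := by rw [ha]; norm_num
    have he' : e = 1 := by rw [he]; norm_num
    have : q * (S2 - C ^ 2) ≤ q * S2 := by nlinarith [sq_nonneg C]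
    rw [ha', hb', he']
    nlinarith [sq_nonneg C]
  · have hn1' : 0 < n - 1 := by
      have h1 : 1 ≤ n := by linarith
      have h2 : 1 ≠ n := fun h => hn1 h.symm
      have := lt_of_le_of_ne h1 h2
      linarith
    have hwv : w = τ * q / (n - 1) := by
      field_simp
      linarith
    have key : (a - b) ^ 2 * (q * S2) +
        ((2 * (a - b) * b + (τ + 1) * b ^ 2) * (q * S2 + w * (C ^ 2 - S2)) +
        ((2 * (a - b) * e * C + 2 * (τ + 1) * b * e * C) * (q * C) + n * q * (e * C) ^ 2)) =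
        q * S2 - q * (4 * τ * ((n - 1) * (n - τ) - τ) / (n ^ 2 * (n - 1))) * ((n * S2 - C ^ 2) / n)
          - q * (1 - (n - 1 - 2 * τ) ^ 2 / (n + 1) ^ 2) * (C ^ 2 / n) := by
      exact key_id n τ q S2 C hn.ne' hn1'.ne' (by positivity) a b e w ha hb he hwv
    rw [key]
    exact key_ineq n τ q S2 C hn hn1' ht ht0 hq0 hCS

/-- T2 -/
theorem star (R : Finset N) (k : N) (hk : k ∈ R) (s : ℕ)
    (f : Finset N → ℝ) :
    ∑ l ∈ R.erase k, ∑ S ∈ (R.powersetCard s).filter (fun S => ¬ (k ∈ S ↔ l ∈ S)),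
      ((∑ T ∈ (R.powersetCard s).filter (fun T => ¬ (k ∈ T ↔ l ∈ T)), f T) /
          (((R.powersetCard s).filter (fun T => ¬ (k ∈ T ↔ l ∈ T))).card : ℝ)
        - (∑ T ∈ R.powersetCard s, f T) / ((R.powersetCard s).card : ℝ)) ^ 2 ≤
    ∑ l ∈ R.erase k, ∑ S ∈ (R.powersetCard s).filter (fun S => ¬ (k ∈ S ↔ l ∈ S)),
      ((f S - f (symmDiff S {k, l})) / 2) ^ 2 := by
  classical
  rcases Nat.eq_zero_or_pos s with rfl | hs
  · have : ∀ l, (R.powersetCard 0).filter (fun S => ¬ (k ∈ S ↔ l ∈ S)) = ∅ := by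
      intro l
      ext S
      simp only [mem_filter, mem_powersetCard, Finset.card_eq_zero]
      constructor
      · rintro ⟨⟨_, rfl⟩, h⟩
        simp at h
      · simp
    simp only [this, Finset.sum_empty, Finset.sum_const_zero, le_refl]
  obtain ⟨t, rfl⟩ : ∃ t, s = t + 1 := ⟨s - 1, by omega⟩
  set M := R.erase k with hM
  set q : ℝ := ((M.card - 1).choose t : ℝ) with hq
  set mean : ℝ := (∑ T ∈ R.powersetCard (t + 1), f T) / ((R.powersetCard (t + 1)).card : ℝ)
    with hmean
  by_cases htn : t < M.card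
  swap
  · -- both sides vanish
    have : ∀ l ∈ M, (R.powersetCard (t + 1)).filter (fun S => ¬ (k ∈ S ↔ l ∈ S)) = ∅ := by
      intro l hl
      have h0 := sum_D hk hl t (fun _ => (1 : ℝ))
      have h1 : ((R.erase k).erase l).powersetCard t = ∅ := by
        apply Finset.powersetCard_eq_empty.2
        have h2 : (M.erase l).card = M.card - 1 := Finset.card_erase_of_mem hl
        have h3 : 0 < M.card := Finset.card_pos.2 ⟨l, hl⟩
        rw [← hM]
        omega
      rw [h1] at h0
      simp only [Finset.sum_const, nsmul_eq_mul, mul_one] at h0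
      have h3 : ((R.powersetCard (t + 1)).filter (fun S => ¬ (k ∈ S ↔ l ∈ S))).card = 0 := by
        exact_mod_cast h0
      exact Finset.card_eq_zero.1 h3
    have hL : ∀ F : N → Finset N → ℝ, ∑ l ∈ M, ∑ S ∈ (R.powersetCard (t + 1)).filter
        (fun S => ¬ (k ∈ S ↔ l ∈ S)), F l S = 0 := by
      intro F
      refine Finset.sum_eq_zero fun l hl => ?_
      rw [this l hl]
      simp
    rw [hL, hL]
  have hq0 : 0 < q := by
    rw [hq]
    have : 0 < (M.card - 1).choose t := Nat.choose_pos (by omega)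
    exact_mod_cast this
  set g : Finset N → ℝ := fun S => f S - mean with hg
  have hgsum : ∑ S ∈ R.powersetCard (t + 1), g S = 0 := by
    rw [hg]
    simp only [Finset.sum_sub_distrib, Finset.sum_const, nsmul_eq_mul]
    rw [hmean]
    have : ((R.powersetCard (t + 1)).card : ℝ) ≠ 0 := by
      rw [Finset.card_powersetCard]
      have h1 : R.card = M.card + 1 := by
        rw [hM, Finset.card_erase_of_mem hk]
        have : 0 < R.card := Finset.card_pos.2 ⟨k, hk⟩
        omega
      have : 0 < R.card.choose (t + 1) := Nat.choose_pos (by omega)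
      exact_mod_cast this.ne'
    field_simp
    ring
  set bb : N → ℝ := fun l => ∑ A ∈ (M.erase l).powersetCard t, (g (insert k A) + g (insert l A))
    with hbb
  set Δ : N → Finset N → ℝ := fun l A => g (insert k A) - g (insert l A) with hΔ
  set a : ℝ := -1 + 2 * t / M.card with ha
  set b : ℝ := -2 / M.card with hb
  set e : ℝ := 2 * (M.card - t) / (M.card * (M.card + 1)) with he
  set C : ℝ := ∑ j ∈ M, bb j with hC
  set φ : N → Finset N → ℝ := fun l A => a * bb l + b * (∑ j ∈ A, bb j) + e * C with hφ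
  have hnorm : ∑ l ∈ M, ∑ A ∈ (M.erase l).powersetCard t, (φ l A) ^ 2 ≤
      q * ∑ j ∈ M, bb j ^ 2 := flow_norm M t htn bb a b e ha hb he
  have hn : (0 : ℝ) < M.card := by
    have : 0 < M.card := by omega
    exact_mod_cast this
  -- the flow identity
  have hflow : ∑ l ∈ M, bb l ^ 2 =
      ∑ l ∈ M, ∑ A ∈ (M.erase l).powersetCard t, Δ l A * φ l A := by
    -- left side
    have l1 : ∑ l ∈ M, bb l ^ 2 =
        ∑ A ∈ M.powersetCard t, g (insert k A) * (∑ l ∈ M \ A, bb l) +
          ∑ B ∈ M.powersetCard (t + 1), g B * (∑ l ∈ B, bb l) := by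
      have h1 : ∀ l ∈ M, bb l ^ 2 = ∑ A ∈ (M.erase l).powersetCard t, g (insert k A) * bb l +
          ∑ A ∈ (M.erase l).powersetCard t, g (insert l A) * bb l := by
        intro l hl
        rw [← Finset.sum_add_distrib, sq]
        conv_lhs => rw [hbb]
        simp only
        rw [Finset.sum_mul]
        refine Finset.sum_congr rfl fun A hA => ?_
        ring
      rw [Finset.sum_congr rfl h1, Finset.sum_add_distrib,
        sum_out M t (fun A l => g (insert k A) * bb l), sum_in M t (fun B l => g B * bb l)]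
      congr 1
      · refine Finset.sum_congr rfl fun A hA => ?_
        rw [Finset.mul_sum]
      · refine Finset.sum_congr rfl fun A hA => ?_
        rw [Finset.mul_sum]
    have r1 : ∑ l ∈ M, ∑ A ∈ (M.erase l).powersetCard t, Δ l A * φ l A =
        ∑ A ∈ M.powersetCard t, g (insert k A) *
          (a * (∑ l ∈ M \ A, bb l) + (M.card - t) * (b * (∑ j ∈ A, bb j) + e * C)) -
        ∑ B ∈ M.powersetCard (t + 1), g B *
          ((a - b) * (∑ l ∈ B, bb l) + (t + 1) * (b * (∑ j ∈ B, bb j) + e * C)) := by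
      have h1 : ∀ l ∈ M, ∑ A ∈ (M.erase l).powersetCard t, Δ l A * φ l A =
          ∑ A ∈ (M.erase l).powersetCard t, g (insert k A) *
            (a * bb l + (b * (∑ j ∈ A, bb j) + e * C)) -
          ∑ A ∈ (M.erase l).powersetCard t, g (insert l A) *
            ((a - b) * bb l + (b * (∑ j ∈ insert l A, bb j) + e * C)) := by
        intro l hl
        rw [← Finset.sum_sub_distrib]
        refine Finset.sum_congr rfl fun A hA => ?_
        have hlA : l ∉ A := fun h => by
          have := (mem_powersetCard.1 hA).1 h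
          simp at this
        rw [Finset.sum_insert hlA]
        simp only [hΔ, hφ]
        ring
      rw [Finset.sum_congr rfl h1, Finset.sum_sub_distrib,
        sum_out M t (fun A l => g (insert k A) * (a * bb l + (b * (∑ j ∈ A, bb j) + e * C))),
        sum_in M t (fun B l => g B * ((a - b) * bb l + (b * (∑ j ∈ B, bb j) + e * C)))]
      congr 1
      · refine Finset.sum_congr rfl fun A hA => ?_
        have hc : ((M \ A).card : ℝ) = M.card - t := by
          have h2 := mem_powersetCard.1 hA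
          rw [Finset.card_sdiff_of_subset h2.1, h2.2, Nat.cast_sub (by omega)]
        rw [← Finset.mul_sum, Finset.sum_add_distrib, ← Finset.mul_sum, Finset.sum_const,
          nsmul_eq_mul, hc]
      · refine Finset.sum_congr rfl fun B hB => ?_
        have hc : (B.card : ℝ) = t + 1 := by
          rw [(mem_powersetCard.1 hB).2]; push_cast; ring
        rw [← Finset.mul_sum, Finset.sum_add_distrib, ← Finset.mul_sum, Finset.sum_const,
          nsmul_eq_mul, hc]
    have hz := hgsum
    rw [sum_J hk t g, ← hM] at hz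
    -- κ C * (sum of g) = 0
    set κ : ℝ := (t + 1) * e with hκ
    have h3 : ∑ A ∈ M.powersetCard t, g (insert k A) *
          (a * (∑ l ∈ M \ A, bb l) + (M.card - t) * (b * (∑ j ∈ A, bb j) + e * C)) =
        ∑ A ∈ M.powersetCard t, g (insert k A) * (∑ l ∈ M \ A, bb l) -
          κ * C * ∑ A ∈ M.powersetCard t, g (insert k A) := by
      rw [Finset.mul_sum (M.powersetCard t), ← Finset.sum_sub_distrib]
      refine Finset.sum_congr rfl fun A hA => ?_
      have h2 : ∑ j ∈ A, bb j = C - ∑ l ∈ M \ A, bb l := by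
        rw [hC, ← Finset.sum_sdiff (mem_powersetCard.1 hA).1]
        ring
      rw [h2, hκ, ha, hb, he]
      have h2' : (M.card : ℝ) + 1 ≠ 0 := by positivity
      field_simp
      ring
    have h4 : ∑ B ∈ M.powersetCard (t + 1), g B *
          ((a - b) * (∑ l ∈ B, bb l) + (t + 1) * (b * (∑ j ∈ B, bb j) + e * C)) =
        - ∑ B ∈ M.powersetCard (t + 1), g B * (∑ l ∈ B, bb l) +
          κ * C * ∑ B ∈ M.powersetCard (t + 1), g B := by
      rw [Finset.mul_sum (M.powersetCard (t + 1)), ← Finset.sum_neg_distrib, ← Finset.sum_add_distrib]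
      refine Finset.sum_congr rfl fun B hB => ?_
      rw [hκ, ha, hb]
      field_simp
      ring
    rw [l1, r1, h3, h4]
    linear_combination (κ * C) * hz
  -- rewrite both sides
  have hLHS : ∀ l ∈ M, ∑ S ∈ (R.powersetCard (t + 1)).filter (fun S => ¬ (k ∈ S ↔ l ∈ S)),
      ((∑ T ∈ (R.powersetCard (t + 1)).filter (fun T => ¬ (k ∈ T ↔ l ∈ T)), f T) /
          (((R.powersetCard (t + 1)).filter (fun T => ¬ (k ∈ T ↔ l ∈ T))).card : ℝ)
        - mean) ^ 2 = bb l ^ 2 / (2 * q) := by
    intro l hl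
    have hcard : (((R.powersetCard (t + 1)).filter (fun T => ¬ (k ∈ T ↔ l ∈ T))).card : ℝ) =
        2 * q := by
      have h0 := sum_D hk hl t (fun _ => (1 : ℝ))
      simp only [Finset.sum_const, nsmul_eq_mul, mul_one] at h0
      rw [h0, ← hM, card_E hl]
      ring
    have hsum : ∑ T ∈ (R.powersetCard (t + 1)).filter (fun T => ¬ (k ∈ T ↔ l ∈ T)), f T =
        bb l + 2 * q * mean := by
      rw [sum_D hk hl t f, hbb]
      simp only [hg]
      rw [← hM]
      have : ∑ A ∈ (M.erase l).powersetCard t, (f (insert k A) - mean + (f (insert l A) - mean)) =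
          ∑ A ∈ (M.erase l).powersetCard t, (f (insert k A) + f (insert l A)) -
            ∑ A ∈ (M.erase l).powersetCard t, 2 * mean := by
        rw [← Finset.sum_sub_distrib]
        refine Finset.sum_congr rfl fun A hA => ?_
        ring
      rw [this, Finset.sum_const, nsmul_eq_mul, card_E hl]
      ring
    rw [Finset.sum_const, nsmul_eq_mul, hsum, hcard]
    field_simp
    ring
  have hRHS : ∀ l ∈ M, ∑ S ∈ (R.powersetCard (t + 1)).filter (fun S => ¬ (k ∈ S ↔ l ∈ S)),
      ((f S - f (symmDiff S {k, l})) / 2) ^ 2 =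
        (1 / 2) * ∑ A ∈ (M.erase l).powersetCard t, (Δ l A) ^ 2 := by
    intro l hl
    rw [sum_D hk hl t (fun S => ((f S - f (symmDiff S {k, l})) / 2) ^ 2), ← hM, Finset.mul_sum]
    refine Finset.sum_congr rfl fun A hA => ?_
    have hkl : l ≠ k := Finset.ne_of_mem_erase hl
    have hA' := (mem_powersetCard.1 hA).1
    have hkA : k ∉ A := fun h => by
      have := hA' h
      simp [hM] at this
    have hlA : l ∉ A := fun h => by
      have := hA' h
      simp at this
    have s1 : symmDiff (insert k A) {k, l} = insert l A := by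
      ext x
      simp only [Finset.mem_symmDiff, Finset.mem_insert, Finset.mem_singleton]
      by_cases h1 : x = k
      · subst h1
        simp [hkA, hkl.symm]
      · by_cases h2 : x = l
        · subst h2
          simp [hlA, hkl]
        · simp [h1, h2]
    have s2 : symmDiff (insert l A) {k, l} = insert k A := by
      ext x
      simp only [Finset.mem_symmDiff, Finset.mem_insert, Finset.mem_singleton]
      by_cases h1 : x = k
      · subst h1
        simp [hkA, hkl.symm]
      · by_cases h2 : x = l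
        · subst h2
          simp [hlA, hkl]
        · simp [h1, h2]
    rw [s1, s2]
    simp only [hΔ, hg]
    ring
  rw [Finset.sum_congr rfl hLHS, Finset.sum_congr rfl hRHS, ← Finset.sum_div, ← Finset.mul_sum]
  -- AM-GM
  have ham : ∑ l ∈ M, ∑ A ∈ (M.erase l).powersetCard t, Δ l A * φ l A ≤
      ∑ l ∈ M, ∑ A ∈ (M.erase l).powersetCard t, (q / 2 * (Δ l A) ^ 2 + 1 / (2 * q) * (φ l A) ^ 2) := by
    refine Finset.sum_le_sum fun l _ => Finset.sum_le_sum fun A _ => ?_
    have h0 : q / 2 * (Δ l A) ^ 2 + 1 / (2 * q) * (φ l A) ^ 2 - Δ l A * φ l A =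
        (q * Δ l A - φ l A) ^ 2 / (2 * q) := by
      field_simp
      ring
    have h1 : 0 ≤ (q * Δ l A - φ l A) ^ 2 / (2 * q) := by positivity
    linarith
  have hexp : ∑ l ∈ M, ∑ A ∈ (M.erase l).powersetCard t,
      (q / 2 * (Δ l A) ^ 2 + 1 / (2 * q) * (φ l A) ^ 2) =
      q / 2 * ∑ l ∈ M, ∑ A ∈ (M.erase l).powersetCard t, (Δ l A) ^ 2 +
        1 / (2 * q) * ∑ l ∈ M, ∑ A ∈ (M.erase l).powersetCard t, (φ l A) ^ 2 := by
    simp only [Finset.sum_add_distrib, Finset.mul_sum]
  rw [← hflow, hexp] at ham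
  have h5 : 1 / (2 * q) * ∑ l ∈ M, ∑ A ∈ (M.erase l).powersetCard t, (φ l A) ^ 2 ≤
      1 / 2 * ∑ l ∈ M, bb l ^ 2 := by
    calc 1 / (2 * q) * ∑ l ∈ M, ∑ A ∈ (M.erase l).powersetCard t, (φ l A) ^ 2 ≤
        1 / (2 * q) * (q * ∑ j ∈ M, bb j ^ 2) := by
          apply mul_le_mul_of_nonneg_left hnorm (by positivity)
      _ = 1 / 2 * ∑ l ∈ M, bb l ^ 2 := by field_simp
  rw [div_le_iff₀ (by positivity)]
  nlinarith

end Crest.Agent.H25.T2
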