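import Crest.Agent.H25.Defs
import Crest.Prelude.Def_SwitchChain

/-!
T6, part a: combinatorics of the switch chain kernel (symmetry, row sums, invariance of degrees).
-/

set_option autoImplicit false

namespace Crest.Agent.H25.T6

open Finset Crest.Agent.H25 Crest.SwitchChain

variable {n : ℕ}

/-- the edge `{x,y}` -/
def ed (x y : Fin n) (h : x ≠ y) : Edge n := ⟨s(x, y), by simpa using h⟩

lemma ed_comm (x y : Fin n) (h : x ≠ y) : ed x y h = ed y x h.symm := by
  apply Subtype.ext; exact Sym2.eq_swap

lemma mem_ed (x y v : Fin n) (h : x ≠ y) : v ∈ (ed x y h).1 ↔ v = x ∨ v = y := by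
  simp [ed]

lemma exists_ed (e : Edge n) : ∃ x y, ∃ h : x ≠ y, e = ed x y h := by
  obtain ⟨e, he⟩ := e
  induction e using Sym2.ind with
  | _ x y => exact ⟨x, y, by simpa using he, rfl⟩

lemma ed_eq_of_mem {e : Edge n} {x y : Fin n} (h : x ≠ y) (hx : x ∈ e.1) (hy : y ∈ e.1) :
    e = ed x y h := by
  apply Subtype.ext
  exact (Sym2.mem_and_mem_iff h).1 ⟨hx, hy⟩

lemma mem_pmSet {S : Finset (Fin n)} {F : Finset (Edge n)} :
    F ∈ pmSet S ↔ F.card = 2 ∧ (∀ e ∈ F, ∀ v : Fin n, v ∈ e.1 → v ∈ S) ∧
      ∀ v ∈ S, (F.filter fun e => v ∈ e.1).card = 1 := by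
  simp [pmSet, mem_powersetCard]

/-- degree of `v` in a perfect matching of `S`. -/
lemma deg_pm {S : Finset (Fin n)} {F : Finset (Edge n)} (hF : F ∈ pmSet S) (v : Fin n) :
    deg F v = if v ∈ S then 1 else 0 := by
  rw [mem_pmSet] at hF
  unfold deg
  split_ifs with hv
  · exact hF.2.2 v hv
  · rw [card_eq_zero, filter_eq_empty_iff]
    intro e he hve
    exact hv (hF.2.1 e he v hve)

lemma deg_union_disjoint {A B : Finset (Edge n)} (h : Disjoint A B) (v : Fin n) :
    deg (A ∪ B) v = deg A v + deg B v := by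
  unfold deg
  rw [filter_union, card_union_of_disjoint (disjoint_filter_filter h)]

lemma deg_switchResult {S : Finset (Fin n)} {F F' : Finset (Edge n)} (hF : F ∈ pmSet S)
    (hF' : F' ∈ pmSet S) (E : Finset (Edge n)) (v : Fin n) :
    deg (switchResult E F F') v = deg E v := by
  unfold switchResult
  split_ifs with h
  · obtain ⟨h1, h2⟩ := h
    have hd : Disjoint (E \ F) F' := (h2.mono_right sdiff_subset).symm
    rw [deg_union_disjoint hd, deg_pm hF' v, ← deg_pm hF v,
      ← deg_union_disjoint sdiff_disjoint, sdiff_union_of_subset h1]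
  · rfl

lemma mem_realizations {d : Fin n → ℕ} {E : Finset (Edge n)} :
    E ∈ realizations d ↔ ∀ v, deg E v = d v := by
  simp [realizations]

lemma switchResult_mem_iff {S : Finset (Fin n)} {F F' : Finset (Edge n)} (hF : F ∈ pmSet S)
    (hF' : F' ∈ pmSet S) (E : Finset (Edge n)) (d : Fin n → ℕ) :
    switchResult E F F' ∈ realizations d ↔ E ∈ realizations d := by
  simp [mem_realizations, deg_switchResult hF hF']

lemma switchResult_symm {F F' E E' : Finset (Edge n)} (hne : E ≠ E')
    (h : switchResult E F F' = E') : switchResult E' F' F = E := by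
  unfold switchResult at h
  split_ifs at h with hc
  · obtain ⟨h1, h2⟩ := hc
    subst h
    have h3 : F' ⊆ E \ F ∪ F' := subset_union_right
    have h4 : Disjoint F (E \ F ∪ F') := by
      rw [disjoint_union_right]
      exact ⟨disjoint_sdiff, (h2.mono_right h1).symm⟩
    unfold switchResult
    rw [if_pos ⟨h3, h4⟩]
    have h5 : (E \ F ∪ F') \ F' = E \ F := by
      rw [union_sdiff_right, sdiff_eq_self_of_disjoint]
      exact (h2.mono_right sdiff_subset).symm
    rw [h5, sdiff_union_of_subset h1]
  · exact absurd h hne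

lemma proposalCount_symm (E E' : Finset (Edge n)) :
    proposalCount E E' = proposalCount E' E := by
  by_cases hne : E = E'
  · rw [hne]
  · unfold proposalCount
    refine sum_congr rfl fun S _ => ?_
    have key : ∀ A B : Finset (Edge n), (∑ F ∈ pmSet S, ∑ F' ∈ (pmSet S).erase F,
        if switchResult A F F' = B then 1 else 0) =
        ∑ F ∈ pmSet S, ∑ F' ∈ pmSet S, if F' ≠ F ∧ switchResult A F F' = B then 1 else 0 := by
      intro A B
      refine sum_congr rfl fun F _ => ?_
      rw [← filter_ne', sum_filter]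
      refine sum_congr rfl fun F' _ => ?_
      by_cases h : F' = F <;> simp [h]
    rw [key, key, sum_comm]
    refine sum_congr rfl fun F' _ => sum_congr rfl fun F _ => ?_
    have : (F' ≠ F ∧ switchResult E F F' = E') ↔ (F ≠ F' ∧ switchResult E' F' F = E) := by
      constructor
      · rintro ⟨h1, h2⟩; exact ⟨h1.symm, switchResult_symm hne h2⟩
      · rintro ⟨h1, h2⟩; exact ⟨h1.symm, switchResult_symm (Ne.symm hne) h2⟩
    simp only [this]

lemma kernel_symm (E E' : Finset (Edge n)) : kernel n E E' = kernel n E' E := by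
  unfold kernel
  rw [proposalCount_symm E E']
  by_cases h : E = E'
  · simp [h]
  · simp [h, Ne.symm h]

lemma proposalCount_eq_zero {d : Fin n → ℕ} {E E' : Finset (Edge n)}
    (hE : E ∈ realizations d) (hE' : E' ∉ realizations d) : proposalCount E E' = 0 := by
  unfold proposalCount
  refine sum_eq_zero fun S _ => sum_eq_zero fun F hF => sum_eq_zero fun F' hF' => ?_
  rw [if_neg]
  intro h
  apply hE'
  rw [← h]
  exact (switchResult_mem_iff hF (mem_of_mem_erase hF') E d).2 hE

lemma kernel_eq_zero {d : Fin n → ℕ} {E E' : Finset (Edge n)}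
    (hE : E ∈ realizations d) (hE' : E' ∉ realizations d) : kernel n E E' = 0 := by
  unfold kernel
  rw [proposalCount_eq_zero hE hE', if_neg]
  · simp
  · rintro rfl; exact hE' hE

/-! ### perfect matchings of a four-element set -/

lemma pair_mem_pmSet {a b c e : Fin n} (hab : a ≠ b) (hce : c ≠ e) (hac : a ≠ c) (hae : a ≠ e)
    (hbc : b ≠ c) (hbe : b ≠ e) {S : Finset (Fin n)} (hS : S = {a, b, c, e}) :
    ({ed a b hab, ed c e hce} : Finset (Edge n)) ∈ pmSet S := by
  subst hS
  have hne : ed a b hab ≠ ed c e hce := by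
    intro h
    have : a ∈ (ed c e hce).1 := by rw [← h, mem_ed]; simp
    rw [mem_ed] at this
    rcases this with h | h
    · exact hac h
    · exact hae h
  rw [mem_pmSet]
  refine ⟨card_pair hne, ?_, ?_⟩
  · intro f hf v hv
    simp only [mem_insert, mem_singleton] at hf ⊢
    rcases hf with rfl | rfl
    · rw [mem_ed] at hv; tauto
    · rw [mem_ed] at hv; tauto
  · intro v hv
    simp only [mem_insert, mem_singleton] at hv
    rcases hv with rfl | rfl | rfl | rfl
    · rw [filter_insert, filter_singleton, if_pos (by rw [mem_ed]; simp), if_neg]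
      · simp
      · rw [mem_ed]; tauto
    · rw [filter_insert, filter_singleton, if_pos (by rw [mem_ed]; simp), if_neg]
      · simp
      · rw [mem_ed]; tauto
    · rw [filter_insert, filter_singleton, if_neg, if_pos (by rw [mem_ed]; simp)]
      · simp
      · rw [mem_ed]; intro h; rcases h with h | h
        · exact hac h.symm
        · exact hbc h.symm
    · rw [filter_insert, filter_singleton, if_neg, if_pos (by rw [mem_ed]; simp)]
      · simp
      · rw [mem_ed]; intro h; rcases h with h | h
        · exact hae h.symm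
        · exact hbe h.symm

/-- the structure of a perfect matching: the partner of `a` determines it. -/
lemma pmSet_eq_pair {S : Finset (Fin n)} {F : Finset (Edge n)}
    (hF : F ∈ pmSet S) {a : Fin n} (ha : a ∈ S) :
    ∃ b ∈ S, ∃ (hab : a ≠ b), ∀ c ∈ S, ∀ e ∈ S, ∀ (hce : c ≠ e), c ≠ a → c ≠ b → e ≠ a → e ≠ b →
      F = {ed a b hab, ed c e hce} := by
  rw [mem_pmSet] at hF
  obtain ⟨h2, hsub, hone⟩ := hF
  obtain ⟨f, hf⟩ := card_eq_one.1 (hone a ha)
  have hfF : f ∈ F ∧ a ∈ f.1 := by
    have : f ∈ F.filter fun e => a ∈ e.1 := by rw [hf]; simp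
    simpa using this
  obtain ⟨x, y, hxy, rfl⟩ := exists_ed f
  have hex : ∃ b, ∃ hab : a ≠ b, ed x y hxy = ed a b hab := by
    have := hfF.2
    rw [mem_ed] at this
    rcases this with rfl | rfl
    · exact ⟨y, hxy, rfl⟩
    · exact ⟨x, hxy.symm, ed_comm _ _ _⟩
  obtain ⟨b, hab, hfb⟩ := hex
  rw [hfb] at hf hfF
  have hbS : b ∈ S := hsub _ hfF.1 b (by rw [mem_ed]; simp)
  refine ⟨b, hbS, hab, ?_⟩
  intro c hc e he hce hca hcb hea heb
  obtain ⟨g, hg⟩ := card_eq_one.1 (hone c hc)
  have hgF : g ∈ F ∧ c ∈ g.1 := by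
    have : g ∈ F.filter fun e => c ∈ e.1 := by rw [hg]; simp
    simpa using this
  obtain ⟨g', hg'⟩ := card_eq_one.1 (hone e he)
  have hgF' : g' ∈ F ∧ e ∈ g'.1 := by
    have : g' ∈ F.filter fun f => e ∈ f.1 := by rw [hg']; simp
    simpa using this
  have hg1 : ed a b hab ≠ g := by
    rintro rfl
    have := hgF.2
    rw [mem_ed] at this
    tauto
  have hg1' : ed a b hab ≠ g' := by
    rintro rfl
    have := hgF'.2
    rw [mem_ed] at this
    tauto
  have hFeq : F = {ed a b hab, g} := by
    symm
    apply eq_of_subset_of_card_le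
    · intro z hz
      simp only [mem_insert, mem_singleton] at hz
      rcases hz with rfl | rfl
      · exact hfF.1
      · exact hgF.1
    · rw [h2, card_pair hg1]
  have hgg' : g' = g := by
    have := hgF'.1
    rw [hFeq] at this
    simp only [mem_insert, mem_singleton] at this
    rcases this with h | h
    · exact absurd h.symm hg1'
    · exact h
  rw [hgg'] at hgF'
  rw [hFeq, ed_eq_of_mem hce hgF.2 hgF'.2]

lemma exists_four {S : Finset (Fin n)} (hS : S.card = 4) : ∃ a b c e : Fin n,
    a ≠ b ∧ a ≠ c ∧ a ≠ e ∧ b ≠ c ∧ b ≠ e ∧ c ≠ e ∧ S = {a, b, c, e} := by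
  obtain ⟨a, t, hat, rfl, ht⟩ := card_eq_succ.1 hS
  obtain ⟨b, c, e, hbc, hbe, hce, rfl⟩ := card_eq_three.1 ht
  simp only [mem_insert, mem_singleton, not_or] at hat
  exact ⟨a, b, c, e, hat.1, hat.2.1, hat.2.2, hbc, hbe, hce, rfl⟩

lemma card_pmSet {S : Finset (Fin n)} (hS : S.card = 4) : (pmSet S).card = 3 := by
  obtain ⟨a, b, c, e, hab, hac, hae, hbc, hbe, hce, hSe⟩ := exists_four hS
  have haS : a ∈ S := by rw [hSe]; simp
  have hbS : b ∈ S := by rw [hSe]; simp
  have hcS : c ∈ S := by rw [hSe]; simp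
  have heS : e ∈ S := by rw [hSe]; simp
  have m1 := pair_mem_pmSet hab hce hac hae hbc hbe hSe
  have m2 : ({ed a c hac, ed b e hbe} : Finset (Edge n)) ∈ pmSet S :=
    pair_mem_pmSet hac hbe hab hae hbc.symm hce (by rw [hSe]; ext v; simp; tauto)
  have m3 : ({ed a e hae, ed b c hbc} : Finset (Edge n)) ∈ pmSet S :=
    pair_mem_pmSet hae hbc hab hac hbe.symm hce.symm (by rw [hSe]; ext v; simp; tauto)
  have key : ∀ {x y z w y' z' w' : Fin n} (hxy : x ≠ y) (hzw : z ≠ w) (hxy' : x ≠ y')
      (hzw' : z' ≠ w'), y ≠ y' → x ≠ z' → x ≠ w' →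
      ({ed x y hxy, ed z w hzw} : Finset (Edge n)) ≠ {ed x y' hxy', ed z' w' hzw'} := by
    intro x y z w y' z' w' hxy hzw hxy' hzw' hyy' h1 h2 h
    have : ed x y hxy ∈ ({ed x y' hxy', ed z' w' hzw'} : Finset (Edge n)) := by
      rw [← h]; simp
    simp only [mem_insert, mem_singleton] at this
    rcases this with h' | h'
    · have : y ∈ (ed x y' hxy').1 := by rw [← h', mem_ed]; simp
      rw [mem_ed] at this
      rcases this with h3 | h3
      · exact hxy h3.symm
      · exact hyy' h3
    · have : x ∈ (ed z' w' hzw').1 := by rw [← h', mem_ed]; simp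
      rw [mem_ed] at this
      rcases this with h3 | h3
      · exact h1 h3
      · exact h2 h3
  have n12 := key hab hce hac hbe hbc hab hae
  have n13 := key hab hce hae hbc hbe hab hac
  have n23 := key hac hbe hae hbc hce hab hac
  have hset : pmSet S = {{ed a b hab, ed c e hce}, {ed a c hac, ed b e hbe},
      {ed a e hae, ed b c hbc}} := by
    ext F
    simp only [mem_insert, mem_singleton]
    constructor
    · intro hF
      obtain ⟨b', hb', hab', h⟩ := pmSet_eq_pair hF haS
      have hb'' := hb'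
      rw [hSe] at hb''
      simp only [mem_insert, mem_singleton] at hb''
      rcases hb'' with rfl | rfl | rfl | rfl
      · exact absurd rfl hab'
      · left; exact h c hcS e heS hce hac.symm hbc.symm hae.symm hbe.symm
      · right; left; exact h b hbS e heS hbe hab.symm hbc hae.symm hce.symm
      · right; right; exact h b hbS c hcS hbc hab.symm hbe hac.symm hce
    · rintro (rfl | rfl | rfl)
      · exact m1
      · exact m2
      · exact m3
  rw [hset]
  rw [card_eq_three]
  exact ⟨_, _, _, n12, n13, n23, rfl⟩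

lemma sum_proposalCount (E : Finset (Edge n)) :
    ∑ E' : Finset (Edge n), proposalCount E E' = 6 * n.choose 4 := by
  unfold proposalCount
  rw [sum_comm]
  have : ∀ S ∈ (univ : Finset (Fin n)).powersetCard 4,
      ∑ E' : Finset (Edge n), ∑ F ∈ pmSet S, ∑ F' ∈ (pmSet S).erase F,
        (if switchResult E F F' = E' then 1 else 0) = 6 := by
    intro S hS
    rw [mem_powersetCard] at hS
    rw [sum_comm]
    have h1 : ∀ F ∈ pmSet S, ∑ E' : Finset (Edge n), ∑ F' ∈ (pmSet S).erase F,
        (if switchResult E F F' = E' then 1 else 0) = 2 := by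
      intro F hF
      rw [sum_comm]
      simp only [sum_ite_eq, mem_univ, if_true, sum_const, smul_eq_mul, mul_one]
      rw [card_erase_of_mem hF, card_pmSet hS.2]
    rw [sum_congr rfl h1, sum_const, card_pmSet hS.2]
    rfl
  rw [sum_congr rfl this, sum_const, card_powersetCard]
  simp [mul_comm]

lemma sum_kernel (hn : 4 ≤ n) (E : Finset (Edge n)) :
    ∑ E' : Finset (Edge n), kernel n E E' = 1 := by
  unfold kernel
  have hC : (0 : ℝ) < n.choose 4 := by exact_mod_cast Nat.choose_pos hn
  rw [sum_add_distrib, ← sum_div]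
  have := sum_proposalCount E
  have h2 : (∑ E' : Finset (Edge n), (proposalCount E E' : ℝ)) = 6 * (n.choose 4 : ℝ) := by
    exact_mod_cast this
  rw [h2]
  simp only [sum_ite_eq, mem_univ, if_true]
  field_simp
  norm_num

lemma kernel_nonneg (E E' : Finset (Edge n)) : 0 ≤ kernel n E E' := by
  unfold kernel
  have : (0 : ℝ) ≤ (proposalCount E E' : ℝ) / (12 * (n.choose 4 : ℝ)) := by positivity
  split_ifs <;> linarith

end Crest.Agent.H25.T6
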