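import Crest.Agent.H25.T6a

/-!
T6, part b: total variation bound from a Poincaré inequality for a lazy symmetric chain.
-/

set_option autoImplicit false

namespace Crest.Agent.H25.T6

open Finset Crest.SwitchChain

section general

variable {α : Type*} [Fintype α] [DecidableEq α]

lemma jensen_row (a w : α → ℝ) (ha : ∀ x, 0 ≤ a x) (h1 : ∑ x, a x = 1) :
    (∑ x, a x * w x) ^ 2 ≤ ∑ x, a x * w x ^ 2 := by
  have := Finset.sum_sq_le_sum_mul_sum_of_sq_eq_mul univ (f := a) (g := fun x => a x * w x ^ 2)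
    (r := fun x => a x * w x) (fun x _ => ha x) (fun x _ => mul_nonneg (ha x) (sq_nonneg _))
    (fun x _ => by ring)
  rw [h1, one_mul] at this
  exact this

/-- lazy symmetric stochastic matrices satisfy `‖K w‖² ≤ ⟨w, K w⟩`. -/
lemma norm_sq_le (K : Matrix α α ℝ) (hsymm : ∀ x y, K x y = K y x) (hnn : ∀ x y, 0 ≤ K x y)
    (hsum : ∀ x, ∑ y, K x y = 1) (hlazy : ∀ x, 1 / 2 ≤ K x x) (w : α → ℝ) :
    ∑ x, (∑ y, K x y * w y) ^ 2 ≤ ∑ x, w x * ∑ y, K x y * w y := by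
  set K' : α → α → ℝ := fun x y => 2 * K x y - if x = y then 1 else 0 with hK'
  have hK'nn : ∀ x y, 0 ≤ K' x y := by
    intro x y
    simp only [hK']
    split_ifs with h
    · subst h; linarith [hlazy x]
    · linarith [hnn x y]
  have hK'sum : ∀ x, ∑ y, K' x y = 1 := by
    intro x
    simp only [hK', sum_sub_distrib, ← mul_sum, hsum]
    simp
    norm_num
  have hK'symm : ∀ x y, K' x y = K' y x := by
    intro x y
    simp only [hK', hsymm x y, eq_comm]
  have hK'w : ∀ x, ∑ y, K' x y * w y = 2 * (∑ y, K x y * w y) - w x := by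
    intro x
    simp only [hK', sub_mul, sum_sub_distrib, mul_assoc, ← mul_sum, ite_mul, one_mul, zero_mul]
    simp
  have h1 : ∑ x, (∑ y, K' x y * w y) ^ 2 ≤ ∑ x, w x ^ 2 := by
    calc ∑ x, (∑ y, K' x y * w y) ^ 2 ≤ ∑ x, ∑ y, K' x y * w y ^ 2 :=
          sum_le_sum fun x _ => jensen_row _ _ (hK'nn x) (hK'sum x)
      _ = ∑ y, ∑ x, K' x y * w y ^ 2 := sum_comm
      _ = ∑ y, w y ^ 2 := by
          refine sum_congr rfl fun y _ => ?_
          rw [← sum_mul]
          have : ∑ x, K' x y = 1 := by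
            rw [← hK'sum y]; exact sum_congr rfl fun x _ => hK'symm x y
          rw [this, one_mul]
  have h2 : ∑ x, (∑ y, K' x y * w y) ^ 2 =
      4 * ∑ x, (∑ y, K x y * w y) ^ 2 - 4 * (∑ x, w x * ∑ y, K x y * w y) + ∑ x, w x ^ 2 := by
    rw [mul_sum, mul_sum, ← sum_sub_distrib, ← sum_add_distrib]
    refine sum_congr rfl fun x _ => ?_
    rw [hK'w x]; ring
  linarith

variable (K : Matrix α α ℝ) (Ω : Finset α)

/-- Dirichlet form identity on a closed set. -/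
lemma dirichlet (hsymm : ∀ x y, K x y = K y x)
    (hsum : ∀ x, ∑ y, K x y = 1) (hcl : ∀ x ∈ Ω, ∀ y, y ∉ Ω → K x y = 0) (f : α → ℝ) :
    ∑ x ∈ Ω, f x * (f x - ∑ y ∈ Ω, K x y * f y) =
      (1 / 2) * ∑ x ∈ Ω, ∑ y ∈ Ω, K x y * (f x - f y) ^ 2 := by
  have hsumΩ : ∀ x ∈ Ω, ∑ y ∈ Ω, K x y = 1 := by
    intro x hx
    rw [← hsum x]
    exact sum_subset (subset_univ _) fun y _ hy => hcl x hx y hy
  have e1 : ∑ x ∈ Ω, ∑ y ∈ Ω, K x y * f x ^ 2 = ∑ x ∈ Ω, f x ^ 2 := by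
    refine sum_congr rfl fun x hx => ?_
    rw [← sum_mul, hsumΩ x hx, one_mul]
  have e2 : ∑ x ∈ Ω, ∑ y ∈ Ω, K x y * f y ^ 2 = ∑ x ∈ Ω, f x ^ 2 := by
    rw [sum_comm]
    refine sum_congr rfl fun x hx => ?_
    rw [← sum_mul]
    have : ∑ i ∈ Ω, K i x = 1 := by
      rw [← hsumΩ x hx]; exact sum_congr rfl fun y _ => hsymm y x
    rw [this, one_mul]
  have e3 : ∑ x ∈ Ω, ∑ y ∈ Ω, K x y * (f x - f y) ^ 2 =
      ∑ x ∈ Ω, ∑ y ∈ Ω, K x y * f x ^ 2 + ∑ x ∈ Ω, ∑ y ∈ Ω, K x y * f y ^ 2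
        - 2 * ∑ x ∈ Ω, ∑ y ∈ Ω, f x * (K x y * f y) := by
    rw [mul_sum, ← sum_add_distrib, ← sum_sub_distrib]
    refine sum_congr rfl fun x _ => ?_
    rw [mul_sum, ← sum_add_distrib, ← sum_sub_distrib]
    refine sum_congr rfl fun y _ => ?_
    ring
  rw [e3, e1, e2]
  have e4 : ∑ x ∈ Ω, f x * (f x - ∑ y ∈ Ω, K x y * f y) =
      ∑ x ∈ Ω, f x ^ 2 - ∑ x ∈ Ω, ∑ y ∈ Ω, f x * (K x y * f y) := by
    rw [← sum_sub_distrib]
    refine sum_congr rfl fun x _ => ?_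
    rw [mul_sub, mul_sum]; ring
  rw [e4]; ring

/-- total variation bound. -/
lemma tv_bound (hsymm : ∀ x y, K x y = K y x) (hnn : ∀ x y, 0 ≤ K x y)
    (hsum : ∀ x, ∑ y, K x y = 1) (hlazy : ∀ x, 1 / 2 ≤ K x x)
    (hcl : ∀ x ∈ Ω, ∀ y, y ∉ Ω → K x y = 0) (γ : ℝ) (hγ1 : γ ≤ 1)
    (hP : ∀ f : α → ℝ, ∑ x ∈ Ω, f x = 0 →
      γ * ∑ x ∈ Ω, f x ^ 2 ≤ ∑ x ∈ Ω, f x * (f x - ∑ y ∈ Ω, K x y * f y))
    (x₀ : α) (hx₀ : x₀ ∈ Ω) (t : ℕ) :
    (tvDist (fun y => (K ^ t) x₀ y) (unifOn Ω)) ^ 2 ≤ (1 / 4) * (Ω.card : ℝ) * (1 - γ) ^ t := by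
  have hΩ : (0 : ℝ) < Ω.card := by exact_mod_cast card_pos.2 ⟨x₀, hx₀⟩
  set u : ℕ → α → ℝ := fun t y => (K ^ t) x₀ y - unifOn Ω y with hu
  have hsumΩ : ∀ x ∈ Ω, ∑ y ∈ Ω, K x y = 1 := by
    intro x hx
    rw [← hsum x]
    exact sum_subset (subset_univ _) fun y _ hy => hcl x hx y hy
  -- invariance of the uniform weight
  have hunif : ∀ y, ∑ x, K y x * unifOn Ω x = unifOn Ω y := by
    intro y
    by_cases hy : y ∈ Ω
    · have : ∑ x, K y x * unifOn Ω x = ∑ x ∈ Ω, K y x * (1 / (Ω.card : ℝ)) := by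
        rw [← sum_subset (subset_univ Ω)]
        · refine sum_congr rfl fun x hx => ?_
          simp [unifOn, hx]
        · intro x _ hx
          simp [unifOn, hx]
      rw [this, ← sum_mul, hsumΩ y hy, one_mul]
      simp [unifOn, hy]
    · have : ∀ x, K y x * unifOn Ω x = 0 := by
        intro x
        by_cases hx : x ∈ Ω
        · rw [hsymm y x, hcl x hx y hy, zero_mul]
        · simp [unifOn, hx]
      simp only [this]
      simp [unifOn, hy]
  have hstep : ∀ t y, u (t + 1) y = ∑ x, K y x * u t x := by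
    intro t y
    simp only [hu, mul_sub, sum_sub_distrib, hunif]
    rw [pow_succ, Matrix.mul_apply]
    congr 1
    refine sum_congr rfl fun x _ => ?_
    rw [hsymm x y, mul_comm]
  have hsupp : ∀ t y, y ∉ Ω → u t y = 0 := by
    intro t
    induction t with
    | zero =>
      intro y hy
      have : x₀ ≠ y := by rintro rfl; exact hy hx₀
      simp [hu, unifOn, hy, Matrix.one_apply, this]
    | succ t ih =>
      intro y hy
      rw [hstep]
      refine sum_eq_zero fun x _ => ?_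
      by_cases hx : x ∈ Ω
      · rw [hsymm y x, hcl x hx y hy, zero_mul]
      · rw [ih x hx, mul_zero]
  have hzero : ∀ t, ∑ y, u t y = 0 := by
    intro t
    induction t with
    | zero =>
      simp only [hu, pow_zero, Matrix.one_apply, sum_sub_distrib]
      have : ∑ x, unifOn Ω x = 1 := by
        simp only [unifOn, sum_ite_mem, univ_inter, sum_const, nsmul_eq_mul]
        field_simp
      rw [this]; simp
    | succ t ih =>
      simp only [hstep]
      rw [sum_comm]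
      have : ∀ x, ∑ y, K y x * u t x = u t x := by
        intro x
        rw [← sum_mul]
        have : ∑ y, K y x = 1 := by rw [← hsum x]; exact sum_congr rfl fun y _ => hsymm y x
        rw [this, one_mul]
      simp only [this, ih]
  have hrest : ∀ (g : α → ℝ), (∀ y, y ∉ Ω → g y = 0) → ∑ y, g y = ∑ y ∈ Ω, g y := by
    intro g hg
    exact (sum_subset (subset_univ Ω) fun y _ hy => hg y hy).symm
  have hcontr : ∀ t, ∑ y, u (t + 1) y ^ 2 ≤ (1 - γ) * ∑ y, u t y ^ 2 := by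
    intro t
    have h1 := norm_sq_le K hsymm hnn hsum hlazy (u t)
    have h2 := hP (u t) (by rw [← hrest _ (hsupp t)]; exact hzero t)
    have h3 : ∑ x ∈ Ω, u t x ^ 2 = ∑ x, u t x ^ 2 := by
      rw [hrest]; intro y hy; rw [hsupp t y hy]; norm_num
    have h4 : ∀ x, ∑ y, K x y * u t y = ∑ y ∈ Ω, K x y * u t y := by
      intro x; rw [hrest]; intro y hy; rw [hsupp t y hy]; norm_num
    have h5 : ∑ x ∈ Ω, u t x * (u t x - ∑ y ∈ Ω, K x y * u t y) =
        ∑ x, u t x ^ 2 - ∑ x, u t x * ∑ y, K x y * u t y := by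
      rw [← sum_sub_distrib, hrest]
      · refine sum_congr rfl fun x _ => ?_
        rw [h4]; ring
      · intro y hy; rw [hsupp t y hy]; norm_num
    rw [h5, h3] at h2
    simp only [hstep]
    linarith
  have hdecay : ∀ t, ∑ y, u t y ^ 2 ≤ (1 - γ) ^ t := by
    intro t
    induction t with
    | zero =>
      simp only [pow_zero]
      have : ∑ y, u 0 y ^ 2 = 1 - 1 / (Ω.card : ℝ) := by
        rw [hrest]
        · have h1 : ∀ y ∈ Ω, u 0 y ^ 2 = (if y = x₀ then 1 - 2 / (Ω.card : ℝ) else 0) +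
              (1 / (Ω.card : ℝ)) ^ 2 := by
            intro y hy
            simp only [hu, pow_zero, Matrix.one_apply, unifOn, hy, if_true]
            by_cases h : y = x₀
            · subst h; simp; ring
            · rw [if_neg (Ne.symm h), if_neg h]; ring
          rw [sum_congr rfl h1, sum_add_distrib, sum_ite_eq', if_pos hx₀, sum_const, nsmul_eq_mul]
          field_simp
          ring
        · intro y hy; rw [hsupp 0 y hy]; norm_num
      rw [this]
      have : 0 ≤ 1 / (Ω.card : ℝ) := by positivity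
      linarith
    | succ t ih =>
      calc ∑ y, u (t + 1) y ^ 2 ≤ (1 - γ) * ∑ y, u t y ^ 2 := hcontr t
        _ ≤ (1 - γ) * (1 - γ) ^ t := mul_le_mul_of_nonneg_left ih (by linarith)
        _ = (1 - γ) ^ (t + 1) := by ring
  have htv : tvDist (fun y => (K ^ t) x₀ y) (unifOn Ω) = (∑ y ∈ Ω, |u t y|) / 2 := by
    unfold tvDist
    congr 1
    rw [← hrest]
    intro y hy
    rw [hsupp t y hy, abs_zero]
  rw [htv]
  have hcs : (∑ y ∈ Ω, |u t y|) ^ 2 ≤ Ω.card * ∑ y ∈ Ω, u t y ^ 2 := by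
    have := sq_sum_le_card_mul_sum_sq (s := Ω) (f := fun y => |u t y|)
    simpa [sq_abs] using this
  have h6 : ∑ y ∈ Ω, u t y ^ 2 ≤ (1 - γ) ^ t := by
    rw [← hrest]
    · exact hdecay t
    · intro y hy; rw [hsupp t y hy]; norm_num
  calc ((∑ y ∈ Ω, |u t y|) / 2) ^ 2 = (1 / 4) * (∑ y ∈ Ω, |u t y|) ^ 2 := by ring
    _ ≤ (1 / 4) * (Ω.card * ∑ y ∈ Ω, u t y ^ 2) := by gcongr
    _ ≤ (1 / 4) * (Ω.card * (1 - γ) ^ t) := by gcongr
    _ = _ := by ring

end general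

end Crest.Agent.H25.T6
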